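import Vale.Agent.P200.Kos

namespace Vale.Agent.P200

open Finset Module

variable {n : ℕ} {D : Type*}

section Ring

variable [Ring D]

/-- wedge with a row -/
def wed (v : Fin n → D) (w : Finset (Fin n) → D) : Finset (Fin n) → D :=
  fun t => ∑ j ∈ t, sg j (t.erase j) • (w (t.erase j) * v j)

/-- contraction -/
def con (j : Fin n) (w : Finset (Fin n) → D) : Finset (Fin n) → D :=
  fun t => if j ∈ t then 0 else sg j t • w (insert j t)

theorem con_wed (j : Fin n) (v : Fin n → D) (w : Finset (Fin n) → D) (t : Finset (Fin n)) :
    con j (wed v w) t = w t * v j - wed v (con j w) t := by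
  by_cases hj : j ∈ t
  · rw [con, if_pos hj, wed, Finset.sum_eq_single j]
    · rw [con, if_neg (Finset.notMem_erase j t), Finset.insert_erase hj, smul_mul_assoc, smul_smul,
        sg_sq, one_smul, sub_self]
    · intro k _ hkj
      rw [con, if_pos (Finset.mem_erase.mpr ⟨hkj.symm, hj⟩), zero_mul, smul_zero]
    · intro h; exact absurd hj h
  · rw [con, if_neg hj, wed, Finset.sum_insert hj, Finset.erase_insert hj, smul_add, smul_smul,
      sg_sq, one_smul, wed, sub_eq_add_neg, Finset.smul_sum, ← Finset.sum_neg_distrib]
    congr 1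
    refine Finset.sum_congr rfl fun k hk => ?_
    have hne : j ≠ k := fun e => hj (e ▸ hk)
    have hj' : j ∉ t.erase k := fun h => hj (Finset.mem_of_mem_erase h)
    have h1 := sg_swap k j (t.erase k) (Finset.notMem_erase k t) hj' hne.symm
    rw [Finset.insert_erase hk] at h1
    rw [con, if_neg hj', Finset.erase_insert_of_ne hne, smul_mul_assoc, smul_smul, smul_smul,
      ← neg_smul]
    congr 1
    have h2 := sg_sq k (t.erase k)
    have h3 := sg_sq j t
    have h4 := sg_sq j (t.erase k)
    have h5 := sg_sq k (insert j (t.erase k))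
    calc sg j t * sg k (insert j (t.erase k))
        = (sg k (t.erase k) * sg k (t.erase k)) * sg j t * sg k (insert j (t.erase k)) := by
          rw [h2, one_mul]
      _ = sg k (t.erase k) * (sg k (t.erase k) * sg j t) * sg k (insert j (t.erase k)) := by ring
      _ = -(sg k (t.erase k) * sg j (t.erase k)) *
          (sg k (insert j (t.erase k)) * sg k (insert j (t.erase k))) := by rw [h1]; ring
      _ = _ := by rw [h5, mul_one]

variable (e : Fin n → Fin n → D)

/-- minors along a list of rows -/
def cfl : List (Fin n) → Finset (Fin n) → D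
  | [] => fun t => if t = ∅ then 1 else 0
  | a :: l => wed (e a) (cfl l)

/-- minors -/
def cf (s : Finset (Fin n)) : Finset (Fin n) → D := cfl e (s.sort (· ≤ ·))

theorem cf_empty (t : Finset (Fin n)) : cf e ∅ t = if t = ∅ then 1 else 0 := by
  rw [cf, Finset.sort_empty]; rfl

theorem cf_insert (a : Fin n) (s : Finset (Fin n)) (h : ∀ x ∈ s, a < x) :
    cf e (insert a s) = wed (e a) (cf e s) := by
  rw [cf, Finset.sort_insert _ (fun b hb => (h b hb).le) (fun ha => lt_irrefl _ (h a ha))]
  rfl

theorem cf_card (s : Finset (Fin n)) : ∀ t, s.card ≠ t.card → cf e s t = 0 := by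
  induction s using Finset.induction_on_min with
  | empty =>
    intro t ht
    rw [cf_empty, if_neg (fun h => ht (by rw [h]))]
  | insert a s h ih =>
    intro t ht
    rw [cf_insert e a s h, wed]
    refine Finset.sum_eq_zero fun j hj => ?_
    rw [ih, zero_mul, smul_zero]
    rw [Finset.card_insert_of_notMem (fun ha => lt_irrefl _ (h a ha))] at ht
    have := Finset.card_erase_add_one hj
    omega

variable (he : ∀ i i', i ≠ i' → ∀ j j', e i j * e i' j' = e i' j' * e i j)
include he

theorem cf_comm (i j : Fin n) (s : Finset (Fin n)) :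
    i ∉ s → ∀ t, e i j * cf e s t = cf e s t * e i j := by
  induction s using Finset.induction_on_min with
  | empty => intro _ t; rw [cf_empty]; split_ifs <;> simp
  | insert a s h ih =>
    intro hi t
    rw [Finset.mem_insert, not_or] at hi
    rw [cf_insert e a s h, wed, Finset.mul_sum, Finset.sum_mul]
    refine Finset.sum_congr rfl fun k _ => ?_
    rw [mul_smul_comm, smul_mul_assoc, ← mul_assoc, ih hi.2, mul_assoc, mul_assoc, he i a hi.1]

theorem con_cf (j : Fin n) (s : Finset (Fin n)) :
    ∀ t, con j (cf e s) t = ∑ i ∈ s, sg i (s.erase i) • (cf e (s.erase i) t * e i j) := by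
  induction s using Finset.induction_on_min with
  | empty =>
    intro t
    rw [con, cf_empty, if_neg (Finset.insert_ne_empty j t)]
    simp
  | insert a s h ih =>
    intro t
    have ha : a ∉ s := fun ha => lt_irrefl _ (h a ha)
    rw [cf_insert e a s h, con_wed, Finset.sum_insert ha, Finset.erase_insert ha, sg_min a s h,
      one_smul, sub_eq_add_neg]
    congr 1
    simp only [wed, ih, Finset.sum_mul, Finset.smul_sum]
    rw [Finset.sum_comm, ← Finset.sum_neg_distrib]
    refine Finset.sum_congr rfl fun i hi => ?_
    have hne : a ≠ i := (h i hi).ne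
    rw [Finset.erase_insert_of_ne hne,
      cf_insert e a _ (fun x hx => h x (Finset.mem_of_mem_erase hx)),
      sg_insert _ _ _ (fun h' => ha (Finset.mem_of_mem_erase h')), if_pos (h i hi), wed,
      Finset.sum_mul, Finset.smul_sum, ← Finset.sum_neg_distrib]
    refine Finset.sum_congr rfl fun k _ => ?_
    simp only [smul_mul_assoc, smul_smul, mul_assoc, he i a hne.symm]
    rw [← neg_smul]
    congr 1
    ring

end Ring

theorem sum_reindex {M : Type*} [AddCommMonoid M] (g : Fin n → Finset (Fin n) → M) :
    ∑ u : Finset (Fin n), ∑ i ∈ uᶜ, g i u = ∑ s : Finset (Fin n), ∑ i ∈ s, g i (s.erase i) := by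
  rw [Finset.sum_sigma', Finset.sum_sigma']
  refine Finset.sum_nbij' (fun x => ⟨insert x.2 x.1, x.2⟩) (fun x => ⟨x.1.erase x.2, x.2⟩)
    ?_ ?_ ?_ ?_ ?_
  · rintro ⟨u, i⟩ _; simp
  · rintro ⟨u, i⟩ _; simp
  · rintro ⟨u, i⟩ h
    have : i ∉ u := by simpa using h
    simp [Finset.erase_insert this]
  · rintro ⟨u, i⟩ h
    have : i ∈ u := by simpa using h
    simp [Finset.insert_erase this]
  · rintro ⟨u, i⟩ h
    have : i ∉ u := by simpa using h
    simp [Finset.erase_insert this]

section Div

variable [DivisionRing D]

/-- left combination of the rows of a matrix -/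
def rows {ι : Type*} [Fintype ι] (c : ι → ι → D) : (ι → D) →ₗ[D] (ι → D) where
  toFun a t := ∑ s, a s * c s t
  map_add' a b := by ext t; simp [add_mul, Finset.sum_add_distrib]
  map_smul' d a := by ext t; simp [Finset.mul_sum, mul_assoc]

theorem rows_inj {ι : Type*} [Fintype ι] [DecidableEq ι] (c : ι → ι → D)
    (h : ∀ k, ∃ a : ι → D, ∀ j, ∑ i, a i * c i j = if k = j then 1 else 0) :
    Function.Injective (rows c) := by
  rw [LinearMap.injective_iff_surjective, ← LinearMap.range_eq_top, eq_top_iff,
    ← (Pi.basisFun D ι).span_eq, Submodule.span_le]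
  rintro _ ⟨k, rfl⟩
  obtain ⟨a, ha⟩ := h k
  refine ⟨a, funext fun j => (ha j).trans ?_⟩
  simp [Pi.single_apply, eq_comm]

theorem right_inv {ι : Type*} [Fintype ι] [DecidableEq ι] (c : ι → ι → D)
    (h : Function.Injective (rows c)) :
    ∃ c' : ι → ι → D, ∀ s s', ∑ t, c s t * c' t s' = if s = s' then 1 else 0 := by
  choose c' hc' using fun t => LinearMap.injective_iff_surjective.mp h (Pi.single t 1)
  refine ⟨c', fun s s' => ?_⟩
  have h1 : rows c (fun s' => ∑ t, c s t * c' t s') = rows c (Pi.single s 1) := by
    funext u
    have h2 : ∀ t, ∑ x, c' t x * c x u = (Pi.single t 1 : ι → D) u := fun t => congrFun (hc' t) u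
    show ∑ x, (∑ t, c s t * c' t x) * c x u = ∑ x, (Pi.single s 1 : ι → D) x * c x u
    simp only [Finset.sum_mul, mul_assoc]
    rw [Finset.sum_comm]
    simp only [← Finset.mul_sum, h2]
    simp [Pi.single_apply]
  have := congrFun (h h1) s'
  simpa [Pi.single_apply, eq_comm] using this

theorem cf_inj (e : Fin n → Fin n → D)
    (he : ∀ i i', i ≠ i' → ∀ j j', e i j * e i' j' = e i' j' * e i j)
    (hi : Function.Injective (rows e)) : Function.Injective (rows (cf e)) := by
  have key : ∀ p, ∀ a : Finset (Fin n) → D, (∀ s, p ≤ s.card → a s = 0) →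
      rows (cf e) a = 0 → a = 0 := by
    intro p
    induction p with
    | zero => intro a h _; exact funext fun s => h s (Nat.zero_le _)
    | succ p ih =>
      intro a h1 h2
      have h2' : ∀ t, ∑ s, a s * cf e s t = 0 := fun t => congrFun h2 t
      let a' : Fin n → Finset (Fin n) → D := fun i u =>
        if i ∈ u then 0 else sg i u • a (insert i u)
      have h3 : ∀ t, rows e (fun i => rows (cf e) (a' i) t) = 0 := by
        intro t
        funext j
        have h4 : ∑ s, a s * con j (cf e s) t = 0 := by
          simp only [con]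
          split_ifs
          · simp
          · simp only [mul_smul_comm, ← Finset.smul_sum, h2', smul_zero]
        simp only [con_cf e he, Finset.mul_sum] at h4
        have h5 := sum_reindex fun i u => a (insert i u) * (sg i u • (cf e u t * e i j))
        replace h5 := h5.trans ((Finset.sum_congr rfl (fun s _ => Finset.sum_congr rfl fun i hi => by
          rw [Finset.insert_erase hi])).trans h4)
        show ∑ i, (∑ u, a' i u * cf e u t) * e i j = 0
        simp only [Finset.sum_mul]
        rw [Finset.sum_comm, ← h5]
        refine Finset.sum_congr rfl fun u _ => ?_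
        rw [← Finset.sum_subset (Finset.subset_univ uᶜ) (fun i _ hi => by
          simp only [a']; rw [if_pos (by simpa using hi), zero_mul, zero_mul])]
        refine Finset.sum_congr rfl fun i hi => ?_
        simp only [a']
        rw [if_neg (Finset.mem_compl.mp hi), smul_mul_assoc, smul_mul_assoc, mul_smul_comm,
          mul_assoc]
      have h6 : ∀ i, a' i = 0 := fun i => ih _ (fun u hu => by
        simp only [a']
        split_ifs with h
        · rfl
        · rw [h1, smul_zero]
          rw [Finset.card_insert_of_notMem h]; omega)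
        (funext fun t => congrFun (hi ((h3 t).trans (map_zero _).symm)) i)
      have h7 : ∀ s, s ≠ ∅ → a s = 0 := by
        intro s hs
        obtain ⟨i, hi⟩ := Finset.nonempty_iff_ne_empty.mpr hs
        have h8 := congrFun (h6 i) (s.erase i)
        simp only [a', if_neg (Finset.notMem_erase i s), Finset.insert_erase hi, Pi.zero_apply] at h8
        rw [← one_smul ℤ (a s), ← sg_sq i (s.erase i), mul_smul, h8, smul_zero]
      funext s
      by_cases hs : s = ∅
      · have h8 := h2' ∅
        rw [Finset.sum_eq_single ∅ (fun s _ hs => by rw [h7 s hs, zero_mul]) (by simp), cf_empty,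
          if_pos rfl, mul_one] at h8
        rw [hs]; exact h8
      · exact h7 s hs
  rw [← LinearMap.ker_eq_bot, eq_bot_iff]
  intro a ha
  exact key (n + 1) a (fun s hs => by
    have := Finset.card_le_univ s
    rw [Fintype.card_fin] at this
    omega) ha

end Div

end Vale.Agent.P200
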