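import Vale.Agent.P200.Hilb

namespace Vale.Agent.P200

open MvPolynomial Finset Module CategoryTheory Abelian

universe u

/-- ideal generated by the first `k` members of a sequence -/
def preN {S : Type*} [CommRing S] (G : ℕ → S) (k : ℕ) : Ideal S := Ideal.span (G '' Set.Iio k)

/-- the first `m` members form a regular sequence -/
def RegN {S : Type*} [CommRing S] (G : ℕ → S) (m : ℕ) : Prop :=
  ∀ i < m, ∀ g, G i * g ∈ preN G i → g ∈ preN G i

theorem preN_succ {S : Type*} [CommRing S] (G : ℕ → S) (k : ℕ) :
    preN G (k + 1) = preN G k ⊔ Ideal.span {G k} := by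
  rw [preN, preN, ← Ideal.span_union, ← Set.image_singleton, ← Set.image_union,
    Set.Iio_union_right, ← Order.Iio_succ]
  rfl

theorem preN_congr {S : Type*} [CommRing S] {G G' : ℕ → S} {k : ℕ} (h : ∀ i < k, G i = G' i) :
    preN G k = preN G' k := by
  rw [preN, preN, Set.image_congr (s := Set.Iio k) (fun i hi => h i hi)]

theorem pre_eq_preN {S : Type*} [CommRing S] (G : ℕ → S) {m k : ℕ} (hk : k ≤ m) :
    pre (fun i : Fin m => G i) k = preN G k := by
  rw [pre, preN]
  congr 1
  ext g
  constructor
  · rintro ⟨j, hj, rfl⟩; exact ⟨j, hj, rfl⟩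
  · rintro ⟨j, hj, rfl⟩; exact ⟨⟨j, lt_of_lt_of_le hj hk⟩, hj, rfl⟩

theorem reg_iff_regN {S : Type*} [CommRing S] (G : ℕ → S) (m : ℕ) :
    Reg (fun i : Fin m => G i) ↔ RegN G m := by
  constructor
  · intro h i hi g
    have := h ⟨i, hi⟩ g
    rwa [pre_eq_preN G hi.le] at this
  · intro h i g
    rw [pre_eq_preN G i.2.le]
    exact h i i.2 g

theorem ext_down {S : Type u} [CommRing S] (N : ModuleCat.{u} S) (I : Ideal S) (r : S)
    (hr : ∀ g, r * g ∈ I → g ∈ I) (k : ℕ)
    (h : ∀ i < k + 1, Subsingleton (Ext N (ModuleCat.of S (S ⧸ I)) i)) :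
    ∀ i < k, Subsingleton (Ext N (ModuleCat.of S (S ⧸ (I ⊔ Ideal.span {r}))) i) := by
  intro i hi
  let π : (S ⧸ I) →ₗ[S] (S ⧸ (I ⊔ Ideal.span {r})) := Submodule.factor le_sup_left
  have hex : Function.Exact (LinearMap.lsmul S (S ⧸ I) r) π := by
    intro y
    obtain ⟨y, rfl⟩ := Submodule.mkQ_surjective I y
    constructor
    · intro hy
      have h1 : y ∈ I ⊔ Ideal.span {r} := (Submodule.Quotient.mk_eq_zero _).mp hy
      obtain ⟨a, ha, b, hb, rfl⟩ := Submodule.mem_sup.mp h1
      obtain ⟨b, rfl⟩ := Ideal.mem_span_singleton'.mp hb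
      refine ⟨I.mkQ b, ?_⟩
      rw [LinearMap.lsmul_apply, ← map_smul, map_add, (Submodule.Quotient.mk_eq_zero _).mpr ha
        |> (show I.mkQ a = 0 from ·), zero_add, smul_eq_mul, mul_comm]
    · rintro ⟨z, hz⟩
      obtain ⟨z, rfl⟩ := Submodule.mkQ_surjective I z
      rw [← hz, LinearMap.lsmul_apply, ← map_smul]
      exact (Submodule.Quotient.mk_eq_zero _).mpr
        (Submodule.mem_sup_right (Ideal.mem_span_singleton'.mpr ⟨z, mul_comm _ _⟩))
  have hse : (ModuleCat.shortComplexOfCompEqZero (LinearMap.lsmul S (S ⧸ I) r) π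
      hex.linearMap_comp_eq_zero).ShortExact :=
    ModuleCat.shortComplex_shortExact _ hex
      ((isSMulRegular_quotient_iff_mem_of_smul_mem I r).mpr hr)
      (Submodule.factor_surjective le_sup_left)
  have zero1 := AddCommGrpCat.isZero_of_iff_subsingleton.mpr (h i (by omega))
  have zero2 := AddCommGrpCat.isZero_of_iff_subsingleton.mpr (h (i + 1) (by omega))
  exact AddCommGrpCat.subsingleton_of_isZero <| ShortComplex.Exact.isZero_of_both_zeros
    ((Ext.covariant_sequence_exact₃' N hse) i (i + 1) rfl)
    (zero1.eq_zero_of_src _) (zero2.eq_zero_of_tgt _)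

variable {K : Type u} [Field K] {n : ℕ}

theorem span_X_ne_top :
    Ideal.span (Set.range (X : Fin n → MvPolynomial (Fin n) K)) ≠ ⊤ := by
  rw [Ideal.ne_top_iff_one, ← Set.image_univ, mem_ideal_span_X_image]
  intro h
  obtain ⟨i, _, hi⟩ := h 0 (by simp)
  exact hi rfl

theorem X_regular : RingTheory.Sequence.IsRegular (MvPolynomial (Fin n) K)
    (List.ofFn (X : Fin n → MvPolynomial (Fin n) K)) := by
  refine ⟨⟨fun i hi => ?_⟩, ?_⟩
  · rw [isSMulRegular_quotient_iff_mem_of_smul_mem]
    have hi' : i < n := by simpa using hi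
    have e : (Ideal.ofList ((List.ofFn (X : Fin n → MvPolynomial (Fin n) K)).take i) • ⊤ :
        Submodule (MvPolynomial (Fin n) K) (MvPolynomial (Fin n) K)) =
        Ideal.span (X '' {j : Fin n | j.val < i}) := by
      rw [smul_eq_mul, Ideal.mul_top, Ideal.ofList]
      congr 1
      ext g
      simp only [Set.mem_ofPred_eq, List.mem_take_iff_getElem, List.getElem_ofFn, Set.mem_image,
        List.length_ofFn]
      constructor
      · rintro ⟨j, hj, rfl⟩; exact ⟨_, (by show j < i; omega), rfl⟩
      · rintro ⟨j, hj, rfl⟩; exact ⟨j, by have := j.2; omega, rfl⟩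
    rw [e]
    intro g hg
    rw [mem_ideal_span_X_image] at hg ⊢
    intro m hm
    rw [List.getElem_ofFn, smul_eq_mul] at hg
    obtain ⟨j, hj, h⟩ := hg (Finsupp.single ⟨i, hi'⟩ 1 + m) (by
      rw [MvPolynomial.mem_support_iff, coeff_X_mul]; exact MvPolynomial.mem_support_iff.mp hm)
    refine ⟨j, hj, ?_⟩
    have hne : j ≠ ⟨i, hi'⟩ := fun e => by rw [e] at hj; exact lt_irrefl i hj
    simpa [Finsupp.single_eq_of_ne hne] using h
  · rw [smul_eq_mul, Ideal.mul_top, Ideal.ofList]
    have : {r | r ∈ List.ofFn (X : Fin n → MvPolynomial (Fin n) K)} = Set.range X := by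
      ext g; simp [List.mem_ofFn']
    rw [this]
    exact span_X_ne_top.symm

theorem socle_zero (G : ℕ → MvPolynomial (Fin n) K) (m : ℕ) (hm : m < n) (hG : RegN G m)
    (g : MvPolynomial (Fin n) K) (hg : ∀ j, X j * g ∈ preN G m) : g ∈ preN G m := by
  let S := MvPolynomial (Fin n) K
  let M : Ideal S := Ideal.span (Set.range (X : Fin n → S))
  let N := ModuleCat.of S (S ⧸ M)
  have key : ∀ k ≤ m, ∀ i < n - k, Subsingleton (Ext N (ModuleCat.of S (S ⧸ preN G k)) i) := by
    intro k
    induction k with
    | zero =>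
      intro _ i hi
      have h0 : preN G 0 = ⊥ := by simp [preN]
      have hreg := (LinearEquiv.isRegular_congr (Submodule.quotEquivOfEqBot _ h0) _).mpr
        (X_regular (K := K) (n := n))
      have hl : Ideal.ofList (List.ofFn (X : Fin n → S)) = M := by
        rw [Ideal.ofList]; congr 1; ext g; simp [List.mem_ofFn']
      refine ModuleCat.subsingleton_ext_of_exists_isRegular M N ?_ _ ?_ (List.ofFn X) ?_ hreg i
        (by simpa using hi)
      · rw [Module.support_eq_zeroLocus, Ideal.annihilator_quotient]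
      · rw [← hl]; exact hreg.top_ne_smul.symm.lt_top
      · intro r hr; rw [← hl]; exact Ideal.subset_span hr
    | succ k ih =>
      intro hk
      rw [preN_succ]
      exact ext_down N _ _ (hG k hk) _ fun i hi => ih (by omega) i (by omega)
  have h1 := key m le_rfl 0 (by omega)
  have h1' : Subsingleton (N ⟶ ModuleCat.of S (S ⧸ preN G m)) :=
    Ext.addEquiv₀.subsingleton_congr.mp h1
  have h2 : Subsingleton (N →ₗ[S] ModuleCat.of S (S ⧸ preN G m)) :=
    ModuleCat.homAddEquiv.symm.subsingleton
  let φ : N →ₗ[S] ModuleCat.of S (S ⧸ preN G m) :=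
    M.liftQ ((preN G m).mkQ ∘ₗ LinearMap.toSpanSingleton S S g) (by
      refine Ideal.span_le.mpr ?_
      rintro _ ⟨j, rfl⟩
      exact (Submodule.Quotient.mk_eq_zero _).mpr (hg j))
  have h3 : φ (M.mkQ 1) = 0 := by rw [Subsingleton.elim φ 0]; rfl
  have h4 : (1 : S) • g ∈ preN G m := (Submodule.Quotient.mk_eq_zero _).mp h3
  rwa [one_smul] at h4

/-- linear form with given coefficients -/
noncomputable def lin : (Fin n → K) →ₗ[K] MvPolynomial (Fin n) K :=
  Fintype.linearCombination K X

theorem lin_apply (v : Fin n → K) : lin v = ∑ j, v j • (X j : MvPolynomial (Fin n) K) :=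
  Fintype.linearCombination_apply K _ v

theorem exists_lin [Infinite K] (G : ℕ → MvPolynomial (Fin n) K) (m : ℕ) (hm : m < n)
    (hG : RegN G m) (U : Submodule K (Fin n → K)) (hU : U ≠ ⊤) :
    ∃ v ∉ U, ∀ g, lin v * g ∈ preN G m → g ∈ preN G m := by
  classical
  let S := MvPolynomial (Fin n) K
  have hfin := associatedPrimes.finite S (S ⧸ preN G m)
  let s : Finset (Subspace K (Fin n → K)) :=
    insert U (hfin.toFinset.image fun p : Ideal S => (p.restrictScalars K).comap lin)
  have hs : ⊤ ∉ s := by
    intro h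
    rcases Finset.mem_insert.mp h with h | h
    · exact hU h.symm
    · obtain ⟨p, hp, h⟩ := Finset.mem_image.mp h
      obtain ⟨hp1, x, rfl⟩ := isAssociatedPrime_iff.mp (hfin.mem_toFinset.mp hp)
      obtain ⟨x, rfl⟩ := Submodule.mkQ_surjective _ x
      have hx : x ∈ preN G m := socle_zero G m hm hG x fun j => by
        have h1 : (Pi.single j 1 : Fin n → K) ∈ (⊤ : Submodule K (Fin n → K)) := trivial
        rw [← h, Submodule.mem_comap, Submodule.restrictScalars_mem, lin,
          Fintype.linearCombination_apply_single, one_smul, Submodule.mem_colon_singleton,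
          Submodule.mem_bot, ← map_smul] at h1
        exact (Submodule.Quotient.mk_eq_zero _).mp h1
      apply hp1.ne_top
      rw [Ideal.eq_top_iff_one, Submodule.mem_colon_singleton, one_smul, Submodule.mem_bot]
      exact (Submodule.Quotient.mk_eq_zero _).mpr hx
  obtain ⟨v, hv⟩ := (Set.ne_univ_iff_exists_notMem _).mp
    (Subspace.biUnion_ne_univ_of_top_notMem hs)
  simp only [Set.mem_iUnion, not_exists] at hv
  refine ⟨v, hv U (Finset.mem_insert_self _ _), ?_⟩
  have h1 : lin v ∉ ⋃ p ∈ associatedPrimes S (S ⧸ preN G m), (p : Set S) := by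
    simp only [Set.mem_iUnion, not_exists]
    intro p hp h
    exact hv _ (Finset.mem_insert_of_mem (Finset.mem_image_of_mem _ (hfin.mem_toFinset.mpr hp))) h
  rw [biUnion_associatedPrimes_eq_compl_regular, Set.notMem_compl_iff] at h1
  exact (isSMulRegular_quotient_iff_mem_of_smul_mem _ _).mp h1

theorem extend_reg [Infinite K] (F : ℕ → MvPolynomial (Fin n) K) (c : ℕ) (hF : RegN F c)
    (k : ℕ) (hk : c + k ≤ n) :
    ∃ (G : ℕ → MvPolynomial (Fin n) K) (lam : Fin k → Fin n → K), RegN G (c + k) ∧
      (∀ l < c, G l = F l) ∧ (∀ i : Fin k, G (c + i) = lin (lam i) * lin (lam i)) ∧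
      LinearIndependent K lam := by
  induction k with
  | zero => exact ⟨F, Fin.elim0, hF, fun _ _ => rfl, fun i => i.elim0, linearIndependent_empty_type⟩
  | succ k ih =>
    obtain ⟨G, lam, h1, h2, h3, h4⟩ := ih (by omega)
    have hU : Submodule.span K (Set.range lam) ≠ ⊤ := by
      intro h
      have h5 := finrank_span_eq_card h4
      rw [h, finrank_top, Module.finrank_fin_fun, Fintype.card_fin] at h5
      omega
    obtain ⟨v, hv1, hv2⟩ := exists_lin G (c + k) (by omega) h1 _ hU
    refine ⟨Function.update G (c + k) (lin v * lin v), Fin.snoc lam v, ?_, ?_, ?_,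
      h4.finSnoc hv1⟩
    · intro i hi g
      rw [preN_congr (G' := G) fun j hj => Function.update_of_ne (by omega) _ _]
      by_cases h : i = c + k
      · subst h
        rw [Function.update_self, mul_assoc]
        exact fun hg => hv2 _ (hv2 _ hg)
      · rw [Function.update_of_ne h]
        exact h1 i (by omega) g
    · intro l hl
      rw [Function.update_of_ne (by omega), h2 l hl]
    · intro i
      induction i using Fin.lastCases with
      | last => simp
      | cast i =>
        rw [Function.update_of_ne (by have := i.2; simp; omega), Fin.snoc_castSucc]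
        exact h3 i

section BC

variable {L : Type*} [Field L] [Algebra K L]

/-- coefficientwise application of a functional -/
noncomputable def cw (φ : L →ₗ[K] K) (g : MvPolynomial (Fin n) L) : MvPolynomial (Fin n) K :=
  ∑ α ∈ g.support, monomial α (φ (coeff α g))

theorem coeff_cw (φ : L →ₗ[K] K) (g : MvPolynomial (Fin n) L) (α : Fin n →₀ ℕ) :
    coeff α (cw φ g) = φ (coeff α g) := by
  classical
  rw [cw, coeff_sum]
  simp only [coeff_monomial]
  rw [Finset.sum_ite_eq']
  split_ifs with h
  · rfl
  · rw [notMem_support_iff.mp h, map_zero]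

theorem cw_mul (φ : L →ₗ[K] K) (f : MvPolynomial (Fin n) K) (g : MvPolynomial (Fin n) L) :
    cw φ (map (algebraMap K L) f * g) = f * cw φ g := by
  classical
  ext α
  rw [coeff_cw, coeff_mul, coeff_mul, map_sum]
  refine Finset.sum_congr rfl fun p _ => ?_
  rw [coeff_map, coeff_cw, ← Algebra.smul_def, map_smul, smul_eq_mul]

theorem cw_add (φ : L →ₗ[K] K) (f g : MvPolynomial (Fin n) L) :
    cw φ (f + g) = cw φ f + cw φ g := by
  ext α; simp [coeff_cw]

theorem mem_map_iff (I : Ideal (MvPolynomial (Fin n) K)) (g : MvPolynomial (Fin n) L) :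
    g ∈ I.map (map (algebraMap K L)) ↔ ∀ φ : L →ₗ[K] K, cw φ g ∈ I := by
  classical
  constructor
  · intro hg φ
    have : ∀ a, cw φ (a * g) ∈ I := by
      induction hg using Submodule.span_induction with
      | mem x hx =>
        obtain ⟨f, hf, rfl⟩ := hx
        intro a
        rw [mul_comm, cw_mul]
        exact I.mul_mem_right _ hf
      | zero => intro a; simp [cw]
      | add x y _ _ hx hy => intro a; rw [mul_add, cw_add]; exact add_mem (hx a) (hy a)
      | smul b x _ hx => intro a; rw [smul_eq_mul, ← mul_assoc]; exact hx _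
    simpa using this 1
  · intro h
    let b := Module.Basis.ofVectorSpace K L
    let T := g.support.biUnion fun α => (b.repr (coeff α g)).support
    have : g = ∑ i ∈ T, C (b i) * map (algebraMap K L) (cw (b.coord i) g) := by
      ext α
      rw [coeff_sum]
      simp only [coeff_C_mul, coeff_map, coeff_cw, Module.Basis.coord_apply]
      by_cases hα : α ∈ g.support
      · conv_lhs => rw [← b.linearCombination_repr (coeff α g)]
        rw [Finsupp.linearCombination_apply, Finsupp.sum_of_support_subset _
          (Finset.subset_biUnion_of_mem (fun α => (b.repr (coeff α g)).support) hα) _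
          (by simp)]
        exact Finset.sum_congr rfl fun i _ => by rw [Algebra.smul_def, mul_comm]
      · rw [notMem_support_iff.mp hα]; simp
    rw [this]
    exact Ideal.sum_mem _ fun i _ => Ideal.mul_mem_left _ _ (Ideal.mem_map_of_mem _ (h _))

theorem regN_map (F : ℕ → MvPolynomial (Fin n) K) (c : ℕ) (hF : RegN F c) :
    RegN (fun l => map (algebraMap K L) (F l)) c := by
  intro i hi g
  have e : preN (fun l => map (algebraMap K L) (F l)) i = (preN F i).map (map (algebraMap K L)) := by
    rw [preN, preN, Ideal.map_span, Set.image_image]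
  rw [e, mem_map_iff, mem_map_iff]
  intro h φ
  refine hF i hi _ ?_
  rw [← cw_mul]
  exact h φ

end BC

end Vale.Agent.P200
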