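import Vale.Agent.P200.Gr

namespace Vale.Agent.P200

open Finset Module MvPolynomial TensorProduct

set_option linter.unusedSectionVars false

section Loc

variable {T C : Type*} [CommRing T] [IsDomain T] [Ring C] [IsDomain C] [Algebra T C]

theorem loc_inj (hinj : ∀ u : T, u ≠ 0 → algebraMap T C u ≠ 0) (c : C)
    (h : (1 : FractionRing T) ⊗ₜ[T] c = 0) : c = 0 := by
  obtain ⟨u, hu⟩ := (IsLocalizedModule.eq_zero_iff (nonZeroDivisors T)
    (TensorProduct.mk T (FractionRing T) C 1)).mp h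
  rw [Submonoid.smul_def, Algebra.smul_def, mul_eq_zero] at hu
  exact hu.resolve_left (hinj _ (nonZeroDivisors.ne_zero u.2))

theorem loc_domain (hinj : ∀ u : T, u ≠ 0 → algebraMap T C u ≠ 0) :
    IsDomain (FractionRing T ⊗[T] C) := by
  have hs : ∀ x : FractionRing T ⊗[T] C, ∃ (c : C) (s : FractionRing T), s ≠ 0 ∧
      s • x = 1 ⊗ₜ c := by
    intro x
    obtain ⟨⟨c, s⟩, h⟩ := IsLocalizedModule.surj (nonZeroDivisors T)
      (TensorProduct.mk T (FractionRing T) C 1) x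
    refine ⟨c, algebraMap T _ s, ?_, ?_⟩
    · exact IsFractionRing.to_map_ne_zero_of_mem_nonZeroDivisors s.2
    · rw [algebraMap_smul]; exact h
  have : Nontrivial (FractionRing T ⊗[T] C) :=
    ⟨⟨1 ⊗ₜ 1, 0, fun h => one_ne_zero (loc_inj hinj 1 h)⟩⟩
  have : NoZeroDivisors (FractionRing T ⊗[T] C) := ⟨fun {x y} hxy => by
    obtain ⟨c, s, hs0, h1⟩ := hs x
    obtain ⟨c', s', hs0', h1'⟩ := hs y
    have h2 : (1 : FractionRing T) ⊗ₜ[T] (c * c') = 0 := by
      have : (1 : FractionRing T) ⊗ₜ[T] (c * c') = (1 ⊗ₜ[T] c) * (1 ⊗ₜ[T] c') := by simp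
      rw [this, ← h1, ← h1', smul_mul_smul_comm, hxy, smul_zero]
    rcases mul_eq_zero.mp (loc_inj hinj _ h2) with h | h
    · left
      rw [h, tmul_zero] at h1
      exact (smul_eq_zero.mp h1).resolve_left hs0
    · right
      rw [h, tmul_zero] at h1'
      exact (smul_eq_zero.mp h1').resolve_left hs0'⟩
  exact NoZeroDivisors.to_isDomain _

end Loc

variable {L D E : Type*} [Field L] [DivisionRing D] [Algebra L D] [Ring E] [Algebra L E]
  [Module D E] [IsScalarTower L D E] [IsScalarTower D E E] {n : ℕ}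

namespace Dat

theorem G_domain {m : ℕ} (Δ : Dat L D E (m + 1)) [Module.Finite L D]
    {K : Type*} [Field K] [Algebra K L] (f : Fin (m + 1) → MvPolynomial (Fin (m + 1)) K)
    (hh : ∀ l, (f l).IsHomogeneous 2) (hreg : Reg f)
    (co : Fin (m + 1) → Fin (m + 1) → Fin (m + 1) → K)
    (hco : ∀ l, f l = ∑ j, ∑ k, co l j k • (X j * X k))
    (hΔ : ∀ l j k, Δ.co l j k = algebraMap K L (co l j k))
    {a b : ℕ} {x y : E} (hx : x ∈ Δ.G a) (_hy : y ∈ Δ.G b) (hxy : x * y = 0) : x = 0 ∨ y = 0 := by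
  by_contra hne
  push Not at hne
  let μ : E →ₗ[D] E :=
    { toFun := fun z => z * y
      map_add' := fun u v => add_mul _ _ _
      map_smul' := fun d u => smul_mul_assoc _ _ _ }
  let U : ℕ → Submodule D E := fun c => Δ.G c ⊓ LinearMap.ker μ
  have hU : ∀ b l z, z ∈ U b → Δ.θ (X l) * z ∈ U (b + 2) := fun b l z hz =>
    ⟨Δ.G_θ b l z hz.1, by
      have : z * y = 0 := hz.2
      show Δ.θ (X l) * z * y = 0
      rw [mul_assoc, this, mul_zero]⟩
  have hUe : ∀ b j z, z ∈ U b → Δ.e j * z ∈ U (b + 1) := fun b j z hz =>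
    ⟨Δ.e_mul j hz.1, by
      have : z * y = 0 := hz.2
      show Δ.e j * z * y = 0
      rw [mul_assoc, this, mul_zero]⟩
  obtain ⟨d1, e1⟩ := Δ.family_lemma f hh hreg co hco hΔ U hU hUe (fun _ => inf_le_left)
  obtain ⟨d2, e2⟩ := Δ.family_lemma f hh hreg co hco hΔ Δ.G Δ.G_θ (fun b j z hz => Δ.e_mul j hz)
    (fun _ => le_rfl)
  have hadd : ∀ c, finrank D (U c) + finrank D ((Δ.G c).map μ) = finrank D (Δ.G c) := by
    intro c
    have := Δ.G_finite c
    have h1 := LinearMap.finrank_range_add_finrank_ker (μ.domRestrict (Δ.G c))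
    rw [LinearMap.range_domRestrict, LinearMap.ker_domRestrict,
      ← Submodule.finrank_map_subtype_eq, Submodule.map_comap_subtype] at h1
    rw [add_comm]; exact h1
  refine numeric_contra m (fun c => (finrank D (U c) : ℤ))
    (fun c => (finrank D ((Δ.G c).map μ) : ℤ)) d1 d2 a (finrank L D) e1 ?_ ?_ ?_ ?_
  · have : (fun c => (finrank D (U c) : ℤ)) + (fun c => (finrank D ((Δ.G c).map μ) : ℤ)) =
        fun c => (finrank D (Δ.G c) : ℤ) := by
      funext c; simp only [Pi.add_apply]; exact_mod_cast hadd c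
    rw [this]; exact e2
  · intro k
    have := Δ.G_finite (a + 2 * k)
    have : Module.Finite D (U (a + 2 * k)) := Submodule.finiteDimensional_of_le inf_le_left
    have h1 := Δ.lower_bound (k := k) (U (a + 2 * k)) hne.1
      (fun u hu => Δ.θhom_mul hu U hU ⟨hx, hxy⟩)
    rw [card_expo] at h1
    exact_mod_cast h1
  · intro k
    have := Δ.G_finite (2 * k)
    have h1 := Δ.lower_bound (k := k) ((Δ.G (2 * k)).map μ) hne.2
      (fun u hu => ⟨Δ.θ u * 1, by simpa using Δ.θhom_mul hu Δ.G Δ.G_θ Δ.one_mem, by simp [μ]⟩)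
    rw [card_expo] at h1
    exact_mod_cast h1
  · intro d
    have h1 := Δ.G_finrank d
    rw [card_expo, ← hadd] at h1
    exact_mod_cast h1

variable (Δ : Dat L D E n)

/-- the graded subring -/
noncomputable def Cs : Subalgebra (MvPolynomial (Fin n) L) Δ.Gr :=
  (Δ.W Δ.G Δ.G_θ).toSubalgebra (by simpa using Δ.mon_mem_W (hU := Δ.G_θ) Δ.one_mem)
    (fun p q hp hq a => by
      rw [map_mul, Polynomial.coeff_mul]
      refine Submodule.sum_mem _ fun c hc => ?_
      rw [← Finset.HasAntidiagonal.mem_antidiagonal.mp hc]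
      exact Δ.G_mul (hp _) (hq _))

theorem mem_Cs {p : Δ.Gr} : p ∈ Δ.Cs ↔ ∀ a, (Δ.toP p).coeff a ∈ Δ.G a := Iff.rfl

instance Cs_finite [Module.Finite L D] : Module.Finite (MvPolynomial (Fin n) L) Δ.Cs :=
  (Module.Finite.iff_fg.mpr Δ.WG_fg : Module.Finite (MvPolynomial (Fin n) L) (Δ.W Δ.G Δ.G_θ))

theorem Cs_domain [Nontrivial E]
    (hdom : ∀ a b x y, x ∈ Δ.G a → y ∈ Δ.G b → x * y = 0 → x = 0 ∨ y = 0) : IsDomain Δ.Cs := by
  have : Nontrivial Δ.Gr := inferInstanceAs (Nontrivial (Polynomial E))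
  have : NoZeroDivisors Δ.Cs := ⟨fun {p q} h => by
    have h1 : Δ.toP p.1 * Δ.toP q.1 = 0 := congrArg (fun t => Δ.toP t.1) h
    have h2 := Polynomial.coeff_mul_degree_add_degree (Δ.toP p.1) (Δ.toP q.1)
    rw [h1, Polynomial.coeff_zero] at h2
    rcases hdom _ _ _ _ (p.2 _) (q.2 _) h2.symm with h | h
    · exact Or.inl (Subtype.ext (Polynomial.leadingCoeff_eq_zero.mp h))
    · exact Or.inr (Subtype.ext (Polynomial.leadingCoeff_eq_zero.mp h))⟩
  exact NoZeroDivisors.to_isDomain _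

theorem Cs_inj [Nontrivial E] (u : MvPolynomial (Fin n) L) (hu : u ≠ 0) :
    algebraMap _ Δ.Cs u ≠ 0 := by
  intro h
  have h1 : Δ.σ u = 0 := congrArg (fun t => Δ.toP t.1) h
  have h2 := Δ.σ_eval u
  rw [h1, Polynomial.eval_zero] at h2
  exact one_ne_zero (Δ.tf u hu 1 (by rw [← h2, zero_mul]))

/-- homogeneous elements of the graded subring -/
noncomputable def hm (a : ℕ) (z : E) (hz : z ∈ Δ.G a) : Δ.Cs :=
  ⟨Δ.ofP (Polynomial.monomial a z), Δ.mon_mem_W (hU := Δ.G_θ) hz⟩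

theorem Cs_ext {p q : Δ.Cs} (h : Δ.toP p.1 = Δ.toP q.1) : p = q := Subtype.ext h

theorem toP_hm (a : ℕ) (z : E) (hz : z ∈ Δ.G a) :
    Δ.toP (Δ.hm a z hz).1 = Polynomial.monomial a z := rfl

/-- the copy of `D` in degree zero -/
noncomputable def jC : D →+* Δ.Cs where
  toFun d := Δ.hm 0 (d • 1) (Submodule.smul_mem _ _ Δ.one_mem)
  map_one' := Δ.Cs_ext (by simp [toP_hm])
  map_mul' d d' := Δ.Cs_ext (by
    rw [toP_hm, Subalgebra.coe_mul, map_mul, toP_hm, toP_hm, Polynomial.monomial_mul_monomial,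
      smul_mul_assoc, one_mul, mul_smul])
  map_zero' := Δ.Cs_ext (by simp [toP_hm])
  map_add' d d' := Δ.Cs_ext (by
    rw [toP_hm, Subalgebra.coe_add, map_add, toP_hm, toP_hm, add_smul, map_add])

theorem toP_jC (d : D) : Δ.toP (Δ.jC d).1 = Polynomial.monomial 0 (d • 1) := rfl

/-- the generators in degree one -/
noncomputable def eC (j : Fin n) : Δ.Cs := Δ.hm 1 (Δ.e j) (Δ.e_mem j)

theorem toP_eC (j : Fin n) : Δ.toP (Δ.eC j).1 = Polynomial.monomial 1 (Δ.e j) := rfl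

theorem jC_smul (a : L) (d : D) :
    Δ.jC (a • d) = (C a : MvPolynomial (Fin n) L) • Δ.jC d := Δ.Cs_ext (by
  rw [toP_jC, Subalgebra.coe_smul, toP_smul, toP_jC, σ_C, ← Algebra.smul_def,
    Polynomial.smul_monomial, smul_assoc])

theorem eC_comm (j : Fin n) (d : D) : Δ.eC j * Δ.jC d = Δ.jC d * Δ.eC j := Δ.Cs_ext (by
  rw [Subalgebra.coe_mul, Subalgebra.coe_mul, map_mul, map_mul, toP_eC, toP_jC,
    Polynomial.monomial_mul_monomial, Polynomial.monomial_mul_monomial, Δ.eD, smul_mul_assoc,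
    mul_one, one_mul])

theorem toP_sum (c : Fin n → L) :
    Δ.toP (∑ l, (C (c l) : MvPolynomial (Fin n) L) •
      algebraMap (MvPolynomial (Fin n) L) Δ.Cs (X l)).1 =
      Polynomial.monomial 2 (∑ l, c l • Δ.θ (X l)) := by
  rw [AddSubmonoidClass.coe_finsetSum, map_sum, map_sum]
  refine Finset.sum_congr rfl fun l _ => ?_
  rw [Subalgebra.coe_smul, toP_smul, σ_C, ← Algebra.smul_def, Subalgebra.coe_algebraMap,
    toP_algebraMap, σ_X, Polynomial.smul_monomial]

theorem eC_r1 (j : Fin n) : Δ.eC j * Δ.eC j = ∑ l, (C (Δ.co l j j) : MvPolynomial (Fin n) L) •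
    algebraMap (MvPolynomial (Fin n) L) Δ.Cs (X l) := Δ.Cs_ext (by
  rw [toP_sum, Subalgebra.coe_mul, map_mul, toP_eC, Polynomial.monomial_mul_monomial, Δ.r1])

theorem eC_r2 (j k : Fin n) : Δ.eC j * Δ.eC k + Δ.eC k * Δ.eC j =
    ∑ l, (C (Δ.co l j k + Δ.co l k j) : MvPolynomial (Fin n) L) •
    algebraMap (MvPolynomial (Fin n) L) Δ.Cs (X l) := Δ.Cs_ext (by
  rw [toP_sum, Subalgebra.coe_add, Subalgebra.coe_mul, Subalgebra.coe_mul, map_add, map_mul,
    map_mul, toP_eC, toP_eC, Polynomial.monomial_mul_monomial, Polynomial.monomial_mul_monomial,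
    ← map_add, Δ.r2])

theorem eC_ind (hind : ∀ w : Fin n → D, ∑ j, w j • Δ.e j = 0 → w = 0) (w : Fin n → D)
    (h : ∑ j, Δ.eC j * Δ.jC (w j) = 0) : w = 0 := by
  apply hind
  have h1 : Δ.toP (∑ j, Δ.eC j * Δ.jC (w j)).1 = 0 := by rw [h]; simp
  rw [AddSubmonoidClass.coe_finsetSum, map_sum] at h1
  have h2 : ∀ j, Δ.toP (Δ.eC j * Δ.jC (w j)).1 = Polynomial.monomial 1 (w j • Δ.e j) := by
    intro j
    rw [Subalgebra.coe_mul, map_mul, toP_eC, toP_jC, Polynomial.monomial_mul_monomial, Δ.eD,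
      mul_one]
  simp only [h2] at h1
  rw [← map_sum] at h1
  exact (Polynomial.monomial_eq_zero_iff _ _).mp h1

end Dat

end Vale.Agent.P200
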