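import Vale.Agent.P200.Hilb

namespace Vale.Agent.P200

open Finset Module MvPolynomial TensorProduct

theorem rank_null {D M N : Type*} [DivisionRing D] [AddCommGroup M] [AddCommGroup N] [Module D M]
    [Module D N] (f : M →ₗ[D] N) (U : Submodule D M) [Module.Finite D U] :
    finrank D (U.map f) + finrank D (U ⊓ LinearMap.ker f : Submodule D M) = finrank D U := by
  have h1 := LinearMap.finrank_range_add_finrank_ker (f.domRestrict U)
  rwa [LinearMap.range_domRestrict, LinearMap.ker_domRestrict,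
    ← Submodule.finrank_map_subtype_eq, Submodule.map_comap_subtype] at h1

section Echelon

variable {D : Type*} [DivisionRing D] {σ Γ : Type*} [LinearOrder Γ] (ω : σ → Γ)

/-- leading indices of a subspace -/
def Lead (U : Submodule D (σ →₀ D)) : Set σ :=
  {α | ∃ u ∈ U, u α ≠ 0 ∧ ∀ β, u β ≠ 0 → ω β ≤ ω α}

theorem supported_finite (A : Finset σ) : Module.Finite D (Finsupp.supported D D (A : Set σ)) :=
  Module.Finite.equiv (Finsupp.supportedEquivFinsupp (A : Set σ)).symm

theorem finrank_supported (A : Finset σ) :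
    finrank D (Finsupp.supported D D (A : Set σ)) = A.card := by
  rw [(Finsupp.supportedEquivFinsupp (A : Set σ)).finrank_eq]
  simp

open Classical in
theorem card_lead (hω : Function.Injective ω) (A : Finset σ) :
    ∀ U : Submodule D (σ →₀ D), U ≤ Finsupp.supported D D (A : Set σ) →
      (A.filter (· ∈ Lead ω U)).card = finrank D U := by
  induction A using Finset.induction_on_max_value ω with
  | empty =>
    intro U hU
    have : U = ⊥ := by simpa using hU
    rw [this]; simp
  | insert a s has hmax ih =>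
    intro U hU
    have := supported_finite (D := D) (insert a s)
    have : Module.Finite D U := Submodule.finiteDimensional_of_le hU
    let U0 : Submodule D (σ →₀ D) := U ⊓ LinearMap.ker (Finsupp.lapply a)
    have hU0 : U0 ≤ Finsupp.supported D D (s : Set σ) := by
      rintro u ⟨hu, hu0⟩
      rw [Finsupp.mem_supported]
      intro x hx
      have h1 := (Finsupp.mem_supported D u).mp (hU hu) hx
      rw [coe_insert, Set.mem_insert_iff] at h1
      refine h1.resolve_left ?_
      rintro rfl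
      exact Finsupp.mem_support_iff.mp hx hu0
    have h1 : s.filter (· ∈ Lead ω U) = s.filter (· ∈ Lead ω U0) := by
      refine Finset.filter_congr fun β hβ => ⟨?_, ?_⟩
      · rintro ⟨u, hu, h1, h2⟩
        refine ⟨u, ⟨hu, ?_⟩, h1, h2⟩
        by_contra hne
        have := hω (le_antisymm (h2 a hne) (hmax β hβ))
        exact has (this ▸ hβ)
      · rintro ⟨u, hu, h1, h2⟩
        exact ⟨u, hu.1, h1, h2⟩
    have h2 := rank_null (M := σ →₀ D) (N := D) (Finsupp.lapply a) U
    rw [Finset.filter_insert]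
    by_cases ha : ∃ u ∈ U, u a ≠ 0
    · obtain ⟨u, hu, hua⟩ := ha
      have h3 : a ∈ Lead ω U := ⟨u, hu, hua, fun β hβ => by
        have h1 := (Finsupp.mem_supported D u).mp (hU hu) (Finsupp.mem_support_iff.mpr hβ)
        rw [coe_insert, Set.mem_insert_iff] at h1
        rcases h1 with rfl | h1
        · exact le_rfl
        · exact hmax β h1⟩
      have h4 : U.map (Finsupp.lapply a : (σ →₀ D) →ₗ[D] D) = ⊤ := by
        rw [eq_top_iff]
        intro d _
        exact ⟨(d * (u a)⁻¹) • u, U.smul_mem _ hu, by simp [hua]⟩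
      rw [if_pos h3, card_insert_of_notMem (by simp [has]), h1, ih U0 hU0, ← h2, h4, finrank_top,
        finrank_self, add_comm]
    · have h3 : a ∉ Lead ω U := fun ⟨u, hu, h1, _⟩ => ha ⟨u, hu, h1⟩
      have h4 : U.map (Finsupp.lapply a : (σ →₀ D) →ₗ[D] D) = ⊥ := by
        rw [eq_bot_iff]
        rintro _ ⟨u, hu, rfl⟩
        by_contra hne
        exact ha ⟨u, hu, hne⟩
      rw [if_neg h3, h1, ih U0 hU0, ← h2, h4, finrank_bot, zero_add]

end Echelon

section Mono

open scoped IsMulCommutative in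
theorem exists_mono {K P : Type*} [Field K] [Ring P] [Algebra K P] {n : ℕ} (A : Fin n → P)
    (hcomm : ∀ i j, A i * A j = A j * A i) :
    ∃ b : (Fin n →₀ ℕ) → P, b 0 = 1 ∧ (∀ α β, b (α + β) = b α * b β) ∧
      ∀ i, b (Finsupp.single i 1) = A i := by
  have := Algebra.isMulCommutative_adjoin K (s := Set.range A) (by
    rintro _ ⟨i, rfl⟩ _ ⟨j, rfl⟩; exact hcomm i j)
  let Φ : MvPolynomial (Fin n) K →ₐ[K] Algebra.adjoin K (Set.range A) :=
    aeval fun i => ⟨A i, Algebra.subset_adjoin ⟨i, rfl⟩⟩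
  refine ⟨fun α => (Φ (monomial α 1) : P), ?_, fun α β => ?_, fun i => ?_⟩
  · simp [← MvPolynomial.C_apply]
  · have : (monomial (α + β) 1 : MvPolynomial (Fin n) K) = monomial α 1 * monomial β 1 := by
      rw [monomial_mul, one_mul]
    simp only [this, map_mul, MulMemClass.coe_mul]
  · show (Φ (X i) : P) = A i
    simp [Φ]

end Mono

section Main

variable {K D : Type*} [Field K] [DivisionRing D] [Algebra K D] {n : ℕ}

theorem finrank_bc {V : Type*} [AddCommGroup V] [Module K V] (p : Submodule K V) :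
    finrank D (p.baseChange D) = finrank K p := by
  have h : Function.Injective (p.subtype.baseChange D) :=
    Module.Flat.lTensor_preserves_injective_linearMap (M := D) p.subtype Subtype.val_injective
  rw [Submodule.baseChange, LinearMap.finrank_range_of_inj h, Module.finrank_baseChange]

theorem bc_mul (p q r : Submodule K (MvPolynomial (Fin n) K))
    (h : ∀ x ∈ p, ∀ y ∈ q, x * y ∈ r) {x y : D ⊗[K] MvPolynomial (Fin n) K}
    (hx : x ∈ p.baseChange D) (hy : y ∈ q.baseChange D) : x * y ∈ r.baseChange D := by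
  obtain ⟨x, rfl⟩ := hx
  obtain ⟨y, rfl⟩ := hy
  induction x with
  | zero => simp
  | add a b ha hb => rw [map_add, add_mul]; exact add_mem ha hb
  | tmul a u =>
    induction y with
    | zero => simp
    | add a b ha hb => rw [map_add, mul_add]; exact add_mem ha hb
    | tmul b v =>
      simp only [LinearMap.baseChange_tmul, Algebra.TensorProduct.tmul_mul_tmul]
      exact Submodule.tmul_mem_baseChange_of_mem _ (h _ u.2 _ v.2)

theorem smul_eq_mul' (d : D) (x : D ⊗[K] MvPolynomial (Fin n) K) :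
    d • x = (d ⊗ₜ[K] (1 : MvPolynomial (Fin n) K)) * x := by
  induction x with
  | zero => simp
  | add a b ha hb => rw [smul_add, mul_add, ha, hb]
  | tmul a u => simp [smul_tmul']

theorem one_tmul_comm (s : MvPolynomial (Fin n) K) (x : D ⊗[K] MvPolynomial (Fin n) K) :
    ((1 : D) ⊗ₜ[K] s) * x = x * ((1 : D) ⊗ₜ[K] s) := by
  induction x with
  | zero => simp
  | add a b ha hb => rw [add_mul, mul_add, ha, hb]
  | tmul a u => simp [mul_comm]

theorem smul_mul' (d : D) (x y : D ⊗[K] MvPolynomial (Fin n) K) : (d • x) * y = d • (x * y) := by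
  rw [smul_eq_mul', smul_eq_mul', mul_assoc]

/-- coefficient vectors supported in degree `d` -/
def VV (D : Type*) [DivisionRing D] (n d : ℕ) : Submodule D ((Fin n →₀ ℕ) →₀ D) :=
  Finsupp.supported D D (expo n d : Set (Fin n →₀ ℕ))

theorem memV (d : ℕ) (v : (Fin n →₀ ℕ) →₀ D) : v ∈ VV D n d ↔ ∀ β, v β ≠ 0 → β.degree = d := by
  rw [VV, Finsupp.mem_supported]
  exact ⟨fun h β hβ => mem_expo.mp (h (Finsupp.mem_support_iff.mpr hβ)),
    fun h β hβ => mem_expo.mpr (h β (Finsupp.mem_support_iff.mp hβ))⟩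

instance VV_finite (d : ℕ) : Module.Finite D (VV D n d) := supported_finite _

theorem finrank_VV (d : ℕ) : finrank D (VV D n d) = (expo n d).card := finrank_supported _

/-- shift of coefficient vectors -/
noncomputable def sh (i : Fin n) : ((Fin n →₀ ℕ) →₀ D) →ₗ[D] ((Fin n →₀ ℕ) →₀ D) :=
  Finsupp.lmapDomain D D (· + Finsupp.single i 1)

theorem sh_apply (i : Fin n) (v : (Fin n →₀ ℕ) →₀ D) (γ : Fin n →₀ ℕ) :
    sh i v (γ + Finsupp.single i 1) = v γ :=
  Finsupp.mapDomain_apply (add_left_injective _) v γ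

theorem sh_ne (i : Fin n) (v : (Fin n →₀ ℕ) →₀ D) (β : Fin n →₀ ℕ) (h : sh i v β ≠ 0) :
    ∃ γ, β = γ + Finsupp.single i 1 ∧ v γ ≠ 0 := by
  by_cases hβ : β ∈ Set.range (· + Finsupp.single i 1 : (Fin n →₀ ℕ) → _)
  · obtain ⟨γ, rfl⟩ := hβ
    exact ⟨γ, rfl, by rwa [sh_apply] at h⟩
  · exact absurd (Finsupp.mapDomain_of_notMem_range v β hβ) h

theorem sh_mem (d : ℕ) (i : Fin n) (v : (Fin n →₀ ℕ) →₀ D) (hv : v ∈ VV D n d) :
    sh i v ∈ VV D n (d + 1) := by
  rw [memV] at hv ⊢
  intro β hβ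
  obtain ⟨γ, rfl, hγ⟩ := sh_ne i v β hβ
  rw [map_add, hv γ hγ, Finsupp.degree_single]

section Theta

variable (A : Fin n → D ⊗[K] MvPolynomial (Fin n) K)
  (b : (Fin n →₀ ℕ) → D ⊗[K] MvPolynomial (Fin n) K)

theorem theta_sh (hb : ∀ α β, b (α + β) = b α * b β) (hb1 : ∀ i, b (Finsupp.single i 1) = A i)
    (i : Fin n) (v : (Fin n →₀ ℕ) →₀ D) :
    Finsupp.linearCombination D b (sh i v) = Finsupp.linearCombination D b v * A i := by
  induction v using Finsupp.induction_linear with
  | zero => simp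
  | add u v hu hv => rw [map_add, map_add, hu, hv, map_add, add_mul]
  | single α d => simp [sh, Finsupp.mapDomain_single, hb, hb1, smul_mul']

theorem theta_span
    (hX : ∀ k, ∃ c : Fin n → D, (1 : D) ⊗ₜ[K] (X k : MvPolynomial (Fin n) K) = ∑ i, c i • A i)
    (hb0 : b 0 = 1) (hb : ∀ α β, b (α + β) = b α * b β)
    (hb1 : ∀ i, b (Finsupp.single i 1) = A i) (d : ℕ) :
    (homogeneousSubmodule (Fin n) K d).baseChange D ≤
      (VV D n d).map (Finsupp.linearCombination D b) := by
  have hm : ∀ d (α : Fin n →₀ ℕ), α.degree = d →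
      (1 : D) ⊗ₜ[K] (monomial α 1 : MvPolynomial (Fin n) K) ∈
        (VV D n d).map (Finsupp.linearCombination D b) := by
    intro d
    induction d with
    | zero =>
      intro α hα
      rw [(Finsupp.degree_eq_zero_iff α).mp hα]
      refine ⟨Finsupp.single 0 1, (memV _ _).mpr fun β hβ => ?_, ?_⟩
      · rw [(Finsupp.single_apply_ne_zero.mp hβ).1]; simp
      · simp [hb0, Algebra.TensorProduct.one_def]
    | succ d ih =>
      intro γ hγ
      have hne : γ ≠ 0 := by rintro rfl; simp at hγ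
      obtain ⟨l, hl⟩ := Finsupp.ne_iff.mp hne
      have hle : Finsupp.single l 1 ≤ γ := by
        rw [Finsupp.single_le_iff]; simp at hl; omega
      obtain ⟨γ', rfl⟩ := exists_add_of_le hle
      have h1 : (1 : D) ⊗ₜ[K] (monomial (Finsupp.single l 1 + γ') 1 : MvPolynomial (Fin n) K) =
          ((1 : D) ⊗ₜ[K] X l) * ((1 : D) ⊗ₜ[K] monomial γ' 1) := by
        rw [Algebra.TensorProduct.tmul_mul_tmul, X, monomial_mul, one_mul, one_mul]
      obtain ⟨c, hc⟩ := hX l
      obtain ⟨v, hv, hv'⟩ := ih γ' (by rw [map_add, Finsupp.degree_single] at hγ; omega)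
      rw [h1, hc, Finset.sum_mul]
      refine Submodule.sum_mem _ fun i _ => ?_
      rw [smul_mul', ← one_tmul_comm, ← hv', ← theta_sh A b hb hb1]
      exact Submodule.smul_mem _ _ ⟨_, sh_mem d i v hv, rfl⟩
  rw [Submodule.baseChange_eq_span, Submodule.span_le]
  rintro _ ⟨g, hg, rfl⟩
  rw [hom_eq_restrict, restrictSupport_eq_span] at hg
  show (1 : D) ⊗ₜ[K] g ∈ (VV D n d).map (Finsupp.linearCombination D b)
  induction hg using Submodule.span_induction with
  | mem x hx => obtain ⟨α, hα, rfl⟩ := hx; exact hm d α (mem_expo.mp hα)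
  | zero => simp
  | add x y _ _ hx hy => rw [tmul_add]; exact add_mem hx hy
  | smul a x _ hx => rw [tmul_smul]; exact Submodule.smul_of_tower_mem _ _ hx

end Theta

theorem finrank_pull (Θ : ((Fin n →₀ ℕ) →₀ D) →ₗ[D] D ⊗[K] MvPolynomial (Fin n) K) (d : ℕ)
    (hspan : (homogeneousSubmodule (Fin n) K d).baseChange D ≤ (VV D n d).map Θ)
    (p : Submodule K (MvPolynomial (Fin n) K)) (hp : p ≤ homogeneousSubmodule (Fin n) K d) :
    finrank D (VV D n d ⊓ (p.baseChange D).comap Θ : Submodule D _) = finrank K p := by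
  have hinj : VV D n d ⊓ LinearMap.ker Θ = ⊥ := by
    have h1 := rank_null Θ (VV D n d)
    rw [finrank_VV] at h1
    have h2 := Submodule.finrank_mono hspan
    rw [finrank_bc, finrank_hom] at h2
    have : Module.Finite D (VV D n d ⊓ LinearMap.ker Θ : Submodule D _) :=
      Submodule.finiteDimensional_of_le inf_le_left
    exact Submodule.finrank_eq_zero.mp (by omega)
  set U : Submodule D ((Fin n →₀ ℕ) →₀ D) := VV D n d ⊓ (p.baseChange D).comap Θ with hU
  have : Module.Finite D U := Submodule.finiteDimensional_of_le inf_le_left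
  have h1 := rank_null Θ U
  have h2 : U ⊓ LinearMap.ker Θ = ⊥ :=
    eq_bot_iff.mpr ((inf_le_inf_right _ inf_le_left).trans hinj.le)
  have h3 : U.map Θ = p.baseChange D := by
    apply le_antisymm
    · rintro _ ⟨v, hv, rfl⟩; exact hv.2
    · intro x hx
      obtain ⟨v, hv, rfl⟩ := hspan (Submodule.baseChange_mono D hp hx)
      exact ⟨v, ⟨hv, hx⟩, rfl⟩
  rw [h2, h3, finrank_bot, finrank_bc] at h1
  omega

theorem up_closed (Es : Set (Fin n →₀ ℕ)) (h : ∀ α ∈ Es, ∀ i, α + Finsupp.single i 1 ∈ Es) :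
    ∀ α ∈ Es, ∀ β, α ≤ β → β ∈ Es := by
  intro α hα β hαβ
  obtain ⟨γ, rfl⟩ := exists_add_of_le hαβ
  clear hαβ
  induction γ using Finsupp.induction_linear generalizing α with
  | zero => simpa using hα
  | add γ γ' h1 h2 => rw [← add_assoc]; exact h2 _ (h1 _ hα)
  | single i k =>
    induction k with
    | zero => simpa using hα
    | succ k ih => rw [Finsupp.single_add, ← add_assoc]; exact h _ ih i

open Classical in
theorem exists_initial (A : Fin n → D ⊗[K] MvPolynomial (Fin n) K)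
    (hA1 : ∀ i, A i ∈ (homogeneousSubmodule (Fin n) K 1).baseChange D)
    (hX : ∀ k, ∃ c : Fin n → D, (1 : D) ⊗ₜ[K] (X k : MvPolynomial (Fin n) K) = ∑ i, c i • A i)
    (b : (Fin n →₀ ℕ) → D ⊗[K] MvPolynomial (Fin n) K) (hb0 : b 0 = 1)
    (hb : ∀ α β, b (α + β) = b α * b β) (hb1 : ∀ i, b (Finsupp.single i 1) = A i)
    {Γ : Type*} [LinearOrder Γ] (ω : (Fin n →₀ ℕ) → Γ) (hω : Function.Injective ω)
    (hωa : ∀ α β γ, ω α ≤ ω β → ω (α + γ) ≤ ω (β + γ)) (I : Ideal (MvPolynomial (Fin n) K)) :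
    ∃ Es : Set (Fin n →₀ ℕ), (∀ α ∈ Es, ∀ β, α ≤ β → β ∈ Es) ∧
      (∀ d, finrank K (part I d) = ((expo n d).filter (· ∈ Es)).card) ∧
      (∀ (d : ℕ) (v : (Fin n →₀ ℕ) →₀ D) (α : Fin n →₀ ℕ), (∀ β, v β ≠ 0 → β.degree = d) →
        Finsupp.linearCombination D b v ∈ (part I d).baseChange D → v α ≠ 0 →
        (∀ β, v β ≠ 0 → ω β ≤ ω α) → α ∈ Es) := by
  let U : ℕ → Submodule D ((Fin n →₀ ℕ) →₀ D) := fun d =>
    VV D n d ⊓ ((part I d).baseChange D).comap (Finsupp.linearCombination D b)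
  have hU : ∀ d, finrank D (U d) = finrank K (part I d) := fun d =>
    finrank_pull _ d (theta_span A b hX hb0 hb hb1 d) _ inf_le_right
  refine ⟨{α | α ∈ Lead ω (U α.degree)}, up_closed _ ?_, ?_, ?_⟩
  · rintro α ⟨u, hu, h1, h2⟩ i
    rw [Set.mem_ofPred_eq, map_add, Finsupp.degree_single]
    refine ⟨sh i u, ⟨sh_mem _ i u hu.1, ?_⟩, ?_, ?_⟩
    · have h3 := bc_mul (part I α.degree) (homogeneousSubmodule (Fin n) K 1) (part I (α.degree + 1))
        (fun x hx y hy => ⟨I.mul_mem_right _ hx.1, IsHomogeneous.mul hx.2 hy⟩) hu.2 (hA1 i)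
      rw [← theta_sh A b hb hb1] at h3
      exact h3
    · rwa [sh_apply]
    · intro β hβ
      obtain ⟨γ, rfl, hγ⟩ := sh_ne i u β hβ
      exact hωa _ _ _ (h2 γ hγ)
  · intro d
    rw [← hU, ← card_lead ω hω (expo n d) (U d) inf_le_left]
    congr 1
    refine Finset.filter_congr fun α hα => ?_
    rw [Set.mem_ofPred_eq, mem_expo.mp hα]
  · intro d v α h1 h2 h3 h4
    rw [Set.mem_ofPred_eq, h1 α h3]
    exact ⟨v, ⟨(memV _ _).mpr h1, h2⟩, h3, h4⟩

open Classical in
theorem finrank_monomial_ideal (Es : Set (Fin n →₀ ℕ)) (hE : ∀ α ∈ Es, ∀ β, α ≤ β → β ∈ Es)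
    (d : ℕ) : finrank K (part (Ideal.span ((fun α => (monomial α 1 : MvPolynomial (Fin n) K)) '' Es))
      d) = ((expo n d).filter (· ∈ Es)).card := by
  rw [← finrank_restrict (K := K)]
  have : part (Ideal.span ((fun α => (monomial α 1 : MvPolynomial (Fin n) K)) '' Es)) d =
      restrictSupport K (((expo n d).filter (· ∈ Es) : Finset _) : Set (Fin n →₀ ℕ)) := by
    ext g
    rw [Submodule.mem_inf, Submodule.restrictScalars_mem, mem_ideal_span_monomial_image,
      hom_eq_restrict, mem_restrictSupport_iff, mem_restrictSupport_iff]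
    constructor
    · rintro ⟨h1, h2⟩ α hα
      obtain ⟨β, hβ, hle⟩ := h1 α hα
      exact Finset.mem_coe.mpr (Finset.mem_filter.mpr ⟨h2 hα, hE β hβ α hle⟩)
    · intro h
      exact ⟨fun α hα => ⟨α, (Finset.mem_filter.mp (h hα)).2, le_rfl⟩,
        fun α hα => (Finset.mem_filter.mp (h hα)).1⟩
  rw [this]

end Main

end Vale.Agent.P200
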