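import Vale.Agent.P200.Main
import Vale.Agent.P200.Depth

namespace Vale.Agent.P200

open Finset Module MvPolynomial TensorProduct

universe u

theorem tower_step' {K : Type u} [Field K] {n : ℕ} (co : Fin n → Fin n → Fin n → K) {k : ℕ}
    (hk : k < n) (τ : Tower K co k) (ε : Ext K co τ.L τ.D) : ∃ τ' : Tower K co (k + 1),
      ∀ i a (x : K), τ.e i a = algebraMap K τ.L x • 1 →
        τ'.e i.castSucc a = algebraMap K τ'.L x • 1 := by
  refine ⟨{ L := ε.F, D := ε.D1
            e := Fin.snoc (α := fun _ => Fin n → ε.D1) (fun i a => ε.j (τ.e i a)) ε.e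
            t := Fin.snoc (α := fun _ => Fin n → ε.D1) (fun i a => ε.j (τ.t i a)) ε.t
            r1 := ?_, r2 := ?_, comm := ?_, surj := ?_ }, ?_⟩
  · intro i a
    induction i using Fin.lastCases with
    | last => simp only [Fin.snoc_last]; exact ε.r1 a
    | cast i =>
      simp only [Fin.snoc_castSucc]
      rw [← map_mul, τ.r1, map_sum]
      exact Finset.sum_congr rfl fun l _ => ε.hj _ _
  · intro i a b
    induction i using Fin.lastCases with
    | last => simp only [Fin.snoc_last]; exact ε.r2 a b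
    | cast i =>
      simp only [Fin.snoc_castSucc]
      rw [← map_mul, ← map_mul, ← map_add, τ.r2, map_sum]
      exact Finset.sum_congr rfl fun l _ => ε.hj _ _
  · intro i i' hne a b
    induction i using Fin.lastCases with
    | last =>
      induction i' using Fin.lastCases with
      | last => exact absurd rfl hne
      | cast i' => simp only [Fin.snoc_last, Fin.snoc_castSucc]; exact ε.hc _ _
    | cast i =>
      induction i' using Fin.lastCases with
      | last => simp only [Fin.snoc_last, Fin.snoc_castSucc]; exact (ε.hc _ _).symm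
      | cast i' =>
        simp only [Fin.snoc_castSucc]
        rw [← map_mul, ← map_mul, τ.comm i i' (fun h => hne (by rw [h]))]
  · intro y
    obtain ⟨w0, hw0, hw0'⟩ := exists_ker (L := τ.L) hk τ.e
    choose v hv using fun i : Fin k => τ.surj (Pi.single i 1)
    have hlam : ∑ a, ε.e a * ε.j (w0 a) ≠ 0 := fun h => hw0 (ε.hind _ h)
    set lam := ∑ a, ε.e a * ε.j (w0 a) with hlamdef
    set r := lam⁻¹ * (y (Fin.last k) - ∑ a, ε.e a * ∑ i, ε.j (v i a) * y i.castSucc) with hr
    refine ⟨fun a => ∑ i, ε.j (v i a) * y i.castSucc + ε.j (w0 a) * r, fun i => ?_⟩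
    induction i using Fin.lastCases with
    | last =>
      simp only [Fin.snoc_last, mul_add, sum_add_distrib, ← mul_assoc]
      rw [← Finset.sum_mul, ← hlamdef, hr, mul_inv_cancel_left₀ hlam, add_sub_cancel]
    | cast i =>
      simp only [Fin.snoc_castSucc, mul_add, sum_add_distrib, ← mul_assoc, Finset.mul_sum]
      rw [← Finset.sum_mul, Finset.sum_comm]
      simp only [← map_mul, ← Finset.sum_mul, ← map_sum, hw0', hv]
      simp [Pi.single_apply]
  · intro i a x h
    have h1 : ε.j (τ.e i a) = algebraMap K ε.F x • 1 := by rw [h, ε.hj, map_one]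
    simp only [Fin.snoc_castSucc]
    exact h1

theorem tower_from {K : Type u} [Field K] {n : ℕ}
    (f : Fin n → MvPolynomial (Fin n) K)
    (hh : ∀ l, (f l).IsHomogeneous 2) (hreg : Reg f)
    (co : Fin n → Fin n → Fin n → K)
    (hco : ∀ l, f l = ∑ j, ∑ k, co l j k • (X j * X k)) (r : ℕ) (lam : Fin r → Fin n → K)
    (τ0 : Tower K co r) (h0 : ∀ i a, τ0.e i a = algebraMap K τ0.L (lam i a) • 1)
    (k : ℕ) (hk : r + k ≤ n) :
    ∃ τ : Tower K co (r + k), ∀ i a, τ.e (Fin.castAdd k i) a = algebraMap K τ.L (lam i a) • 1 := by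
  induction k with
  | zero => exact ⟨τ0, h0⟩
  | succ k ih =>
    obtain ⟨m, rfl⟩ : ∃ m, n = m + 1 := ⟨n - 1, by omega⟩
    obtain ⟨τ, hτ⟩ := ih (by omega)
    obtain ⟨ε⟩ := ext_exists f hh hreg co hco τ.L τ.D
    obtain ⟨τ', h⟩ := tower_step' co (by omega) τ ε
    exact ⟨τ', fun i a => h _ a _ (hτ i a)⟩

theorem sq_eq {K D S : Type*} [Field K] [Ring D] [Algebra K D] [CommRing S] [Algebra K S]
    {n : ℕ} (e : Fin n → D) (x : Fin n → S) (γ : Fin n → Fin n → D)
    (h1 : ∀ j, e j * e j = γ j j) (h2 : ∀ j k, e j * e k + e k * e j = γ j k + γ k j) :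
    (∑ j, e j ⊗ₜ[K] x j) * (∑ j, e j ⊗ₜ[K] x j) = ∑ j, ∑ k, γ j k ⊗ₜ[K] (x j * x k) := by
  rw [Finset.sum_mul_sum, ← sub_eq_zero]
  simp only [Algebra.TensorProduct.tmul_mul_tmul, ← Finset.sum_sub_distrib, ← sub_tmul]
  apply antisym_sum
  · intro j; rw [h1, sub_self, zero_tmul]
  · intro j k
    rw [mul_comm (x k) (x j), ← add_tmul, sub_add_sub_comm, h2, sub_self, zero_tmul]

/-- linear form with coefficients in `D` -/
noncomputable def fm (K : Type*) [Field K] {D : Type*} [Ring D] [Algebra K D] {n : ℕ}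
    (v : Fin n → D) : D ⊗[K] MvPolynomial (Fin n) K := ∑ j, v j ⊗ₜ[K] X j

theorem exists_forms {K : Type u} [Field K] {c r : ℕ} (f : Fin c → MvPolynomial (Fin (c + r)) K)
    (hh : ∀ l, (f l).IsHomogeneous 2) (hreg : Reg f) :
    ∃ (D : Type u) (_ : DivisionRing D) (_ : Algebra K D) (e : Fin (c + r) → Fin (c + r) → D),
      (∀ i i', i ≠ i' → ∀ j j', e i j * e i' j' = e i' j' * e i j) ∧
      (∀ k, ∃ a : Fin (c + r) → D, ∀ j, ∑ i, a i * e i j = if k = j then 1 else 0) ∧
      ∀ l : Fin c, ∃ (t : Fin c → D) (s : Fin r → D),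
        fm K (e (Fin.castAdd r l)) * fm K (e (Fin.castAdd r l)) = ∑ l', t l' ⊗ₜ[K] f l' +
          ∑ j, s j • (fm K (e (Fin.natAdd c j)) * fm K (e (Fin.natAdd c j))) := by
  classical
  choose co hco using fun l => exists_co (f l) (hh l)
  let K' := FractionRing (Polynomial K)
  have : Infinite K' := Infinite.of_injective _ (IsFractionRing.injective (Polynomial K) K')
  let F : ℕ → MvPolynomial (Fin (c + r)) K := fun l => if h : l < c then f ⟨l, h⟩ else 0
  have hF : RegN F c := by
    rw [← reg_iff_regN]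
    have : (fun i : Fin c => F i) = f := funext fun i => dif_pos i.2
    rwa [this]
  obtain ⟨G, lam, h1, h2, h3, h4⟩ := extend_reg _ c (regN_map (L := K') F c hF) r le_rfl
  let co' : Fin (c + r) → Fin (c + r) → Fin (c + r) → K' :=
    Fin.append (fun l j k => algebraMap K K' (co l j k)) (fun i j k => lam i j * lam i k)
  have hco' : ∀ l : Fin (c + r), G l = ∑ j, ∑ k, co' l j k • (X j * X k) := by
    intro l
    induction l using Fin.addCases with
    | left l =>
      rw [Fin.val_castAdd, h2 l l.2]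
      simp only [F, dif_pos l.2, co', Fin.append_left, Fin.eta]
      rw [hco l]
      simp only [map_sum, smul_eq_C_mul, map_mul, map_C, map_X]
    | right i =>
      rw [Fin.val_natAdd, h3, lin_apply, Finset.sum_mul_sum]
      simp only [co', Fin.append_right, smul_mul_smul_comm]
  have hh' : ∀ l : Fin (c + r), (G l).IsHomogeneous 2 := by
    intro l
    rw [hco']
    refine IsHomogeneous.sum _ _ _ fun j _ => IsHomogeneous.sum _ _ _ fun k _ => ?_
    exact (homogeneousSubmodule _ K' 2).smul_mem _ ((isHomogeneous_X K' j).mul (isHomogeneous_X K' k))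
  have hsum : ∀ (i : Fin r) (g : Fin (c + r) → K'),
      ∑ l, g l • (Pi.single (Fin.natAdd c i) (1 : K') : Fin (c + r) → K') l = g (Fin.natAdd c i) := by
    intro i g
    simp [Pi.single_apply]
  let τ0 : Tower K' co' r :=
    { L := K', D := K', e := lam, t := fun i => Pi.single (Fin.natAdd c i) 1
      r1 := fun i j => by
        rw [hsum i fun l => algebraMap K' K' (co' l j j)]; simp [co']
      r2 := fun i j k => by
        rw [hsum i fun l => algebraMap K' K' (co' l j k + co' l k j)]; simp [co']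
      comm := fun _ _ _ _ _ => mul_comm _ _
      surj := fun y => by
        have h5 : (Matrix.of lam).rank = Fintype.card (Fin r) := h4.rank_matrix
        have h6 : LinearMap.range (Matrix.of lam).mulVecLin = ⊤ :=
          Submodule.eq_top_of_finrank_eq (h5.trans (Module.finrank_fintype_fun_eq_card K').symm)
        obtain ⟨w, hw⟩ := LinearMap.range_eq_top.mp h6 y
        exact ⟨w, fun i => congrFun hw i⟩ }
  obtain ⟨τ, hτ⟩ := tower_from (fun l : Fin (c + r) => G l) hh' ((reg_iff_regN G _).mpr h1) co' hco'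
    r lam τ0 (fun i a => by simp [τ0]) c (by omega)
  let _ : Algebra K τ.D := Algebra.compHom τ.D ((algebraMap K' τ.L).comp (algebraMap K K'))
  have hsm : ∀ (a : K) (d : τ.D), a • d = algebraMap K' τ.L (algebraMap K K' a) • d :=
    fun _ _ => rfl
  refine ⟨τ.D, inferInstance, inferInstance, fun i => τ.e (finAddFlip i),
    fun i i' h => τ.comm _ _ (fun e => h (finAddFlip.injective e)), fun k => ?_, fun l => ?_⟩
  · refine left_inv_of_surj (L := τ.L) _ (fun y => ?_) k
    obtain ⟨w, hw⟩ := τ.surj (y ∘ finAddFlip.symm)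
    exact ⟨w, fun i => by rw [hw]; simp⟩
  · set i := finAddFlip (Fin.castAdd r l)
    refine ⟨fun l' => τ.t i (Fin.castAdd r l'), fun j => τ.t i (Fin.natAdd c j), ?_⟩
    rw [fm, sq_eq (τ.e i) X (fun j k => ∑ l, algebraMap K' τ.L (co' l j k) • τ.t i l) (τ.r1 i)
      (fun j k => by rw [τ.r2, ← Finset.sum_add_distrib]; simp only [map_add, add_smul])]
    have hγ : ∀ j k, ∑ l, algebraMap K' τ.L (co' l j k) • τ.t i l =
        ∑ l', co l' j k • τ.t i (Fin.castAdd r l') +
        ∑ m, algebraMap K' τ.L (lam m j * lam m k) • τ.t i (Fin.natAdd c m) := by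
      intro j k
      rw [Fin.sum_univ_add]
      simp only [co', Fin.append_left, Fin.append_right, hsm]
    simp only [hγ, add_tmul, Finset.sum_add_distrib]
    congr 1
    · simp only [hco, tmul_sum, sum_tmul, tmul_smul, smul_tmul']
      conv_rhs => rw [Finset.sum_comm]
      exact Finset.sum_congr rfl fun j _ => Finset.sum_comm
    · simp only [fm, finAddFlip_apply_natAdd, hτ, Finset.sum_mul_sum,
        Algebra.TensorProduct.tmul_mul_tmul, Finset.smul_sum, smul_tmul', sum_tmul, smul_eq_mul]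
      conv_rhs => rw [Finset.sum_comm]
      refine Finset.sum_congr rfl fun j _ => ?_
      conv_rhs => rw [Finset.sum_comm]
      refine Finset.sum_congr rfl fun k _ => Finset.sum_congr rfl fun m _ => ?_
      congr 1
      simp [smul_smul, mul_comm]

theorem lex_single_le {n : ℕ} {i j : Fin n} (h : i < j) :
    (toLex (Finsupp.single j 2) : Lex (Fin n →₀ ℕ)) ≤ toLex (Finsupp.single i 2) := by
  refine le_of_lt (Finsupp.Lex.lt_iff.mpr ⟨i, fun k hk => ?_, ?_⟩)
  · show Finsupp.single j 2 k = Finsupp.single i 2 k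
    rw [Finsupp.single_eq_of_ne hk.ne, Finsupp.single_eq_of_ne (hk.trans h).ne]
  · show Finsupp.single j 2 i < Finsupp.single i 2 i
    rw [Finsupp.single_eq_of_ne h.ne, Finsupp.single_eq_same]
    omega

theorem fm_mem {K D : Type*} [Field K] [Ring D] [Algebra K D] {n : ℕ} (v : Fin n → D) :
    fm K v ∈ (homogeneousSubmodule (Fin n) K 1).baseChange D :=
  Submodule.sum_mem _ fun j _ => Submodule.tmul_mem_baseChange_of_mem _ (isHomogeneous_X K j)

theorem fm_comm {K D : Type*} [Field K] [Ring D] [Algebra K D] {n : ℕ} (e : Fin n → Fin n → D)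
    (he : ∀ i i', i ≠ i' → ∀ j j', e i j * e i' j' = e i' j' * e i j) (i i' : Fin n) :
    fm K (e i) * fm K (e i') = fm K (e i') * fm K (e i) := by
  by_cases h : i = i'
  · rw [h]
  · simp only [fm, Finset.sum_mul_sum, Algebra.TensorProduct.tmul_mul_tmul]
    rw [Finset.sum_comm]
    refine Finset.sum_congr rfl fun j _ => Finset.sum_congr rfl fun k _ => ?_
    rw [he i i' h, mul_comm (X k)]

theorem fm_X {K D : Type*} [Field K] [Ring D] [Algebra K D] {n : ℕ} (e : Fin n → Fin n → D)
    (he : ∀ k, ∃ a : Fin n → D, ∀ j, ∑ i, a i * e i j = if k = j then 1 else 0) (k : Fin n) :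
    ∃ c : Fin n → D, (1 : D) ⊗ₜ[K] (X k : MvPolynomial (Fin n) K) = ∑ i, c i • fm K (e i) := by
  obtain ⟨c, hc⟩ := he k
  refine ⟨c, ?_⟩
  simp only [fm, Finset.smul_sum, smul_tmul', smul_eq_mul]
  rw [Finset.sum_comm]
  simp only [← sum_tmul, hc]
  rw [Finset.sum_eq_single k (fun j _ hj => by rw [if_neg (Ne.symm hj), zero_tmul]) (by simp),
    if_pos rfl]

/-- the vector witnessing that a square is a leading monomial -/
theorem sq_lead {K D : Type*} [Field K] [DivisionRing D] [Algebra K D] {c r : ℕ}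
    (f : Fin c → MvPolynomial (Fin (c + r)) K) (hh : ∀ l, (f l).IsHomogeneous 2)
    (I : Ideal (MvPolynomial (Fin (c + r)) K)) (hfI : ∀ l, f l ∈ I)
    (A : Fin (c + r) → D ⊗[K] MvPolynomial (Fin (c + r)) K)
    (b : (Fin (c + r) →₀ ℕ) → D ⊗[K] MvPolynomial (Fin (c + r)) K)
    (hb : ∀ α β, b (α + β) = b α * b β) (hb1 : ∀ i, b (Finsupp.single i 1) = A i)
    (l : Fin c) (t : Fin c → D) (s : Fin r → D)
    (h : A (Fin.castAdd r l) * A (Fin.castAdd r l) = ∑ l', t l' ⊗ₜ[K] f l' +
      ∑ j, s j • (A (Fin.natAdd c j) * A (Fin.natAdd c j))) :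
    ∃ v : (Fin (c + r) →₀ ℕ) →₀ D, (∀ β, v β ≠ 0 → β.degree = 2) ∧
      Finsupp.linearCombination D b v ∈ (part I 2).baseChange D ∧
      v (Finsupp.single (Fin.castAdd r l) 2) ≠ 0 ∧ ∀ β, v β ≠ 0 →
        (toLex β : Lex (Fin (c + r) →₀ ℕ)) ≤ toLex (Finsupp.single (Fin.castAdd r l) 2) := by
  classical
  have hlt : ∀ j : Fin r, Fin.castAdd r l < Fin.natAdd c j := fun j => by
    rw [Fin.lt_def]; simp; omega
  have hsq : ∀ i, b (Finsupp.single i 2) = A i * A i := fun i => by
    rw [show Finsupp.single i 2 = Finsupp.single i 1 + Finsupp.single i 1 by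
      rw [← Finsupp.single_add], hb, hb1]
  let v : (Fin (c + r) →₀ ℕ) →₀ D := Finsupp.single (Finsupp.single (Fin.castAdd r l) 2) 1 -
    ∑ j, Finsupp.single (Finsupp.single (Fin.natAdd c j) 2) (s j)
  have hv : ∀ β, v β ≠ 0 → β = Finsupp.single (Fin.castAdd r l) 2 ∨
      ∃ j, β = Finsupp.single (Fin.natAdd c j) 2 := by
    intro β hβ
    by_contra hc
    push Not at hc
    apply hβ
    simp only [v, Finsupp.sub_apply, Finsupp.finset_sum_apply]
    rw [Finsupp.single_eq_of_ne hc.1, Finset.sum_eq_zero fun j _ => Finsupp.single_eq_of_ne (hc.2 j),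
      sub_zero]
  refine ⟨v, fun β hβ => ?_, ?_, ?_, fun β hβ => ?_⟩
  · rcases hv β hβ with rfl | ⟨j, rfl⟩ <;> exact Finsupp.degree_single _ _
  · simp only [v, map_sub, map_sum, Finsupp.linearCombination_single, one_smul, hsq]
    rw [h, add_sub_cancel_right]
    exact Submodule.sum_mem _ fun l _ => Submodule.tmul_mem_baseChange_of_mem _ ⟨hfI l, hh l⟩
  · simp only [v, Finsupp.sub_apply, Finsupp.finset_sum_apply, Finsupp.single_eq_same]
    rw [Finset.sum_eq_zero fun j _ => Finsupp.single_eq_of_ne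
      (fun e => (hlt j).ne (Finsupp.single_left_injective two_ne_zero e)), sub_zero]
    exact one_ne_zero
  · rcases hv β hβ with rfl | ⟨j, rfl⟩
    · exact le_rfl
    · exact lex_single_le (hlt j)

theorem egh_quadrics' {K : Type u} [Field K] {c r : ℕ} (f : Fin c → MvPolynomial (Fin (c + r)) K)
    (hh : ∀ l, (f l).IsHomogeneous 2) (hreg : Reg f) (I : Ideal (MvPolynomial (Fin (c + r)) K))
    (hfI : ∀ l, f l ∈ I) :
    ∃ Es : Set (Fin (c + r) →₀ ℕ), (∀ l, Finsupp.single (Fin.castAdd r l) 2 ∈ Es) ∧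
      ∀ d, finrank K (part I d) = finrank K (part (Ideal.span
        ((fun α => (monomial α 1 : MvPolynomial (Fin (c + r)) K)) '' Es)) d) := by
  classical
  obtain ⟨D, _, _, e, h1, h2, h3⟩ := exists_forms f hh hreg
  obtain ⟨b, hb0, hb, hb1⟩ := exists_mono (K := K) (fun i => fm K (e i)) (fm_comm e h1)
  obtain ⟨Es, h4, h5, h6⟩ := exists_initial (fun i => fm K (e i)) (fun i => fm_mem _) (fm_X e h2)
    b hb0 hb hb1 (fun α => (toLex α : Lex (Fin (c + r) →₀ ℕ))) toLex.injective
    (fun α β γ h => add_le_add_left h (toLex γ)) I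
  refine ⟨Es, fun l => ?_, fun d => by rw [h5, finrank_monomial_ideal Es h4]⟩
  obtain ⟨t, s, h⟩ := h3 l
  obtain ⟨v, g1, g2, g3, g4⟩ := sq_lead f hh I hfI _ b hb hb1 l t s h
  exact h6 2 v _ g1 g2 g3 g4

end Vale.Agent.P200
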