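import Mathlib

namespace Vale.Agent.P200

open MvPolynomial Finset Module

variable {K : Type*} [Field K] {n c : ℕ}

theorem hc_mul {σ : Type*} {f : MvPolynomial σ K} {e : ℕ} (hf : f.IsHomogeneous e) (d : ℕ)
    (v : MvPolynomial σ K) :
    homogeneousComponent (d + e) (f * v) = f * homogeneousComponent d v := by
  induction v using MvPolynomial.induction_on' with
  | monomial u a =>
    have h1 : (monomial u a : MvPolynomial σ K).IsHomogeneous u.degree :=
      isHomogeneous_monomial a rfl
    rw [homogeneousComponent_of_mem (hf.mul h1), homogeneousComponent_of_mem h1]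
    by_cases h : d = u.degree
    · rw [if_pos h, if_pos (by omega)]
    · rw [if_neg h, if_neg (by omega), mul_zero]
  | add p q hp hq => rw [mul_add, map_add, map_add, hp, hq, mul_add]

theorem hc_mul_lt {σ : Type*} {f : MvPolynomial σ K} {e : ℕ} (hf : f.IsHomogeneous e) (d : ℕ)
    (hd : d < e) (v : MvPolynomial σ K) : homogeneousComponent d (f * v) = 0 := by
  induction v using MvPolynomial.induction_on' with
  | monomial u a =>
    have h1 : (monomial u a : MvPolynomial σ K).IsHomogeneous u.degree :=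
      isHomogeneous_monomial a rfl
    rw [homogeneousComponent_of_mem (hf.mul h1), if_neg (by omega)]
  | add p q hp hq => rw [mul_add, map_add, hp, hq, add_zero]

/-- the finite set of exponents of degree `d` -/
noncomputable def expo (n d : ℕ) : Finset (Fin n →₀ ℕ) := (univ : Finset (Fin n)).finsuppAntidiag d

theorem mem_expo {d : ℕ} {α : Fin n →₀ ℕ} : α ∈ expo n d ↔ α.degree = d := by
  simp [expo, Finsupp.degree_eq_sum]

theorem card_expo (m d : ℕ) : (expo (m + 1) d).card = (d + m).choose m := by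
  rw [expo, card_finsuppAntidiag_nat_eq_choose, Finset.card_univ, Fintype.card_fin]
  have : m + 1 + d - 1 = d + m := by omega
  rw [this, Nat.choose_symm_add]

theorem hom_eq_restrict (R : Type*) [CommRing R] (d : ℕ) :
    homogeneousSubmodule (Fin n) R d = restrictSupport R (expo n d : Set (Fin n →₀ ℕ)) := by
  rw [homogeneousSubmodule_eq_finsupp_supported]
  have : {α : Fin n →₀ ℕ | α.degree = d} = (expo n d : Set (Fin n →₀ ℕ)) := by
    ext α; simp [mem_expo]
  rw [this]; rfl

theorem finrank_restrict {σ : Type*} (s : Finset (σ →₀ ℕ)) :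
    finrank K (restrictSupport K (s : Set (σ →₀ ℕ))) = s.card := by
  rw [finrank_eq_card_basis (basisRestrictSupport K (s : Set (σ →₀ ℕ)))]
  simp

theorem finrank_hom (d : ℕ) :
    finrank K (homogeneousSubmodule (Fin n) K d) = (expo n d).card := by
  rw [hom_eq_restrict, finrank_restrict]

instance hom_finite (d : ℕ) : Module.Finite K (homogeneousSubmodule (Fin n) K d) :=
  Module.Finite.iff_fg.mpr (homogeneousSubmodule_fg (Fin n) K d)

/-- ideal generated by the first `k` members -/
def pre {S : Type*} [CommRing S] (f : Fin c → S) (k : ℕ) : Ideal S :=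
  Ideal.span (f '' {j | j.val < k})

theorem mem_pre {S : Type*} [CommRing S] (f : Fin c → S) (k : ℕ) (g : S) :
    g ∈ pre f k ↔ ∃ a : Fin c → S, ∑ l ∈ univ.filter (fun l : Fin c => l.val < k), a l * f l = g := by
  have : {j : Fin c | j.val < k} = ((univ.filter (fun l : Fin c => l.val < k) : Finset (Fin c)) : Set (Fin c)) := by
    ext j; simp
  rw [pre, this]
  exact Submodule.mem_span_image_finset_iff_exists_fun' S

theorem pre_mono {S : Type*} [CommRing S] (f : Fin c → S) {k k' : ℕ} (h : k ≤ k') :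
    pre f k ≤ pre f k' :=
  Ideal.span_mono (Set.image_mono fun _ hj => lt_of_lt_of_le hj h)

theorem self_mem_pre {S : Type*} [CommRing S] (f : Fin c → S) {k : ℕ} (l : Fin c) (h : l.val < k) :
    f l ∈ pre f k := Ideal.subset_span ⟨l, h, rfl⟩

theorem filter_succ (k : ℕ) (hk : k < c) :
    univ.filter (fun l : Fin c => l.val < k + 1) =
      insert ⟨k, hk⟩ (univ.filter (fun l : Fin c => l.val < k)) := by
  ext l
  simp only [mem_filter, mem_univ, true_and, mem_insert, Fin.ext_iff]
  omega

theorem pre_succ {S : Type*} [CommRing S] (f : Fin c → S) (k : ℕ) (hk : k < c) (g : S) :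
    g ∈ pre f (k + 1) ↔ ∃ v : S, ∃ u ∈ pre f k, g = u + f ⟨k, hk⟩ * v := by
  constructor
  · intro h
    obtain ⟨a, ha⟩ := (mem_pre f _ g).mp h
    rw [filter_succ k hk, sum_insert (by simp)] at ha
    refine ⟨a ⟨k, hk⟩, _, (mem_pre f _ _).mpr ⟨a, rfl⟩, ?_⟩
    rw [← ha]; ring
  · rintro ⟨v, u, hu, rfl⟩
    exact add_mem (pre_mono f (Nat.le_succ k) hu)
      (Ideal.mul_mem_right _ _ (self_mem_pre f _ (Nat.lt_succ_self k)))

theorem pre_all {S : Type*} [CommRing S] (f : Fin c → S) : pre f c = Ideal.span (Set.range f) := by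
  rw [pre]; congr 1; ext g; simp

theorem pre_zero {S : Type*} [CommRing S] (f : Fin c → S) : pre f 0 = ⊥ := by
  simp [pre]

/-- regularity hypothesis -/
def Reg {S : Type*} [CommRing S] (f : Fin c → S) : Prop :=
  ∀ (i : Fin c) (g : S), f i * g ∈ pre f i.val → g ∈ pre f i.val

theorem syz_aux {S : Type*} [CommRing S] (f : Fin c → S) (hf : Reg f) (k : ℕ) (hk : k ≤ c) :
    ∀ y : Fin c → S, ∑ l ∈ univ.filter (fun l : Fin c => l.val < k), f l * y l = 0 →
      ∀ l : Fin c, l.val < k → y l ∈ pre f k := by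
  induction k with
  | zero => intro y _ l hl; omega
  | succ k ih =>
    intro y hy l hl
    have hk' : k < c := hk
    rw [filter_succ k hk', sum_insert (by simp)] at hy
    have h1 : f ⟨k, hk'⟩ * y ⟨k, hk'⟩ ∈ pre f k := by
      rw [eq_neg_of_add_eq_zero_left hy]
      exact neg_mem ((mem_pre f _ _).mpr ⟨y, by simp [mul_comm]⟩)
    have h2 := hf ⟨k, hk'⟩ _ h1
    by_cases hlk : l.val = k
    · have : l = ⟨k, hk'⟩ := Fin.ext hlk
      rw [this]
      exact pre_mono f (Nat.le_succ k) h2
    · obtain ⟨a, ha⟩ := (mem_pre f _ _).mp h2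
      have h3 := ih hk'.le (fun j => y j + a j * f ⟨k, hk'⟩) (by
        simp only [mul_add, sum_add_distrib]
        rw [← hy, ← ha, add_comm, Finset.mul_sum]
        congr 1
        exact Finset.sum_congr rfl fun j _ => by ring) l (by omega)
      have h4 : y l = (y l + a l * f ⟨k, hk'⟩) - a l * f ⟨k, hk'⟩ := by ring
      rw [h4]
      exact sub_mem (pre_mono f (Nat.le_succ k) h3)
        (Ideal.mul_mem_left _ _ (self_mem_pre f _ (Nat.lt_succ_self k)))

theorem syz {S : Type*} [CommRing S] (f : Fin c → S) (hf : Reg f) (y : Fin c → S)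
    (hy : ∑ l, f l * y l = 0) (l : Fin c) : y l ∈ Ideal.span (Set.range f) := by
  rw [← pre_all]
  refine syz_aux f hf c le_rfl y ?_ l l.2
  rw [← hy]; congr 1; ext j; simp

theorem hc_mem_pre (f : Fin c → MvPolynomial (Fin n) K) (hh : ∀ l, (f l).IsHomogeneous 2) (k d : ℕ)
    (g : MvPolynomial (Fin n) K) (hg : g ∈ pre f k) : homogeneousComponent d g ∈ pre f k := by
  obtain ⟨a, rfl⟩ := (mem_pre f _ g).mp hg
  rw [map_sum]
  refine Ideal.sum_mem _ fun l hl => ?_
  have hl' : l.val < k := by simpa using hl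
  rw [mul_comm]
  by_cases hd : d < 2
  · rw [hc_mul_lt (hh l) d hd]; exact zero_mem _
  · obtain ⟨d', rfl⟩ := Nat.exists_eq_add_of_le' (not_lt.mp hd)
    rw [hc_mul (hh l)]
    exact Ideal.mul_mem_right _ _ (self_mem_pre f _ hl')

/-- degree `d` part of an ideal -/
noncomputable abbrev part (I : Ideal (MvPolynomial (Fin n) K)) (d : ℕ) : Submodule K (MvPolynomial (Fin n) K) :=
  I.restrictScalars K ⊓ homogeneousSubmodule (Fin n) K d

instance part_finite (I : Ideal (MvPolynomial (Fin n) K)) (d : ℕ) : Module.Finite K (part I d) :=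
  Submodule.finiteDimensional_of_le (inf_le_right : part I d ≤ _)

theorem part_low (f : Fin c → MvPolynomial (Fin n) K) (hh : ∀ l, (f l).IsHomogeneous 2) (k d : ℕ)
    (hk : k < c) (hd : d < 2) : part (pre f (k + 1)) d = part (pre f k) d := by
  apply le_antisymm
  · rintro g ⟨hg, hg'⟩
    refine ⟨?_, hg'⟩
    obtain ⟨v, u, hu, rfl⟩ := (pre_succ f k hk g).mp hg
    have h1 := homogeneousComponent_eq_self hg'
    rw [map_add, hc_mul_lt (hh _) d hd, add_zero] at h1
    show _ ∈ pre f k
    rw [← h1]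
    exact hc_mem_pre f hh k d u hu
  · exact inf_le_inf_right _ (pre_mono f (Nat.le_succ k))

theorem part_rec (f : Fin c → MvPolynomial (Fin n) K) (hh : ∀ l, (f l).IsHomogeneous 2)
    (hf : Reg f) (k d : ℕ) (hk : k < c) (h0 : f ⟨k, hk⟩ ≠ 0) :
    finrank K (part (pre f (k + 1)) (d + 2)) + finrank K (part (pre f k) d) =
      finrank K (part (pre f k) (d + 2)) + finrank K (homogeneousSubmodule (Fin n) K d) := by
  set μ : MvPolynomial (Fin n) K →ₗ[K] MvPolynomial (Fin n) K := LinearMap.mulLeft K (f ⟨k, hk⟩)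
  have hμ : Function.Injective μ := fun a b h => mul_left_cancel₀ h0 h
  have e1 : part (pre f (k + 1)) (d + 2) =
      part (pre f k) (d + 2) ⊔ (homogeneousSubmodule (Fin n) K d).map μ := by
    apply le_antisymm
    · rintro g ⟨hg, hg'⟩
      obtain ⟨v, u, hu, rfl⟩ := (pre_succ f k hk g).mp hg
      have h1 := homogeneousComponent_eq_self hg'
      rw [map_add, hc_mul (hh _)] at h1
      rw [← h1]
      exact Submodule.add_mem_sup ⟨hc_mem_pre f hh k _ u hu, homogeneousComponent_mem _ _⟩
        ⟨_, homogeneousComponent_mem _ _, rfl⟩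
    · refine sup_le (inf_le_inf_right _ (pre_mono f (Nat.le_succ k))) ?_
      rintro _ ⟨v, hv, rfl⟩
      refine ⟨Ideal.mul_mem_right _ _ (self_mem_pre f _ (Nat.lt_succ_self k)), ?_⟩
      have := (hh ⟨k, hk⟩).mul hv
      rwa [add_comm] at this
  have e2 : part (pre f k) (d + 2) ⊓ (homogeneousSubmodule (Fin n) K d).map μ =
      (part (pre f k) d).map μ := by
    apply le_antisymm
    · rintro _ ⟨⟨hg, _⟩, v, hv, rfl⟩
      exact ⟨v, ⟨hf ⟨k, hk⟩ v hg, hv⟩, rfl⟩
    · rintro _ ⟨v, ⟨hv, hv'⟩, rfl⟩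
      refine ⟨⟨Ideal.mul_mem_left _ _ hv, ?_⟩, v, hv', rfl⟩
      have := (hh ⟨k, hk⟩).mul hv'
      rwa [add_comm] at this
  have e3 := Submodule.finrank_sup_add_finrank_inf_eq (part (pre f k) (d + 2))
    ((homogeneousSubmodule (Fin n) K d).map μ)
  rw [← e1, e2, ← (Submodule.equivMapOfInjective μ hμ _).finrank_eq,
    ← (Submodule.equivMapOfInjective μ hμ _).finrank_eq] at e3
  exact e3

/-- Hilbert series of the quotient by the first `k` forms -/
noncomputable def hser (f : Fin c → MvPolynomial (Fin n) K) (k : ℕ) : PowerSeries ℤ :=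
  PowerSeries.mk fun d => (finrank K (homogeneousSubmodule (Fin n) K d) : ℤ) -
    finrank K (part (pre f k) d)

theorem hser_succ (f : Fin c → MvPolynomial (Fin n) K) (hh : ∀ l, (f l).IsHomogeneous 2)
    (hf : Reg f) (k : ℕ) (hk : k < c) (h0 : f ⟨k, hk⟩ ≠ 0) :
    hser f (k + 1) = (1 - PowerSeries.X ^ 2) * hser f k := by
  ext d
  rw [sub_mul, one_mul, map_sub, PowerSeries.coeff_X_pow_mul']
  by_cases hd : d < 2
  · rw [if_neg (by omega)]
    simp only [hser, PowerSeries.coeff_mk, sub_zero]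
    rw [part_low f hh k d hk hd]
  · obtain ⟨d', rfl⟩ := Nat.exists_eq_add_of_le' (not_lt.mp hd)
    rw [if_pos (by omega)]
    have := part_rec f hh hf k d' hk h0
    simp only [hser, PowerSeries.coeff_mk, add_tsub_cancel_right]
    omega

theorem one_notMem_pre (f : Fin c → MvPolynomial (Fin n) K) (hh : ∀ l, (f l).IsHomogeneous 2)
    (k : ℕ) : (1 : MvPolynomial (Fin n) K) ∉ pre f k := by
  intro h
  obtain ⟨a, ha⟩ := (mem_pre f _ _).mp h
  have := congrArg (homogeneousComponent 0) ha
  rw [map_sum, Finset.sum_eq_zero (fun l _ => by rw [mul_comm, hc_mul_lt (hh l) 0 (by omega)]),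
    homogeneousComponent_eq_self (isHomogeneous_one _ _)] at this
  exact zero_ne_one this

theorem reg_ne_zero (f : Fin c → MvPolynomial (Fin n) K) (hh : ∀ l, (f l).IsHomogeneous 2)
    (hf : Reg f) (l : Fin c) : f l ≠ 0 := by
  intro h
  exact one_notMem_pre f hh _ (hf l 1 (by rw [h, zero_mul]; exact zero_mem _))

theorem hser_eq (f : Fin c → MvPolynomial (Fin n) K) (hh : ∀ l, (f l).IsHomogeneous 2)
    (hf : Reg f) (k : ℕ) (hk : k ≤ c) :
    hser f k = (1 - PowerSeries.X ^ 2) ^ k * hser f 0 := by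
  induction k with
  | zero => simp
  | succ k ih =>
    rw [hser_succ f hh hf k hk (reg_ne_zero f hh hf _), ih (by omega)]; ring

theorem hser_zero (m : ℕ) (f : Fin c → MvPolynomial (Fin (m + 1)) K) :
    hser f 0 * (1 - PowerSeries.X) ^ (m + 1) = 1 := by
  have : hser f 0 = (PowerSeries.invOneSubPow ℤ (m + 1)).val := by
    rw [PowerSeries.invOneSubPow_val_succ_eq_mk_add_choose]
    ext d
    have h0 : part (pre f 0) d = ⊥ := by rw [pre_zero]; simp [part]
    simp only [hser, PowerSeries.coeff_mk, finrank_hom, card_expo]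
    rw [h0, finrank_bot]
    simp [add_comm]
  rw [this, ← PowerSeries.invOneSubPow_inv_eq_one_sub_pow]
  exact (PowerSeries.invOneSubPow ℤ (m + 1)).val_inv

theorem hilb_ci (m : ℕ) (f : Fin (m + 1) → MvPolynomial (Fin (m + 1)) K)
    (hh : ∀ l, (f l).IsHomogeneous 2) (hf : Reg f) (d : ℕ) :
    finrank K (homogeneousSubmodule (Fin (m + 1)) K d) =
      finrank K (part (Ideal.span (Set.range f)) d) + (m + 1).choose d := by
  have h1 := hser_eq f hh hf (m + 1) le_rfl
  have h2 := hser_zero m f
  have h3 : hser f (m + 1) = (1 + PowerSeries.X) ^ (m + 1) := by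
    rw [h1]
    have : (1 - PowerSeries.X ^ 2 : PowerSeries ℤ) = (1 + PowerSeries.X) * (1 - PowerSeries.X) := by
      ring
    rw [this, mul_pow, mul_assoc, mul_comm ((1 - PowerSeries.X) ^ (m + 1)), h2, mul_one]
  have h4 := congrArg (PowerSeries.coeff d) h3
  have h5 : PowerSeries.coeff d ((1 + PowerSeries.X : PowerSeries ℤ) ^ (m + 1)) =
      ((m + 1).choose d : ℤ) := by
    have := Polynomial.coeff_one_add_X_pow ℤ (m + 1) d
    rw [← this, ← Polynomial.coeff_coe]
    simp
  rw [h5, hser, PowerSeries.coeff_mk, pre_all] at h4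
  omega

end Vale.Agent.P200
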