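import Mathlib

namespace Vale.Agent.P200

open TensorProduct Finset Module

theorem antisym_sum {G : Type*} [AddCommGroup G] {n : ℕ} (g : Fin n → Fin n → G)
    (h1 : ∀ j, g j j = 0) (h2 : ∀ j k, g j k + g k j = 0) : ∑ j, ∑ k, g j k = 0 := by
  rw [← Finset.sum_product']
  refine Finset.sum_involution (fun p _ => p.swap) (fun p _ => h2 p.1 p.2) ?_
    (fun p _ => by simp) (fun p _ => rfl)
  rintro ⟨j, k⟩ _ hne heq
  apply hne
  have : k = j := congrArg Prod.fst heq
  rw [this]; exact h1 j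

section Op

variable {K : Type*} [Field K] {T : Type*} [CommRing T] [Algebra K T]
  {W : Type*} [AddCommGroup W] [Module K W] [Module T W] [IsScalarTower K T W] {n c : ℕ}

/-- the operator `∑ ε j ⊗ ξ j` -/
noncomputable def opA {M : Type*} [AddCommGroup M] [Module K M] (ε : Fin n → W →ₗ[T] W)
    (ξ : Fin n → M →ₗ[K] M) : W ⊗[K] M →ₗ[T] W ⊗[K] M :=
  ∑ j, AlgebraTensorModule.map (ε j) (ξ j)

theorem opA_tmul {M : Type*} [AddCommGroup M] [Module K M] (ε : Fin n → W →ₗ[T] W)
    (ξ : Fin n → M →ₗ[K] M) (w : W) (m : M) :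
    opA ε ξ (w ⊗ₜ m) = ∑ j, ε j w ⊗ₜ[K] ξ j m := by
  simp [opA, LinearMap.sum_apply]

theorem opA_nat {M M' : Type*} [AddCommGroup M] [Module K M] [AddCommGroup M'] [Module K M']
    (ε : Fin n → W →ₗ[T] W) (ξ : Fin n → M →ₗ[K] M) (ξ' : Fin n → M' →ₗ[K] M')
    (g : M →ₗ[K] M') (hg : ∀ j m, g (ξ j m) = ξ' j (g m)) (z : W ⊗[K] M) :
    g.lTensor W (opA ε ξ z) = opA ε ξ' (g.lTensor W z) := by
  induction z with
  | zero => simp
  | tmul w m => simp [opA_tmul, hg]
  | add a b ha hb => simp [ha, hb]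

theorem lTensor_tsmul {M M' : Type*} [AddCommGroup M] [Module K M] [AddCommGroup M'] [Module K M']
    (g : M →ₗ[K] M') (t : T) (z : W ⊗[K] M) : g.lTensor W (t • z) = t • g.lTensor W z :=
  (AlgebraTensorModule.lTensor T W g).map_smul t z

variable {S : Type*} [CommRing S] [Algebra K S]

/-- multiplication by an element of `S` -/
def mulBy (K : Type*) [Field K] {S : Type*} [CommRing S] [Algebra K S] (M : Type*) [AddCommGroup M]
    [Module K M] [Module S M] [IsScalarTower K S M] (s : S) : M →ₗ[K] M :=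
  (LinearMap.lsmul S M s).restrictScalars K

@[simp] theorem mulBy_apply {M : Type*} [AddCommGroup M]
    [Module K M] [Module S M] [IsScalarTower K S M] (s : S) (m : M) : mulBy K M s m = s • m := rfl

theorem opA_sq (ε : Fin n → W →ₗ[T] W) (t : Fin c → T) (x : Fin n → S) (f : Fin c → S)
    (co : Fin c → Fin n → Fin n → K) (hf : ∀ l, f l = ∑ j, ∑ k, co l j k • (x j * x k))
    (h1 : ∀ j w, ε j (ε j w) = ∑ l, co l j j • t l • w)
    (h2 : ∀ j k w, ε j (ε k w) + ε k (ε j w) = ∑ l, (co l j k + co l k j) • t l • w)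
    (z : W ⊗[K] S) :
    opA ε (fun j => mulBy K S (x j)) (opA ε (fun j => mulBy K S (x j)) z) =
      ∑ l, t l • (mulBy K S (f l)).lTensor W z := by
  induction z with
  | zero => simp
  | add a b ha hb => simp [ha, hb, sum_add_distrib]
  | tmul w m =>
    have e1 : opA ε (fun j => mulBy K S (x j)) (opA ε (fun j => mulBy K S (x j)) (w ⊗ₜ m)) =
        ∑ j, ∑ k, ε j (ε k w) ⊗ₜ[K] (x j * x k * m) := by
      rw [opA_tmul, map_sum, Finset.sum_comm]
      refine Finset.sum_congr rfl fun k _ => ?_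
      rw [opA_tmul]
      refine Finset.sum_congr rfl fun j _ => ?_
      simp [mul_assoc]
    have e2 : ∑ l, t l • (mulBy K S (f l)).lTensor W (w ⊗ₜ m) =
        ∑ j, ∑ k, (∑ l, co l j k • t l • w) ⊗ₜ[K] (x j * x k * m) := by
      simp only [LinearMap.lTensor_tmul, mulBy_apply, smul_eq_mul, hf, Finset.sum_mul,
        tmul_sum, sum_tmul, smul_mul_assoc, tmul_smul, Finset.smul_sum, smul_tmul']
      rw [Finset.sum_comm]
      refine Finset.sum_congr rfl fun j _ => ?_
      rw [Finset.sum_comm]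
      refine Finset.sum_congr rfl fun k _ => ?_
      refine Finset.sum_congr rfl fun l _ => ?_
      rw [smul_comm]
    rw [e1, e2, ← sub_eq_zero]
    simp only [← Finset.sum_sub_distrib, ← sub_tmul]
    apply antisym_sum
    · intro j; rw [h1, sub_self, zero_tmul]
    · intro j k
      rw [mul_comm (x k) (x j), ← add_tmul]
      have : ε j (ε k w) - ∑ l, co l j k • t l • w + (ε k (ε j w) - ∑ l, co l k j • t l • w) = 0 := by
        have h3 := h2 j k w
        simp only [add_smul, sum_add_distrib] at h3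
        rw [sub_add_sub_comm, h3, sub_self]
      rw [this, zero_tmul]

theorem homotopy (ε : Fin n → W →ₗ[T] W) (t : Fin c → T) (x : Fin n → S) (f : Fin c → S)
    (co : Fin c → Fin n → Fin n → K) (hf : ∀ l, f l = ∑ j, ∑ k, co l j k • (x j * x k))
    (h1 : ∀ j w, ε j (ε j w) = ∑ l, co l j j • t l • w)
    (h2 : ∀ j k w, ε j (ε k w) + ε k (ε j w) = ∑ l, (co l j k + co l k j) • t l • w)
    (I : Ideal S) (hI : I = Ideal.span (Set.range f))
    (hsyz : ∀ y : Fin c → S, ∑ l, f l * y l = 0 → ∀ l, y l ∈ I)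
    (z : W ⊗[K] (S ⧸ I))
    (hz : opA ε (fun j => mulBy K (S ⧸ I) (x j)) z = 0) (l : Fin c) :
    t l • z ∈ LinearMap.range (opA ε (fun j => mulBy K (S ⧸ I) (x j))) := by
  classical
  let q : S →ₗ[K] S ⧸ I := (Ideal.Quotient.mkₐ K I).toLinearMap
  have hq : Function.Surjective q := Ideal.Quotient.mk_surjective
  let φ : (Fin c → S) →ₗ[K] S := (Fintype.linearCombination S f).restrictScalars K
  have hφ : ∀ y, φ y = ∑ l, f l * y l := fun y => by
    simp [φ, Fintype.linearCombination_apply, mul_comm]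
  have hex : Function.Exact φ q := by
    intro s
    rw [show q s = Ideal.Quotient.mk I s from rfl, Ideal.Quotient.eq_zero_iff_mem, hI,
      Ideal.mem_span_range_iff_exists_fun]
    simp [hφ, mul_comm]
  have hqA : ∀ z : W ⊗[K] S, q.lTensor W (opA ε (fun j => mulBy K S (x j)) z) =
      opA ε (fun j => mulBy K (S ⧸ I) (x j)) (q.lTensor W z) :=
    opA_nat ε _ _ q (fun j m => rfl)
  obtain ⟨z', rfl⟩ := LinearMap.lTensor_surjective W hq z
  rw [← hqA] at hz
  obtain ⟨w, hw⟩ := (lTensor_exact W hex hq _).mp hz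
  have hφA : ∀ z : W ⊗[K] (Fin c → S),
      φ.lTensor W (opA ε (fun j => mulBy K (Fin c → S) (x j)) z) =
      opA ε (fun j => mulBy K S (x j)) (φ.lTensor W z) :=
    opA_nat ε _ _ φ (fun j m => by
      simp only [hφ, mulBy_apply, Pi.smul_apply, smul_eq_mul, Finset.mul_sum]
      exact Finset.sum_congr rfl fun l _ => by ring)
  let sg : Fin c → S →ₗ[K] (Fin c → S) := fun l => LinearMap.single K (fun _ => S) l
  let pr : Fin c → (Fin c → S) →ₗ[K] S := fun l => LinearMap.proj l
  set y : W ⊗[K] (Fin c → S) := ∑ k, t k • (sg k).lTensor W z' -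
    opA ε (fun j => mulBy K (Fin c → S) (x j)) w with hy
  have hy0 : φ.lTensor W y = 0 := by
    rw [hy, map_sub, hφA, hw, opA_sq ε t x f co hf h1 h2, map_sum, sub_eq_zero]
    refine Finset.sum_congr rfl fun k _ => ?_
    rw [lTensor_tsmul, ← LinearMap.lTensor_comp_apply]
    congr 2
    ext s
    simp [hφ, sg, Pi.single_apply]
  obtain ⟨y', hy'⟩ := (Module.Flat.lTensor_exact W (LinearMap.exact_subtype_ker_map φ) y).mp hy0
  have h0 : (q ∘ₗ pr l).lTensor W y = 0 := by
    rw [← hy', ← LinearMap.lTensor_comp_apply]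
    have : (q ∘ₗ pr l) ∘ₗ (LinearMap.ker φ).subtype = 0 := by
      ext ⟨v, hv⟩
      exact Ideal.Quotient.eq_zero_iff_mem.mpr (hsyz v (by rw [← hφ]; exact hv) l)
    rw [this]; simp
  rw [hy, map_sub, sub_eq_zero, opA_nat ε _ (fun j => mulBy K (S ⧸ I) (x j)) (q ∘ₗ pr l)
    (fun j m => rfl), map_sum, Finset.sum_eq_single l] at h0
  · rw [lTensor_tsmul, ← LinearMap.lTensor_comp_apply] at h0
    have : (q ∘ₗ pr l) ∘ₗ sg l = q := by ext s; simp [pr, sg]
    rw [this] at h0
    exact ⟨_, h0.symm⟩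
  · intro k _ hk
    rw [lTensor_tsmul, ← LinearMap.lTensor_comp_apply]
    have : (q ∘ₗ pr l) ∘ₗ sg k = 0 := by ext s; simp [pr, sg, hk.symm]
    rw [this]; simp
  · simp

theorem finite_tensor {R : Type*} [AddCommGroup R] [Module K R] [Module.Finite K R]
    [Module.Finite T W] : Module.Finite T (W ⊗[K] R) := by
  let b := Module.finBasis K R
  let g : (Fin (finrank K R) → W) →ₗ[T] W ⊗[K] R :=
    ∑ i, ((AlgebraTensorModule.mk K T W R).flip (b i)) ∘ₗ LinearMap.proj i
  refine Module.Finite.of_surjective g fun z => ?_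
  induction z with
  | zero => exact ⟨0, map_zero _⟩
  | add a b ha hb =>
    obtain ⟨a', rfl⟩ := ha
    obtain ⟨b', rfl⟩ := hb
    exact ⟨a' + b', map_add _ _ _⟩
  | tmul w r =>
    refine ⟨fun i => b.repr r i • w, ?_⟩
    conv_rhs => rw [← b.sum_repr r, tmul_sum]
    simp only [g, LinearMap.sum_apply, LinearMap.comp_apply, LinearMap.proj_apply,
      LinearMap.flip_apply, AlgebraTensorModule.mk_apply, smul_tmul]
    rfl

end Op

theorem telescope (v k : ℕ → ℤ) (N : ℕ) (h : ∀ i, v i = k i + k (i + 1)) :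
    ∑ i ∈ range (N + 1), (-1 : ℤ) ^ i * v i = k 0 + (-1) ^ N * k (N + 1) := by
  induction N with
  | zero => simp [h]
  | succ N ih => rw [Finset.sum_range_succ, ih, h (N + 1)]; ring

section Count

variable {K : Type*} [Field K] {L : Type*} [Field L] [Algebra K L] {n m : ℕ}
  {W : Type*} [AddCommGroup W] [Module K W] [Module L W] [Module (MvPolynomial (Fin m) L) W]
  [IsScalarTower K L W] [IsScalarTower L (MvPolynomial (Fin m) L) W]
  [IsScalarTower K (MvPolynomial (Fin m) L) W]
  {R : Type*} [AddCommGroup R] [Module K R]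

theorem finrank_range_map (π : W →ₗ[L] W) (ρ : R →ₗ[K] R) :
    finrank L (LinearMap.range (AlgebraTensorModule.map π ρ)) =
      finrank L (LinearMap.range π) * finrank K (LinearMap.range ρ) := by
  let ι : LinearMap.range π ⊗[K] LinearMap.range ρ →ₗ[L] W ⊗[K] R :=
    AlgebraTensorModule.map (LinearMap.range π).subtype (LinearMap.range ρ).subtype
  have hι : Function.Injective ι :=
    TensorProduct.map_injective_of_flat_flat
      ((LinearMap.range π).subtype.restrictScalars K) (LinearMap.range ρ).subtype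
      Subtype.val_injective Subtype.val_injective
  have hr : LinearMap.range (AlgebraTensorModule.map π ρ) = LinearMap.range ι := by
    apply le_antisymm
    · rintro _ ⟨z, rfl⟩
      induction z with
      | zero => simp
      | add a b ha hb => rw [map_add]; exact add_mem ha hb
      | tmul w r => exact ⟨⟨π w, w, rfl⟩ ⊗ₜ ⟨ρ r, r, rfl⟩, rfl⟩
    · rintro _ ⟨z, rfl⟩
      induction z with
      | zero => simp
      | add a b ha hb => rw [map_add]; exact add_mem ha hb
      | tmul w r =>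
        obtain ⟨_, w, rfl⟩ := w
        obtain ⟨_, r, rfl⟩ := r
        exact ⟨w ⊗ₜ r, rfl⟩
  rw [hr, LinearMap.finrank_range_of_inj hι, Module.finrank_tensorProduct]

theorem key_count [Module.Finite (MvPolynomial (Fin m) L) W] [Module.Finite K R]
    (ε : Fin n → W →ₗ[MvPolynomial (Fin m) L] W) (ξ : Fin n → R →ₗ[K] R)
    (hhom : ∀ z, opA ε ξ z = 0 → ∀ l,
      (MvPolynomial.X l : MvPolynomial (Fin m) L) • z ∈ LinearMap.range (opA ε ξ))
    (hAA : ∀ z, opA ε ξ (opA ε ξ z) = 0)
    (π : ℕ → W →ₗ[L] W) (hπ1 : ∀ a j w, π (a + 1) (ε j w) = ε j (π a w))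
    (hπi : ∀ a w, π a (π a w) = π a w) (hπf : ∀ w, ∃ N, ∀ a ≥ N, π a w = 0)
    (hπd : ∀ a, Module.Finite L (LinearMap.range (π a)))
    (ρ : ℕ → R →ₗ[K] R) (hρ1 : ∀ i j r, ρ (i + 1) (ξ j r) = ξ j (ρ i r))
    (hρ0 : ∀ j r, ρ 0 (ξ j r) = 0) (hρi : ∀ i r, ρ i (ρ i r) = ρ i r) (N : ℕ)
    (hN : finrank K (LinearMap.range (ρ (N + 1))) = 0) :
    ∃ d0, ∀ d ≥ d0, ∑ i ∈ range (N + 1), (-1 : ℤ) ^ i * (finrank K (LinearMap.range (ρ i)) : ℤ) *
      (finrank L (LinearMap.range (π (d + i))) : ℤ) = 0 := by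
  classical
  set T := MvPolynomial (Fin m) L
  set A := opA ε ξ with hAdef
  have : Module.Finite T (W ⊗[K] R) := finite_tensor
  let P : ℕ → ℕ → W ⊗[K] R →ₗ[L] W ⊗[K] R := fun a i => AlgebraTensorModule.map (π a) (ρ i)
  have hP1 : ∀ a i z, P (a + 1) (i + 1) (A z) = A (P a i z) := by
    intro a i z
    induction z with
    | zero => simp
    | add a b ha hb => simp only [map_add, ha, hb]
    | tmul w r => simp [P, hAdef, opA_tmul, hπ1, hρ1]
  have hP0 : ∀ a z, P a 0 (A z) = 0 := by
    intro a z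
    induction z with
    | zero => simp
    | add a b ha hb => simp only [map_add, ha, hb, add_zero]
    | tmul w r => simp [P, hAdef, opA_tmul, hρ0]
  have hPi : ∀ a i z, P a i (P a i z) = P a i z := by
    intro a i z
    induction z with
    | zero => simp
    | add a b ha hb => simp only [map_add, ha, hb]
    | tmul w r => simp [P, hπi, hρi]
  have hPf : ∀ z, ∃ N, ∀ a ≥ N, ∀ i, P a i z = 0 := by
    intro z
    induction z with
    | zero => exact ⟨0, fun _ _ _ => map_zero _⟩
    | add a b ha hb =>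
      obtain ⟨N1, h1⟩ := ha
      obtain ⟨N2, h2⟩ := hb
      refine ⟨max N1 N2, fun a ha i => ?_⟩
      rw [map_add, h1 a (le_trans (le_max_left _ _) ha), h2 a (le_trans (le_max_right _ _) ha),
        add_zero]
    | tmul w r =>
      obtain ⟨N, hN⟩ := hπf w
      exact ⟨N, fun a ha i => by simp [P, hN a ha]⟩
  choose nb hnb using hPf
  obtain ⟨s, hs⟩ := IsNoetherian.noetherian (R := T) (LinearMap.ker A)
  let AL : W ⊗[K] R →ₗ[L] W ⊗[K] R := A.restrictScalars L
  let Q : Submodule L (W ⊗[K] R) := Submodule.span L (s : Set (W ⊗[K] R)) ⊔ LinearMap.range AL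
  have hQ : ∀ z ∈ LinearMap.ker A, z ∈ Q := by
    intro z hz
    rw [← hs] at hz
    induction hz using Submodule.span_induction with
    | mem x hx => exact Submodule.mem_sup_left (Submodule.subset_span hx)
    | zero => exact zero_mem _
    | add x y _ _ hx hy => exact add_mem hx hy
    | smul u x hx hxQ =>
      rw [hs] at hx
      induction u using MvPolynomial.induction_on with
      | C a =>
        have : (MvPolynomial.C a : T) • x = a • x := algebraMap_smul T a x
        rw [this]; exact Q.smul_mem a hxQ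
      | add p q hp hq => rw [add_smul]; exact add_mem hp hq
      | mul_X p l _ =>
        rw [mul_comm, mul_smul]
        obtain ⟨y, hy⟩ := hhom (p • x) ((LinearMap.ker A).smul_mem p hx) l
        exact Submodule.mem_sup_right ⟨y, hy⟩
  refine ⟨s.sup nb + 1, fun d hd => ?_⟩
  have hkey : ∀ a ≥ s.sup nb, ∀ i z, A z = 0 → ∃ y, P a i z = P a i (A y) := by
    intro a ha i z hz
    obtain ⟨u, hu, _, ⟨y, rfl⟩, rfl⟩ := Submodule.mem_sup.mp (hQ z hz)
    refine ⟨y, ?_⟩
    have : P a i u = 0 := by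
      have h1 : Submodule.span L (s : Set (W ⊗[K] R)) ≤ LinearMap.ker (P a i) :=
        Submodule.span_le.mpr fun x hx => hnb x a (le_trans (Finset.le_sup hx) ha) i
      exact h1 hu
    rw [map_add, this, zero_add]; rfl
  let V : ℕ → Submodule L (W ⊗[K] R) := fun i => LinearMap.range (P (d + i) i)
  have hVf : ∀ i, Module.Finite L (V i) := by
    intro i
    have := hπd (d + i)
    let ι : LinearMap.range (π (d + i)) ⊗[K] R →ₗ[L] W ⊗[K] R :=
      AlgebraTensorModule.map (LinearMap.range (π (d + i))).subtype (ρ i)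
    have : Module.Finite L (LinearMap.range (π (d + i)) ⊗[K] R) := finite_tensor
    have : V i ≤ LinearMap.range ι := by
      rintro _ ⟨z, rfl⟩
      induction z with
      | zero => simp
      | add a b ha hb => rw [map_add]; exact add_mem ha hb
      | tmul w r => exact ⟨⟨π _ w, w, rfl⟩ ⊗ₜ r, rfl⟩
    exact Submodule.finiteDimensional_of_le this
  have hmap : ∀ i, (V i).map AL = V (i + 1) ⊓ LinearMap.ker AL := by
    intro i
    apply le_antisymm
    · rintro _ ⟨_, ⟨z, rfl⟩, rfl⟩
      exact ⟨⟨A z, hP1 _ _ _⟩, hAA _⟩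
    · rintro _ ⟨⟨z, rfl⟩, hz⟩
      obtain ⟨y, hy⟩ := hkey (d + (i + 1)) (by omega) (i + 1) _ hz
      rw [hPi] at hy
      refine ⟨P (d + i) i y, ⟨y, rfl⟩, ?_⟩
      rw [hy]
      exact (hP1 (d + i) i y).symm
  have hk0 : V 0 ⊓ LinearMap.ker AL = ⊥ := by
    rw [eq_bot_iff]
    rintro _ ⟨⟨z, rfl⟩, hz⟩
    obtain ⟨y, hy⟩ := hkey (d + 0) (by omega) 0 _ hz
    rw [hPi, hP0] at hy
    exact hy
  have hv : ∀ i, (finrank L (V i) : ℤ) = finrank L (V i ⊓ LinearMap.ker AL : Submodule L _) +
      finrank L (V (i + 1) ⊓ LinearMap.ker AL : Submodule L _) := by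
    intro i
    have := hVf i
    have h1 := LinearMap.finrank_range_add_finrank_ker (AL.domRestrict (V i))
    rw [LinearMap.range_domRestrict, hmap, LinearMap.ker_domRestrict,
      ← Submodule.finrank_map_subtype_eq, Submodule.map_comap_subtype] at h1
    omega
  have h2 := telescope _ (fun i => (finrank L (V i ⊓ LinearMap.ker AL : Submodule L _) : ℤ)) N hv
  have h3 : finrank L (V (N + 1) ⊓ LinearMap.ker AL : Submodule L _) = 0 := by
    have := hVf (N + 1)
    have h4 := Submodule.finrank_mono (inf_le_left : V (N + 1) ⊓ LinearMap.ker AL ≤ V (N + 1))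
    have h5 : finrank L (V (N + 1)) = 0 := by
      simp only [V, P]; rw [finrank_range_map, hN, mul_zero]
    omega
  have h6 : finrank L (V 0 ⊓ LinearMap.ker AL : Submodule L _) = 0 := by rw [hk0, finrank_bot]
  simp only [h6, h3, Nat.cast_zero, mul_zero, add_zero] at h2
  rw [← h2]
  refine Finset.sum_congr rfl fun i _ => ?_
  simp only [V, P]
  rw [finrank_range_map]
  push_cast; ring

end Count

end Vale.Agent.P200
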