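import Vale.Agent.P200.Growth
import Vale.Agent.P200.Hilb
import Vale.Agent.P200.Key

namespace Vale.Agent.P200

open TensorProduct Finset Module MvPolynomial

variable {K : Type*} [Field K]

theorem exists_co {n : ℕ} (f : MvPolynomial (Fin n) K) (hf : f.IsHomogeneous 2) :
    ∃ co : Fin n → Fin n → K, f = ∑ j, ∑ k, co j k • (X j * X k : MvPolynomial (Fin n) K) := by
  have h1 : f ∈ homogeneousSubmodule (Fin n) K 2 := hf
  rw [← homogeneousSubmodule_one_pow, pow_two, homogeneousSubmodule_one_eq_span_X,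
    Submodule.span_mul_span] at h1
  have h2 : open scoped Pointwise in Set.range (X : Fin n → MvPolynomial (Fin n) K) *
      Set.range (X : Fin n → MvPolynomial (Fin n) K) =
      Set.range (fun p : Fin n × Fin n => (X p.1 * X p.2 : MvPolynomial (Fin n) K)) := by
    ext g
    constructor
    · rintro ⟨_, ⟨j, rfl⟩, _, ⟨k, rfl⟩, rfl⟩; exact ⟨(j, k), rfl⟩
    · rintro ⟨⟨j, k⟩, rfl⟩; exact ⟨_, ⟨j, rfl⟩, _, ⟨k, rfl⟩, rfl⟩
  rw [h2, Submodule.mem_span_range_iff_exists_fun] at h1
  obtain ⟨a, ha⟩ := h1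
  exact ⟨fun j k => a (j, k), by rw [← ha, Fintype.sum_prod_type]⟩

section Quot

variable {n : ℕ} (I : Ideal (MvPolynomial (Fin n) K))
  (hI : ∀ d, ∀ g ∈ I, homogeneousComponent d g ∈ I)

/-- projection of the quotient on its degree `d` part -/
noncomputable def rho (d : ℕ) :
    (MvPolynomial (Fin n) K ⧸ I) →ₗ[K] (MvPolynomial (Fin n) K ⧸ I) :=
  (Submodule.liftQ (I.restrictScalars K)
    ((Ideal.Quotient.mkₐ K I).toLinearMap ∘ₗ homogeneousComponent d)
    (fun g hg => Ideal.Quotient.eq_zero_iff_mem.mpr (hI d g hg))) ∘ₗ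
    (Submodule.Quotient.restrictScalarsEquiv K I).symm.toLinearMap

theorem rho_mk (d : ℕ) (g : MvPolynomial (Fin n) K) :
    rho I hI d (Ideal.Quotient.mk I g) = Ideal.Quotient.mk I (homogeneousComponent d g) := rfl

theorem finrank_rho (d : ℕ) : finrank K (LinearMap.range (rho I hI d)) + finrank K (part I d) =
    finrank K (homogeneousSubmodule (Fin n) K d) := by
  let q := (Ideal.Quotient.mkₐ K I).toLinearMap
  have h1 := LinearMap.finrank_range_add_finrank_ker
    (q.domRestrict (homogeneousSubmodule (Fin n) K d))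
  have h2 : LinearMap.range (rho I hI d) = (homogeneousSubmodule (Fin n) K d).map q := by
    apply le_antisymm
    · rintro _ ⟨r, rfl⟩
      obtain ⟨g, rfl⟩ := Ideal.Quotient.mk_surjective r
      exact ⟨_, homogeneousComponent_mem d g, rfl⟩
    · rintro _ ⟨g, hg, rfl⟩
      refine ⟨Ideal.Quotient.mk I g, ?_⟩
      rw [rho_mk, homogeneousComponent_eq_self hg]; rfl
  have h3 : LinearMap.ker q = I.restrictScalars K := by
    ext g; exact Ideal.Quotient.eq_zero_iff_mem
  rw [LinearMap.range_domRestrict, LinearMap.ker_domRestrict,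
    ← Submodule.finrank_map_subtype_eq, Submodule.map_comap_subtype, h3, inf_comm] at h1
  rw [h2]; exact h1

theorem rho_finite (d : ℕ) : Module.Finite K (LinearMap.range (rho I hI d)) := by
  let q := (Ideal.Quotient.mkₐ K I).toLinearMap
  have h2 : LinearMap.range (rho I hI d) ≤ (homogeneousSubmodule (Fin n) K d).map q := by
    rintro _ ⟨r, rfl⟩
    obtain ⟨g, rfl⟩ := Ideal.Quotient.mk_surjective r
    exact ⟨_, homogeneousComponent_mem d g, rfl⟩
  exact Submodule.finiteDimensional_of_le h2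

theorem quot_finite (N : ℕ) (hN : ∀ d > N, finrank K (LinearMap.range (rho I hI d)) = 0) :
    Module.Finite K (MvPolynomial (Fin n) K ⧸ I) := by
  have := rho_finite I hI
  let U : Submodule K (MvPolynomial (Fin n) K ⧸ I) :=
    ⨆ d : Fin (N + 1), LinearMap.range (rho I hI d)
  have hU : (⊤ : Submodule K _) ≤ U := by
    rintro r -
    obtain ⟨g, rfl⟩ := Ideal.Quotient.mk_surjective r
    rw [← sum_homogeneousComponent g, map_sum]
    refine Submodule.sum_mem _ fun d _ => ?_
    have hm : Ideal.Quotient.mk I (homogeneousComponent d g) ∈ LinearMap.range (rho I hI d) :=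
      ⟨_, rho_mk I hI d g⟩
    by_cases hd : d ≤ N
    · exact Submodule.mem_iSup_of_mem (⟨d, by omega⟩ : Fin (N + 1)) hm
    · rw [Submodule.finrank_eq_zero.mp (hN d (by omega))] at hm
      rw [(Submodule.mem_bot K).mp hm]; exact zero_mem _
  have h2 : Module.Finite K (⊤ : Submodule K (MvPolynomial (Fin n) K ⧸ I)) :=
    Submodule.finiteDimensional_of_le hU
  exact Module.Finite.equiv (Submodule.topEquiv)

end Quot

theorem key_lemma {m : ℕ} (f : Fin (m + 1) → MvPolynomial (Fin (m + 1)) K)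
    (hh : ∀ l, (f l).IsHomogeneous 2) (hreg : Reg f)
    (co : Fin (m + 1) → Fin (m + 1) → Fin (m + 1) → K)
    (hco : ∀ l, f l = ∑ j, ∑ k, co l j k • (X j * X k))
    {L : Type*} [Field L] [Algebra K L] {W : Type*} [AddCommGroup W] [Module L W]
    [Module (MvPolynomial (Fin (m + 1)) L) W] [IsScalarTower L (MvPolynomial (Fin (m + 1)) L) W]
    [Module.Finite (MvPolynomial (Fin (m + 1)) L) W]
    (ε : Fin (m + 1) → W →ₗ[MvPolynomial (Fin (m + 1)) L] W)
    (h1 : ∀ j w, ε j (ε j w) =
      ∑ l, algebraMap K L (co l j j) • (X l : MvPolynomial (Fin (m + 1)) L) • w)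
    (h2 : ∀ j k w, ε j (ε k w) + ε k (ε j w) =
      ∑ l, algebraMap K L (co l j k + co l k j) • (X l : MvPolynomial (Fin (m + 1)) L) • w)
    (π : ℕ → W →ₗ[L] W) (hπ1 : ∀ a j w, π (a + 1) (ε j w) = ε j (π a w))
    (hπi : ∀ a w, π a (π a w) = π a w) (hπf : ∀ w, ∃ N, ∀ a ≥ N, π a w = 0)
    (hπd : ∀ a, Module.Finite L (LinearMap.range (π a))) :
    ∃ d0, ∀ d ≥ d0,
      (fwdDiff 1)^[m + 1] (fun a => (finrank L (LinearMap.range (π a)) : ℤ)) d = 0 := by
  let _ : Module K W := Module.compHom W (algebraMap K L)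
  have : IsScalarTower K L W := ⟨fun a b w => by
    rw [Algebra.smul_def, mul_smul]; rfl⟩
  have : IsScalarTower K (MvPolynomial (Fin (m + 1)) L) W := ⟨fun a b w => by
    rw [← algebraMap_smul L a b, smul_assoc]; rfl⟩
  set I := Ideal.span (Set.range f) with hIdef
  have hI : ∀ d, ∀ g ∈ I, homogeneousComponent d g ∈ I := by
    intro d g hg
    rw [hIdef, ← pre_all] at hg ⊢
    exact hc_mem_pre f hh _ d g hg
  have hr : ∀ d, finrank K (LinearMap.range (rho I hI d)) = (m + 1).choose d := by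
    intro d
    have h3 := finrank_rho I hI d
    have h4 := hilb_ci m f hh hreg d
    rw [← hIdef] at h4
    omega
  have : Module.Finite K (MvPolynomial (Fin (m + 1)) K ⧸ I) :=
    quot_finite I hI (m + 1) fun d hd => by rw [hr, Nat.choose_eq_zero_of_lt hd]
  have hmk : ∀ (j : Fin (m + 1)) (g : MvPolynomial (Fin (m + 1)) K),
      mulBy K (MvPolynomial (Fin (m + 1)) K ⧸ I) (X j : MvPolynomial (Fin (m + 1)) K)
        (Ideal.Quotient.mk I g) = Ideal.Quotient.mk I (X j * g) := fun j g => rfl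
  obtain ⟨d0, hd0⟩ := key_count (K := K) ε
    (fun j => mulBy K (MvPolynomial (Fin (m + 1)) K ⧸ I) (X j : MvPolynomial (Fin (m + 1)) K))
    (fun z hz l => homotopy ε X X f co hco h1 h2 I hIdef (syz f hreg) z hz l)
    (fun z => by
      let q := (Ideal.Quotient.mkₐ K I).toLinearMap
      obtain ⟨z', rfl⟩ := LinearMap.lTensor_surjective W
        (show Function.Surjective q from Ideal.Quotient.mk_surjective) z
      have hqA : ∀ z, q.lTensor W (opA ε
          (fun j => mulBy K _ (X j : MvPolynomial (Fin (m + 1)) K)) z) =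
          opA ε (fun j => mulBy K (MvPolynomial (Fin (m + 1)) K ⧸ I)
            (X j : MvPolynomial (Fin (m + 1)) K)) (q.lTensor W z) :=
        opA_nat ε _ _ q (fun j m => rfl)
      rw [← hqA, ← hqA, opA_sq ε X X f co hco h1 h2, map_sum]
      refine Finset.sum_eq_zero fun l _ => ?_
      rw [lTensor_tsmul, ← LinearMap.lTensor_comp_apply]
      have : q ∘ₗ mulBy K _ (f l) = 0 := by
        refine LinearMap.ext fun g => Ideal.Quotient.eq_zero_iff_mem.mpr ?_
        exact Ideal.mul_mem_right _ _ (Ideal.subset_span ⟨l, rfl⟩)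
      rw [this]; simp)
    π hπ1 hπi hπf hπd (rho I hI)
    (fun i j r => by
      obtain ⟨g, rfl⟩ := Ideal.Quotient.mk_surjective r
      rw [hmk, rho_mk, rho_mk, hmk, hc_mul (isHomogeneous_X K j)])
    (fun j r => by
      obtain ⟨g, rfl⟩ := Ideal.Quotient.mk_surjective r
      rw [hmk, rho_mk, hc_mul_lt (isHomogeneous_X K j) 0 (by omega), map_zero])
    (fun i r => by
      obtain ⟨g, rfl⟩ := Ideal.Quotient.mk_surjective r
      rw [rho_mk, rho_mk, homogeneousComponent_eq_self (homogeneousComponent_isHomogeneous i g)])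
    (m + 1) (by rw [hr, Nat.choose_eq_zero_of_lt (by omega)])
  refine ⟨d0, fun d hd => iter_zero_of_alt _ _ _ ?_⟩
  have := hd0 d hd
  simp only [hr] at this
  exact this

end Vale.Agent.P200
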