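import Vale.Agent.P200.Span
import Vale.Agent.P200.Key2

namespace Vale.Agent.P200

open Finset Module MvPolynomial

set_option linter.unusedSectionVars false

variable {L D E : Type*} [Field L] [DivisionRing D] [Algebra L D] [Ring E] [Algebra L E]
  [Module D E] [IsScalarTower L D E] [IsScalarTower D E E] {n : ℕ}

theorem coeff_mon_mul (k a : ℕ) (r : E) (p : Polynomial E) :
    (Polynomial.monomial k r * p).coeff a = if k ≤ a then r * p.coeff (a - k) else 0 := by
  rw [← Polynomial.C_mul_X_pow_eq_monomial, mul_assoc, Polynomial.coeff_C_mul,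
    Polynomial.coeff_X_pow_mul']
  split_ifs <;> simp

namespace Dat

variable (Δ : Dat L D E n)

/-- twisted structure map -/
noncomputable def σ : MvPolynomial (Fin n) L →+* Polynomial E :=
  (Polynomial.mapRingHom Δ.θ.toRingHom).comp
    (aeval (R := L) (fun l : Fin n =>
      (Polynomial.monomial 2 (X l) : Polynomial (MvPolynomial (Fin n) L)))).toRingHom

theorem σ_X (l : Fin n) : Δ.σ (X l) = Polynomial.monomial 2 (Δ.θ (X l)) := by
  simp [σ]

theorem σ_C (a : L) : Δ.σ (C a) = algebraMap L (Polynomial E) a := by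
  simp [σ, Polynomial.algebraMap_apply]

theorem σ_mon (β : Fin n →₀ ℕ) :
    Δ.σ (monomial β 1) = Polynomial.monomial (2 * β.degree) (Δ.θ (monomial β 1)) := by
  induction β using Finsupp.induction_linear with
  | zero => simp [← MvPolynomial.C_apply]
  | add β γ hβ hγ =>
    have : (monomial (β + γ) 1 : MvPolynomial (Fin n) L) = monomial β 1 * monomial γ 1 := by
      rw [monomial_mul, one_mul]
    rw [this, map_mul, map_mul, hβ, hγ, Polynomial.monomial_mul_monomial, map_add, mul_add]
  | single l k =>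
    rw [← X_pow_eq_monomial, map_pow, map_pow, σ_X, Polynomial.monomial_pow, Finsupp.degree_single]

theorem σ_comm (u : MvPolynomial (Fin n) L) (p : Polynomial E) : Δ.σ u * p = p * Δ.σ u := by
  have h : ∀ q : Polynomial (MvPolynomial (Fin n) L),
      q.map Δ.θ.toRingHom * p = p * q.map Δ.θ.toRingHom := by
    intro q
    induction q using Polynomial.induction_on' with
    | add q r hq hr => rw [Polynomial.map_add, add_mul, mul_add, hq, hr]
    | monomial k a =>
      induction p using Polynomial.induction_on' with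
      | add q r hq hr => rw [add_mul, mul_add, hq, hr]
      | monomial k' b =>
        rw [Polynomial.map_monomial, Polynomial.monomial_mul_monomial,
          Polynomial.monomial_mul_monomial, add_comm]
        congr 1
        exact Δ.cen a b
  exact h _

theorem σ_eval (u : MvPolynomial (Fin n) L) : (Δ.σ u).eval 1 = Δ.θ u := by
  have h : ((Polynomial.evalRingHom (1 : MvPolynomial (Fin n) L)).comp
      (aeval (R := L) (fun l : Fin n =>
      (Polynomial.monomial 2 (X l) : Polynomial (MvPolynomial (Fin n) L)))).toRingHom) =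
      RingHom.id _ := by
    apply MvPolynomial.ringHom_ext
    · intro r; simp [Polynomial.algebraMap_apply]
    · intro i; simp
  have h2 := RingHom.congr_fun h u
  have h3 := Polynomial.eval_one_map Δ.θ.toRingHom (aeval (R := L) (fun l : Fin n =>
      (Polynomial.monomial 2 (X l) : Polynomial (MvPolynomial (Fin n) L))) u)
  exact h3.trans (congrArg Δ.θ h2)

/-- polynomial ring over `E` with the twisted algebra structure -/
def Gr (_Δ : Dat L D E n) : Type _ := Polynomial E

noncomputable instance : Ring Δ.Gr := inferInstanceAs (Ring (Polynomial E))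
noncomputable instance : Algebra L Δ.Gr := inferInstanceAs (Algebra L (Polynomial E))
noncomputable instance : Algebra (MvPolynomial (Fin n) L) Δ.Gr :=
  RingHom.toAlgebra' (S := Δ.Gr) Δ.σ Δ.σ_comm

/-- underlying polynomial -/
noncomputable def toP : Δ.Gr →ₐ[L] Polynomial E := AlgHom.id L (Polynomial E)

/-- inverse of `toP` -/
noncomputable def ofP : Polynomial E →ₐ[L] Δ.Gr := AlgHom.id L (Polynomial E)

@[simp] theorem toP_ofP (p : Polynomial E) : Δ.toP (Δ.ofP p) = p := rfl
@[simp] theorem ofP_toP (p : Δ.Gr) : Δ.ofP (Δ.toP p) = p := rfl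
theorem toP_inj : Function.Injective Δ.toP := fun _ _ h => h
theorem toP_smul (u : MvPolynomial (Fin n) L) (p : Δ.Gr) : Δ.toP (u • p) = Δ.σ u * Δ.toP p := rfl
theorem toP_algebraMap (u : MvPolynomial (Fin n) L) :
    Δ.toP (algebraMap _ _ u) = Δ.σ u := rfl

instance : IsScalarTower L (MvPolynomial (Fin n) L) Δ.Gr :=
  IsScalarTower.of_algebraMap_eq fun a => (Δ.σ_C a).symm

/-- graded module attached to a family of subspaces -/
noncomputable def W (U : ℕ → Submodule D E) (hU : ∀ b l z, z ∈ U b → Δ.θ (X l) * z ∈ U (b + 2)) :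
    Submodule (MvPolynomial (Fin n) L) Δ.Gr where
  carrier := {p | ∀ a, (Δ.toP p).coeff a ∈ U a}
  add_mem' := fun hp hq a => by
    rw [map_add, Polynomial.coeff_add]; exact add_mem (hp a) (hq a)
  zero_mem' := fun a => by simp
  smul_mem' := fun u p hp => by
    induction u using MvPolynomial.induction_on generalizing p with
    | C c =>
      intro a
      rw [toP_smul, σ_C, ← Algebra.smul_def, Polynomial.coeff_smul]
      exact Submodule.smul_of_tower_mem _ _ (hp a)
    | add u v hu hv =>
      intro a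
      rw [add_smul, map_add, Polynomial.coeff_add]
      exact add_mem (hu _ hp a) (hv _ hp a)
    | mul_X u l hu =>
      rw [mul_smul]
      apply hu
      intro a
      rw [toP_smul, σ_X, coeff_mon_mul]
      split_ifs with h
      · have := hU _ l _ (hp (a - 2))
        rwa [Nat.sub_add_cancel h] at this
      · exact zero_mem _

theorem mem_W {U : ℕ → Submodule D E} {hU : ∀ b l z, z ∈ U b → Δ.θ (X l) * z ∈ U (b + 2)}
    {p : Δ.Gr} : p ∈ Δ.W U hU ↔ ∀ a, (Δ.toP p).coeff a ∈ U a := Iff.rfl

theorem mon_mem_W {U : ℕ → Submodule D E} {hU : ∀ b l z, z ∈ U b → Δ.θ (X l) * z ∈ U (b + 2)}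
    {a : ℕ} {z : E} (hz : z ∈ U a) : Δ.ofP (Polynomial.monomial a z) ∈ Δ.W U hU := by
  intro b
  rw [toP_ofP, Polynomial.coeff_monomial]
  split_ifs with h
  · exact h ▸ hz
  · exact zero_mem _

theorem G_θ (b : ℕ) (l : Fin n) (z : E) (hz : z ∈ Δ.G b) : Δ.θ (X l) * z ∈ Δ.G (b + 2) :=
  Δ.θX_mul l hz

theorem WG_fg [Module.Finite L D] : (Δ.W Δ.G Δ.G_θ).FG := by
  classical
  let b := Module.finBasis L D
  let s : Set Δ.Gr := Set.range fun p : Fin (finrank L D) × (List.finRange n).sublists.toFinset =>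
    Δ.ofP (Polynomial.monomial p.2.1.length (b p.1 • Δ.word p.2.1))
  refine Submodule.fg_def.mpr ⟨s, Set.finite_range _, le_antisymm ?_ ?_⟩
  · refine Submodule.span_le.mpr ?_
    rintro _ ⟨⟨μ, J, hJ⟩, rfl⟩
    exact Δ.mon_mem_W (Submodule.smul_mem _ _ (Δ.word_mem J (by simpa using hJ)))
  · have key : ∀ a, ∀ z ∈ Δ.G a, ∀ d : D, Δ.ofP (Polynomial.monomial a (d • z)) ∈
        Submodule.span (MvPolynomial (Fin n) L) s := by
      intro a z hz
      induction hz using Submodule.span_induction with
      | mem x hx =>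
        obtain ⟨β, J, h1, h2, rfl⟩ := hx
        intro d
        have e1 : Δ.ofP (Polynomial.monomial a (d • (Δ.θ (monomial β 1) * Δ.word J))) =
            (monomial β 1 : MvPolynomial (Fin n) L) •
              Δ.ofP (Polynomial.monomial J.length (d • Δ.word J)) := by
          apply Δ.toP_inj
          rw [toP_smul, toP_ofP, toP_ofP, σ_mon, Polynomial.monomial_mul_monomial, h2, Δ.θD]
        rw [e1]
        refine Submodule.smul_mem _ _ ?_
        rw [← b.sum_repr d, Finset.sum_smul, map_sum, map_sum]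
        refine Submodule.sum_mem _ fun μ _ => ?_
        rw [smul_assoc, ← Polynomial.smul_monomial, map_smul]
        exact Submodule.smul_of_tower_mem _ _
          (Submodule.subset_span ⟨(μ, ⟨J, by simpa using h1⟩), rfl⟩)
      | zero => intro d; simp
      | add x y _ _ hx hy =>
        intro d; rw [smul_add, map_add, map_add]; exact add_mem (hx d) (hy d)
      | smul d' x _ hx => intro d; rw [← mul_smul]; exact hx _
    intro p hp
    rw [← Δ.ofP_toP p, (Δ.toP p).as_sum_support, map_sum]
    refine Submodule.sum_mem _ fun a _ => ?_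
    simpa using key a _ (hp a) 1

section Fam

variable (U : ℕ → Submodule D E) (hU : ∀ b l z, z ∈ U b → Δ.θ (X l) * z ∈ U (b + 2))
  (hUe : ∀ b j z, z ∈ U b → Δ.e j * z ∈ U (b + 1))

/-- action of the generators -/
noncomputable def eps (j : Fin n) : Δ.W U hU →ₗ[MvPolynomial (Fin n) L] Δ.W U hU where
  toFun p := ⟨Δ.ofP (Polynomial.monomial 1 (Δ.e j)) * p.1, fun a => by
    rw [map_mul, toP_ofP, coeff_mon_mul]
    split_ifs with h
    · have := hUe _ j _ (p.2 (a - 1))
      rwa [Nat.sub_add_cancel h] at this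
    · exact zero_mem _⟩
  map_add' p q := Subtype.ext (mul_add _ _ _)
  map_smul' u p := Subtype.ext (mul_smul_comm _ _ _)

theorem toP_eps (j : Fin n) (p : Δ.W U hU) :
    Δ.toP (Δ.eps U hU hUe j p).1 = Polynomial.monomial 1 (Δ.e j) * Δ.toP p.1 := rfl

/-- projection on a graded piece -/
noncomputable def pr (a : ℕ) : Δ.W U hU →ₗ[L] Δ.W U hU where
  toFun p := ⟨Δ.ofP (Polynomial.monomial a ((Δ.toP p.1).coeff a)), Δ.mon_mem_W (p.2 a)⟩
  map_add' p q := Subtype.ext (by simp)
  map_smul' u p := Subtype.ext (by simp)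

theorem toP_pr (a : ℕ) (p : Δ.W U hU) :
    Δ.toP (Δ.pr U hU a p).1 = Polynomial.monomial a ((Δ.toP p.1).coeff a) := rfl

/-- the range of the projection is the graded piece -/
noncomputable def prEquiv (a : ℕ) : U a ≃ₗ[L] LinearMap.range (Δ.pr U hU a) :=
  LinearEquiv.ofBijective
    ({ toFun := fun z => ⟨⟨Δ.ofP (Polynomial.monomial a z.1), Δ.mon_mem_W z.2⟩,
        ⟨⟨Δ.ofP (Polynomial.monomial a z.1), Δ.mon_mem_W z.2⟩, Subtype.ext (by
          apply Δ.toP_inj; rw [toP_pr]; simp)⟩⟩
       map_add' := fun x y => Subtype.ext (Subtype.ext (by simp))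
       map_smul' := fun c x => Subtype.ext (Subtype.ext (by simp)) } :
      U a →ₗ[L] LinearMap.range (Δ.pr U hU a))
    ⟨fun x y h => Subtype.ext (Polynomial.monomial_injective a
        (congrArg (fun t => Δ.toP t.1.1) h)),
      by rintro ⟨_, p, rfl⟩; exact ⟨⟨_, p.2 a⟩, rfl⟩⟩

end Fam

theorem family_lemma {m : ℕ} (Δ : Dat L D E (m + 1)) [Module.Finite L D]
    {K : Type*} [Field K] [Algebra K L] (f : Fin (m + 1) → MvPolynomial (Fin (m + 1)) K)
    (hh : ∀ l, (f l).IsHomogeneous 2) (hreg : Reg f)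
    (co : Fin (m + 1) → Fin (m + 1) → Fin (m + 1) → K)
    (hco : ∀ l, f l = ∑ j, ∑ k, co l j k • (X j * X k))
    (hΔ : ∀ l j k, Δ.co l j k = algebraMap K L (co l j k))
    (U : ℕ → Submodule D E) (hU : ∀ b l z, z ∈ U b → Δ.θ (X l) * z ∈ U (b + 2))
    (hUe : ∀ b j z, z ∈ U b → Δ.e j * z ∈ U (b + 1)) (hle : ∀ a, U a ≤ Δ.G a) :
    ∃ d0, ∀ d ≥ d0, (fwdDiff 1)^[m + 1] (fun a => (finrank D (U a) : ℤ)) d = 0 := by
  have hfin : Module.Finite (MvPolynomial (Fin (m + 1)) L) (Δ.W U hU) :=
    Module.Finite.iff_fg.mpr (Δ.WG_fg.of_le fun p hp a => hle a (hp a))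
  have hUf : ∀ a, Module.Finite L (U a) := fun a => by
    have := Δ.G_finite a
    have : Module.Finite D (U a) := Submodule.finiteDimensional_of_le (hle a)
    exact Module.Finite.trans D _
  have hsum : ∀ (c : Fin (m + 1) → L) (w : Δ.W U hU),
      Δ.toP (∑ l, c l • (X l : MvPolynomial (Fin (m + 1)) L) • w).1 =
        Polynomial.monomial 2 (∑ l, c l • Δ.θ (X l)) * Δ.toP w.1 := by
    intro c w
    rw [Submodule.coe_sum, map_sum, map_sum, Finset.sum_mul]
    refine Finset.sum_congr rfl fun l _ => ?_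
    rw [Submodule.coe_smul_of_tower, map_smul, Submodule.coe_smul, toP_smul, σ_X,
      ← Polynomial.smul_monomial, smul_mul_assoc]
  obtain ⟨d0, h⟩ := key_lemma f hh hreg co hco (L := L) (Δ.eps U hU hUe)
    (fun j w => Subtype.ext (Δ.toP_inj (by
      rw [toP_eps, toP_eps, hsum, ← mul_assoc, Polynomial.monomial_mul_monomial, Δ.r1]
      simp only [hΔ])))
    (fun j k w => Subtype.ext (Δ.toP_inj (by
      rw [Submodule.coe_add, map_add, toP_eps, toP_eps, toP_eps, toP_eps, hsum, ← mul_assoc,
        ← mul_assoc, ← add_mul, Polynomial.monomial_mul_monomial,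
        Polynomial.monomial_mul_monomial, ← map_add, Δ.r2]
      simp only [hΔ, map_add])))
    (Δ.pr U hU)
    (fun a j w => Subtype.ext (Δ.toP_inj (by
      rw [toP_pr, toP_eps, toP_eps, toP_pr, coeff_mon_mul, if_pos (by omega),
        Polynomial.monomial_mul_monomial, add_comm 1 a, add_tsub_cancel_right])))
    (fun a w => Subtype.ext (Δ.toP_inj (by rw [toP_pr, toP_pr]; simp)))
    (fun w => ⟨(Δ.toP w.1).natDegree + 1, fun a ha => Subtype.ext (Δ.toP_inj (by
      rw [toP_pr, Polynomial.coeff_eq_zero_of_natDegree_lt (by omega)]; simp))⟩)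
    (fun a => by
      have := hUf a
      exact Module.Finite.equiv (Δ.prEquiv U hU a))
  refine ⟨d0, fun d hd => ?_⟩
  have h1 := h d hd
  have h2 : (fun a => (finrank L (LinearMap.range (Δ.pr U hU a)) : ℤ)) =
      (finrank L D : ℤ) • (fun a => (finrank D (U a) : ℤ)) := by
    funext a
    rw [← (Δ.prEquiv U hU a).finrank_eq, ← Module.finrank_mul_finrank L D (U a)]
    simp
  rw [h2, fwdDiff_iter_const_smul, Pi.smul_apply, smul_eq_mul, mul_eq_zero] at h1
  refine h1.resolve_left ?_
  exact_mod_cast (Module.finrank_pos (R := L) (M := D)).ne'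

end Dat

end Vale.Agent.P200
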