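import Mathlib

namespace Vale.Agent.P200

open Finset

/-- bounded iterated difference gives polynomial upper bound -/
theorem growth_bound (m : ℕ) : ∀ (g : ℕ → ℤ) (d0 : ℕ) (c : ℤ),
    (∀ d ≥ d0, (fwdDiff 1)^[m] g d ≤ c) →
    ∃ c' : ℤ, 0 ≤ c' ∧ ∀ d ≥ d0, g d ≤ c' * ((d : ℤ) + 1) ^ m := by
  induction m with
  | zero =>
    intro g d0 c h
    refine ⟨|c|, abs_nonneg c, fun d hd => ?_⟩
    have := h d hd
    simp only [Function.iterate_zero, id_eq] at this
    simpa using this.trans (le_abs_self c)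
  | succ m ih =>
    intro g d0 c h
    obtain ⟨c1, hc1, h1⟩ := ih (fwdDiff 1 g) d0 c (by
      intro d hd
      have := h d hd
      rwa [Function.iterate_succ_apply] at this)
    refine ⟨c1 + |g d0|, by positivity, fun d hd => ?_⟩
    induction d, hd using Nat.le_induction with
    | base =>
      have h2 : (1 : ℤ) ≤ ((d0 : ℤ) + 1) ^ (m + 1) := one_le_pow₀ (by omega)
      have h3 := le_abs_self (g d0)
      have h4 := abs_nonneg (g d0)
      nlinarith
    | succ d hd ihd =>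
      have h2 := h1 d hd
      simp only [fwdDiff] at h2
      have h4 := abs_nonneg (g d0)
      have h5 : ((d : ℤ) + 1) ^ (m + 1) + ((d : ℤ) + 1) ^ m ≤ (((d + 1 : ℕ) : ℤ) + 1) ^ (m + 1) := by
        have h6 : ((d : ℤ) + 1) ^ m ≤ (((d + 1 : ℕ) : ℤ) + 1) ^ m := by
          apply pow_le_pow_left₀ (by positivity)
          push_cast; omega
        rw [pow_succ, pow_succ]
        have h7 : (0 : ℤ) ≤ ((d : ℤ) + 1) ^ m := by positivity
        push_cast at h6 ⊢
        nlinarith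
      have h7 : (0 : ℤ) ≤ ((d : ℤ) + 1) ^ m := by positivity
      nlinarith

theorem choose_lower (m k : ℕ) : (k + 1) ^ m ≤ m.factorial * (k + m).choose m := by
  have h1 := Nat.pow_succ_le_ascFactorial (k + 1) m
  rw [Nat.ascFactorial_eq_factorial_mul_choose] at h1
  exact h1

theorem growth_contra (m : ℕ) (g : ℕ → ℤ) (d0 a : ℕ) (δ : ℕ)
    (h : ∀ d ≥ d0, (fwdDiff 1)^[m] g d ≤ 0)
    (hl : ∀ k, ((k + m).choose m : ℤ) ≤ δ * g (a + 2 * k)) : False := by
  rcases m with _ | m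
  · have h1 := h (a + 2 * d0) (by omega)
    have h2 := hl d0
    simp only [Function.iterate_zero, id_eq] at h1
    simp only [add_zero, Nat.choose_zero_right, Nat.cast_one] at h2
    have : (0 : ℤ) ≤ δ := by positivity
    nlinarith
  · have hb : ∀ d ≥ d0, (fwdDiff 1)^[m] g d ≤ (fwdDiff 1)^[m] g d0 := by
      intro d hd
      induction d, hd using Nat.le_induction with
      | base => exact le_rfl
      | succ d hd ihd =>
        have := h d hd
        rw [Function.iterate_succ_apply'] at this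
        simp only [fwdDiff] at this
        omega
    obtain ⟨c, hc, hc'⟩ := growth_bound m g d0 _ hb
    set B : ℤ := ((m + 1).factorial : ℤ) * δ * c * ((a : ℤ) + 2) ^ m with hB
    have hB0 : 0 ≤ B := by positivity
    set k : ℕ := d0 + B.toNat with hk
    have hkB : B ≤ (k : ℤ) := by
      rw [hk]; push_cast; rw [Int.toNat_of_nonneg hB0]; omega
    have h1 := hl k
    have h2 := hc' (a + 2 * k) (by omega)
    have h3 : ((k : ℤ) + 1) ^ (m + 1) ≤ ((m + 1).factorial : ℤ) * ((k + (m + 1)).choose (m + 1) : ℤ) := by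
      exact_mod_cast choose_lower (m + 1) k
    have h4 : (((a + 2 * k : ℕ) : ℤ) + 1) ^ m ≤ ((a : ℤ) + 2) ^ m * ((k : ℤ) + 1) ^ m := by
      rw [← mul_pow]
      apply pow_le_pow_left₀ (by positivity)
      push_cast
      have : (0 : ℤ) ≤ (a : ℤ) * k := by positivity
      nlinarith
    have h5 : (0 : ℤ) < ((k : ℤ) + 1) ^ m := by positivity
    have hδ : (0 : ℤ) ≤ δ := by positivity
    have hf : (0 : ℤ) ≤ ((m + 1).factorial : ℤ) := by positivity
    have h6 : ((k : ℤ) + 1) ^ (m + 1) ≤ B * ((k : ℤ) + 1) ^ m := by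
      calc ((k : ℤ) + 1) ^ (m + 1)
          ≤ ((m + 1).factorial : ℤ) * ((k + (m + 1)).choose (m + 1) : ℤ) := h3
        _ ≤ ((m + 1).factorial : ℤ) * (δ * g (a + 2 * k)) := by gcongr
        _ ≤ ((m + 1).factorial : ℤ) * (δ * (c * (((a + 2 * k : ℕ) : ℤ) + 1) ^ m)) := by gcongr
        _ ≤ ((m + 1).factorial : ℤ) * (δ * (c * (((a : ℤ) + 2) ^ m * ((k : ℤ) + 1) ^ m))) := by
            gcongr
        _ = B * ((k : ℤ) + 1) ^ m := by rw [hB]; ring
    rw [pow_succ] at h6
    nlinarith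

theorem eventually_const (m : ℕ) (g : ℕ → ℤ) (d0 : ℕ)
    (h : ∀ d ≥ d0, (fwdDiff 1)^[m + 1] g d = 0) :
    ∀ d ≥ d0, (fwdDiff 1)^[m] g d = (fwdDiff 1)^[m] g d0 := by
  intro d hd
  induction d, hd using Nat.le_induction with
  | base => rfl
  | succ d hd ihd =>
    have := h d hd
    rw [Function.iterate_succ_apply'] at this
    simp only [fwdDiff] at this
    omega

theorem iter_choose (m d : ℕ) :
    (fwdDiff 1)^[m] (fun x : ℕ => (((x + m).choose m : ℕ) : ℤ)) d = 1 := by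
  have h := fwdDiff_iter_comp_add (1 : ℕ) (fun x : ℕ => ((x.choose m : ℕ) : ℤ)) m m d
  rw [h]
  have h2 := fwdDiff_iter_choose 0 m
  simp only [add_zero] at h2
  rw [h2]
  simp

/-- numerical heart of the multiplicity argument -/
theorem numeric_contra (m : ℕ) (h1 h2 : ℕ → ℤ) (d1 d2 a : ℕ) (δ : ℕ)
    (e1 : ∀ d ≥ d1, (fwdDiff 1)^[m + 1] h1 d = 0)
    (e2 : ∀ d ≥ d2, (fwdDiff 1)^[m + 1] (h1 + h2) d = 0)
    (l1 : ∀ k, ((k + m).choose m : ℤ) ≤ δ * h1 (a + 2 * k))
    (l2 : ∀ k, ((k + m).choose m : ℤ) ≤ δ * h2 (2 * k))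
    (u : ∀ d, h1 d + h2 d ≤ ((d + m).choose m : ℤ)) : False := by
  set d0 := max d1 d2
  have e1' : ∀ d ≥ d0, (fwdDiff 1)^[m + 1] h1 d = 0 := fun d hd => e1 d (le_trans (le_max_left _ _) hd)
  have e2' : ∀ d ≥ d0, (fwdDiff 1)^[m + 1] h2 d = 0 := by
    intro d hd
    have := e2 d (le_trans (le_max_right _ _) hd)
    rw [fwdDiff_iter_add, Pi.add_apply, e1' d hd] at this
    simpa using this
  have c1 := eventually_const m h1 d0 e1'
  have c2 := eventually_const m h2 d0 e2'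
  have p1 : 1 ≤ (fwdDiff 1)^[m] h1 d0 := by
    by_contra hc
    exact growth_contra m h1 d0 a δ (fun d hd => by rw [c1 d hd]; omega) l1
  have p2 : 1 ≤ (fwdDiff 1)^[m] h2 d0 := by
    by_contra hc
    exact growth_contra m h2 d0 0 δ (fun d hd => by rw [c2 d hd]; omega) (by simpa using l2)
  set C : ℕ → ℤ := fun x : ℕ => (((x + m).choose m : ℕ) : ℤ) with hC
  refine growth_contra m ((2 : ℤ) • C + (-1 : ℤ) • h1 + (-1 : ℤ) • h2) d0 0 1 ?_ ?_
  · intro d hd
    rw [fwdDiff_iter_add, fwdDiff_iter_add, fwdDiff_iter_const_smul, fwdDiff_iter_const_smul,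
      fwdDiff_iter_const_smul]
    simp only [Pi.add_apply, Pi.smul_apply, smul_eq_mul]
    rw [c1 d hd, c2 d hd, hC, iter_choose]
    omega
  · intro k
    have := u (2 * k)
    have h3 : (k + m).choose m ≤ (2 * k + m).choose m := Nat.choose_le_choose m (by omega)
    have h4 : ((k + m).choose m : ℤ) ≤ ((2 * k + m).choose m : ℤ) := by exact_mod_cast h3
    simp only [Pi.add_apply, Pi.smul_apply, smul_eq_mul, hC, zero_add]
    push_cast at this ⊢
    omega

theorem iter_zero_of_alt (n : ℕ) (h : ℕ → ℤ) (d : ℕ)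
    (hs : ∑ i ∈ range (n + 1), (-1 : ℤ) ^ i * (n.choose i : ℤ) * h (d + i) = 0) :
    (fwdDiff 1)^[n] h d = 0 := by
  rw [fwdDiff_iter_eq_sum_shift]
  have : ∑ k ∈ range (n + 1), ((-1 : ℤ) ^ (n - k) * n.choose k) • h (d + k • 1) =
      (-1) ^ n * ∑ i ∈ range (n + 1), (-1 : ℤ) ^ i * (n.choose i : ℤ) * h (d + i) := by
    rw [Finset.mul_sum]
    apply Finset.sum_congr rfl
    intro k hk
    have hk' : k ≤ n := by have := mem_range.mp hk; omega
    obtain ⟨j, rfl⟩ := Nat.exists_eq_add_of_le hk'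
    simp only [add_tsub_cancel_left, smul_eq_mul, mul_one, pow_add]
    have : ((-1 : ℤ) ^ k) * (-1) ^ k = 1 := by rw [← mul_pow]; simp
    linear_combination (-((-1 : ℤ) ^ j * ((k + j).choose k : ℤ) * h (d + k))) * this
  rw [this, hs, mul_zero]

end Vale.Agent.P200
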