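import Mathlib

namespace Vale.Agent.P200

open MvPolynomial

/-- the sign of inserting `i` into the set `s` -/
def sg {n : ℕ} (i : Fin n) (s : Finset (Fin n)) : ℤ := (-1) ^ (s.filter (· < i)).card

/-- Koszul differential of the operators `T i` on `M`; a chain is the family of its coefficients
at the basis elements `e_s`, and `e_s` goes to the signed sum of the `T i e_(s - i)` -/
def kos {A M : Type*} [Ring A] [AddCommGroup M] [Module A M] {n : ℕ} (T : Fin n → M →ₗ[A] M) :
    (Finset (Fin n) → M) →ₗ[A] (Finset (Fin n) → M) :=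
  LinearMap.pi fun s => ∑ i ∈ sᶜ, sg i s • (T i ∘ₗ LinearMap.proj (insert i s))

/-- chains of homological degree `p` and internal degree `j` for the grading `G` of `M` -/
def chn {A M : Type*} [Ring A] [AddCommGroup M] [Module A M] {n : ℕ} (G : ℕ → Submodule A M)
    (p j : ℕ) : Submodule A (Finset (Fin n) → M) :=
  Submodule.pi Set.univ fun s => if s.card = p ∧ p ≤ j then G (j - p) else ⊥

variable {K : Type*} [Field K] {n : ℕ}

/-- the degree `d` part of `S / I` -/
noncomputable def qdeg (I : Ideal (MvPolynomial (Fin n) K)) (d : ℕ) :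
    Submodule K (MvPolynomial (Fin n) K ⧸ I) :=
  (homogeneousSubmodule (Fin n) K d).map (Ideal.Quotient.mkₐ K I).toLinearMap

/-- Koszul differential of `S / I` for the variables -/
noncomputable def qkos (I : Ideal (MvPolynomial (Fin n) K)) :
    (Finset (Fin n) → MvPolynomial (Fin n) K ⧸ I) →ₗ[K]
      (Finset (Fin n) → MvPolynomial (Fin n) K ⧸ I) :=
  kos fun i => LinearMap.mulLeft K (Ideal.Quotient.mk I (X i))

/-- Koszul cycles of `S / I` in bidegree `(p, j)` -/
noncomputable def cyc (I : Ideal (MvPolynomial (Fin n) K)) (p j : ℕ) :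
    Submodule K (Finset (Fin n) → MvPolynomial (Fin n) K ⧸ I) :=
  chn (qdeg I) p j ⊓ LinearMap.ker (qkos I)

/-- Koszul boundaries of `S / I` in bidegree `(p, j)` -/
noncomputable def bdr (I : Ideal (MvPolynomial (Fin n) K)) (p j : ℕ) :
    Submodule K (Finset (Fin n) → MvPolynomial (Fin n) K ⧸ I) :=
  (chn (qdeg I) (p + 1) j).map (qkos I)

/-- graded Betti number of `S / I`: dimension of the Koszul homology in bidegree `(p, j)` -/
noncomputable def betti (I : Ideal (MvPolynomial (Fin n) K)) (p j : ℕ) : ℕ :=
  Module.finrank K (cyc I p j ⧸ (bdr I p j).submoduleOf (cyc I p j))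

end Vale.Agent.P200
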