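import Vale.Agent.P200.KMain

namespace Vale.Agent.P200

open Finset Module MvPolynomial TensorProduct

universe u

variable {n : ℕ}

/-- coordinates of chains -/
noncomputable def cv (R : Type*) [DivisionRing R] (n : ℕ) :
    (Finset (Fin n) → (Fin n →₀ ℕ) →₀ R) ≃ₗ[R] (Finset (Fin n) × (Fin n →₀ ℕ)) →₀ R :=
  (Finsupp.linearEquivFunOnFinite R _ _).symm ≪≫ₗ (Finsupp.curryLinearEquiv R).symm

theorem cv_apply {R : Type*} [DivisionRing R] (ψ : Finset (Fin n) → (Fin n →₀ ℕ) →₀ R)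
    (x : Finset (Fin n) × (Fin n →₀ ℕ)) : cv R n ψ x = ψ x.1 x.2 := rfl

/-- indicator exponent of a set -/
noncomputable def ind (s : Finset (Fin n)) : Fin n →₀ ℕ := ∑ i ∈ s, Finsupp.single i 1

theorem ind_insert (i : Fin n) (s : Finset (Fin n)) (h : i ∉ s) :
    ind (insert i s) = Finsupp.single i 1 + ind s := Finset.sum_insert h

/-- order on the basis of chains -/
noncomputable def om (x : Finset (Fin n) × (Fin n →₀ ℕ)) :
    Lex (Lex (Fin n →₀ ℕ) × Fin (Fintype.card (Finset (Fin n)))) :=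
  toLex (toLex (x.2 + ind x.1), Fintype.equivFin _ x.1)

theorem om_inj : Function.Injective (om (n := n)) := by
  rintro ⟨s, α⟩ ⟨t, β⟩ h
  have h1 := toLex.injective h
  obtain rfl : s = t := (Fintype.equivFin _).injective (congrArg Prod.snd h1)
  obtain rfl : α = β := add_right_cancel (toLex.injective (congrArg Prod.fst h1))
  rfl

open Classical in
theorem card_chn {R : Type*} [DivisionRing R] {p j : ℕ}
    (W : Submodule R (Finset (Fin n) → (Fin n →₀ ℕ) →₀ R)) (hW : W ≤ chn (VV R n) p j) :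
    ((univ ×ˢ expo n (j - p)).filter (· ∈ Lead om (W.map (cv R n).toLinearMap))).card =
      finrank R W := by
  rw [card_lead om om_inj, LinearEquiv.finrank_map_eq]
  rintro _ ⟨φ, hφ, rfl⟩
  rw [Finsupp.mem_supported]
  intro x hx
  have h1 : φ x.1 x.2 ≠ 0 := (Finsupp.mem_support_iff (f := cv R n φ)).mp hx
  have h2 := mem_chn.mp (hW hφ) x.1
  refine Finset.mem_coe.mpr (Finset.mem_product.mpr ⟨mem_univ _, mem_expo.mpr ?_⟩)
  by_cases hs : x.1.card = p ∧ p ≤ j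
  · exact (memV _ _).mp (h2.1 hs) _ h1
  · rw [h2.2 hs] at h1; exact absurd rfl h1

section Lift

variable {K D : Type*} [Field K] [DivisionRing D] [Algebra K D]

variable (D) in
/-- coefficient vector of a polynomial -/
noncomputable def ka : MvPolynomial (Fin n) K →+ ((Fin n →₀ ℕ) →₀ D) :=
  (Finsupp.mapRange.addMonoidHom (algebraMap K D).toAddMonoidHom).comp
    (basisMonomials (Fin n) K).repr.toLinearMap.toAddMonoidHom

theorem ka_apply (g : MvPolynomial (Fin n) K) (α : Fin n →₀ ℕ) :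
    ka D g α = algebraMap K D (coeff α g) := rfl

theorem ka_X (i : Fin n) (g : MvPolynomial (Fin n) K) : ka D (X i * g) = sh i (ka D g) := by
  ext β
  by_cases h : β ∈ Set.range (· + Finsupp.single i 1 : (Fin n →₀ ℕ) → _)
  · obtain ⟨γ, rfl⟩ := h
    rw [sh_apply, ka_apply, ka_apply, mul_comm, coeff_mul_X]
  · have h1 : sh i (ka D g) β = 0 := Finsupp.mapDomain_of_notMem_range _ β h
    rw [h1, ka_apply, coeff_X_mul', if_neg, map_zero]
    intro hi
    refine h ⟨β - Finsupp.single i 1, tsub_add_cancel_of_le ?_⟩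
    rw [Finsupp.single_le_iff]
    exact Nat.pos_of_ne_zero (Finsupp.mem_support_iff.mp hi)

theorem ka_mem {d : ℕ} {g : MvPolynomial (Fin n) K} (h : g ∈ homogeneousSubmodule (Fin n) K d) :
    ka D g ∈ VV D n d := by
  rw [memV]
  intro β hβ
  rw [hom_eq_restrict, mem_restrictSupport_iff] at h
  refine mem_expo.mp (h (mem_support_iff.mpr fun e => hβ ?_))
  rw [ka_apply, e, map_zero]

open Classical in
/-- the multigraded part of a chain -/
noncomputable def pr (μ : Fin n →₀ ℕ) (ψ : Finset (Fin n) → (Fin n →₀ ℕ) →₀ D) :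
    Finset (Fin n) → (Fin n →₀ ℕ) →₀ D := fun s => (ψ s).filter (fun α => α + ind s = μ)

open Classical in
theorem pr_apply (μ : Fin n →₀ ℕ) (ψ : Finset (Fin n) → (Fin n →₀ ℕ) →₀ D) (s : Finset (Fin n))
    (α : Fin n →₀ ℕ) : pr μ ψ s α = if α + ind s = μ then ψ s α else 0 := Finsupp.filter_apply _ _ _

theorem pr_kos (μ : Fin n →₀ ℕ) (ψ : Finset (Fin n) → (Fin n →₀ ℕ) →₀ D) :
    (kos sh (pr μ ψ) : Finset (Fin n) → (Fin n →₀ ℕ) →₀ D) = pr μ (kos sh ψ) := by
  funext s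
  ext β
  have h1 : ∀ i ∈ sᶜ, sh i (pr μ ψ (insert i s)) β =
      if β + ind s = μ then sh i (ψ (insert i s)) β else 0 := by
    intro i hi
    by_cases h : β ∈ Set.range (· + Finsupp.single i 1 : (Fin n →₀ ℕ) → _)
    · obtain ⟨γ, rfl⟩ := h
      rw [sh_apply, sh_apply, pr_apply, ind_insert i s (Finset.mem_compl.mp hi), add_assoc]
    · have h2 : ∀ v : (Fin n →₀ ℕ) →₀ D, sh i v β = 0 := fun v =>
        Finsupp.mapDomain_of_notMem_range _ β h
      rw [h2, h2, ite_self]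
  rw [pr_apply, kos_apply, kos_apply, Finsupp.finsetSum_apply, Finsupp.finsetSum_apply]
  simp only [Finsupp.smul_apply]
  rw [Finset.sum_congr rfl fun i hi => by rw [h1 i hi]]
  split_ifs with h
  · rfl
  · simp

theorem pr_mem (μ : Fin n →₀ ℕ) {p j : ℕ} {ψ : Finset (Fin n) → (Fin n →₀ ℕ) →₀ D}
    (h : ψ ∈ chn (VV D n) p j) : pr μ ψ ∈ chn (VV D n) p j := by
  rw [mem_chn] at h ⊢
  refine fun s => ⟨fun hs => (memV _ _).mpr fun β hβ => (memV _ _).mp ((h s).1 hs) β fun e => hβ ?_,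
    fun hs => ?_⟩
  · rw [pr_apply, e, ite_self]
  · ext β
    rw [pr_apply, (h s).2 hs]
    simp

theorem bup_le_wd (Es : Set (Fin n →₀ ℕ)) (J : Ideal (MvPolynomial (Fin n) K))
    (hJ : ∀ g ∈ J, ∀ α, coeff α g ≠ 0 → α ∈ Es) (U : ℕ → Submodule D ((Fin n →₀ ℕ) →₀ D))
    (hU : ∀ d, U d ≤ VV D n d)
    (hE : ∀ α ∈ Es, α ∈ Lead (fun α => (toLex α : Lex (Fin n →₀ ℕ))) (U α.degree)) (p j : ℕ) :
    finrank K (bup J p j) ≤ finrank D (wd U p j) := by
  classical
  let ρ := LinearEquiv.piCongrRight fun _ : Finset (Fin n) => (basisMonomials (Fin n) K).repr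
  have hρ : ∀ φ s α, ρ φ s α = coeff α (φ s) := fun _ _ _ => rfl
  have h1 : (bup J p j).map ρ.toLinearMap ≤ chn (VV K n) p j := by
    rintro _ ⟨φ, hφ, rfl⟩
    have h2 := mem_chn.mp (bup_le J p j hφ)
    refine mem_chn.mpr fun s => ⟨fun hs => (memV _ _).mpr fun β hβ =>
      (memV _ _).mp (ka_mem (D := K) ((h2 s).1 hs)) β hβ, fun hs => ?_⟩
    ext β
    show coeff β (φ s) = 0
    rw [(h2 s).2 hs, coeff_zero]
  rw [← LinearEquiv.finrank_map_eq ρ, ← card_chn _ h1, ← card_chn _ (wd_le U hU p j)]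
  refine Finset.card_le_card fun x hx => ?_
  rw [Finset.mem_filter] at hx ⊢
  refine ⟨hx.1, ?_⟩
  obtain ⟨_, ⟨_, ⟨φ, hφ, rfl⟩, rfl⟩, g1, g2⟩ := hx.2
  replace g1 : coeff x.2 (φ x.1) ≠ 0 := g1
  replace g2 : ∀ y : Finset (Fin n) × (Fin n →₀ ℕ), coeff y.2 (φ y.1) ≠ 0 → om y ≤ om x := g2
  obtain ⟨_, ⟨χ, hχ, rfl⟩, η, hη, rfl⟩ := Submodule.mem_sup.mp hφ
  set μ := x.2 + ind x.1 with hμ
  have hη' := mem_chn.mp hη
  have h3 : ∀ s, ∃ w : (Fin n →₀ ℕ) →₀ D, ((s.card = p ∧ p ≤ j → w ∈ U (j - p)) ∧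
      (¬ (s.card = p ∧ p ≤ j) → w = 0)) ∧ ∀ β, (β + ind s = μ → w β = ka D (η s) β) ∧
        (w β ≠ 0 → (toLex (β + ind s) : Lex (Fin n →₀ ℕ)) ≤ toLex μ) := by
    intro s
    by_cases h : ∃ α, α + ind s = μ ∧ coeff α (η s) ≠ 0
    · obtain ⟨α, e1, e2⟩ := h
      have hs : s.card = p ∧ p ≤ j := by
        by_contra hs
        rw [(hη' s).2 hs] at e2
        exact e2 (coeff_zero _)
      have e3 := (hη' s).1 hs
      obtain ⟨v, v1, v2, v3⟩ := hE α (hJ _ e3.1 α e2)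
      have e4 : α.degree = j - p := (memV _ _).mp (ka_mem (D := K) e3.2) α e2
      rw [e4] at v1
      refine ⟨(ka D (η s) α * (v α)⁻¹) • v, ⟨fun _ => Submodule.smul_mem _ _ v1,
        fun h => absurd hs h⟩, fun β => ⟨fun hβ => ?_, fun hβ => ?_⟩⟩
      · obtain rfl : β = α := add_right_cancel (hβ.trans e1.symm)
        rw [Finsupp.smul_apply, smul_eq_mul, mul_assoc, inv_mul_cancel₀ v2, mul_one]
      · rw [← e1]
        refine add_le_add_left (v3 β fun e => hβ ?_) (toLex (ind s))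
        rw [Finsupp.smul_apply, e, smul_zero]
    · push Not at h
      refine ⟨0, ⟨fun _ => zero_mem _, fun _ => rfl⟩, fun β => ⟨fun hβ => ?_,
        fun hβ => absurd rfl hβ⟩⟩
      rw [ka_apply, h β hβ, map_zero]; rfl
  choose w w1 w2 using h3
  have hχ' : (fun s => ka D (χ s)) ∈ chn (VV D n) (p + 1) j :=
    mem_chn.mpr fun s => ⟨fun hs => ka_mem ((mem_chn.mp hχ s).1 hs),
      fun hs => by rw [(mem_chn.mp hχ s).2 hs, map_zero]⟩
  have h4 : kos sh (fun s => ka D (χ s)) = fun s => ka D (skos K n χ s) :=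
    kos_nat _ _ (ka D) ka_X χ
  have h5 : ∀ s β, (kos sh (pr μ fun s => ka D (χ s)) + w) s β =
      if β + ind s = μ then algebraMap K D (coeff β ((skos K n χ + η) s)) else w s β := by
    intro s β
    rw [Pi.add_apply, Finsupp.add_apply, pr_kos, h4, pr_apply]
    split_ifs with h
    · rw [(w2 s β).1 h, ← ka_apply, Pi.add_apply, map_add, Finsupp.add_apply]
    · rw [zero_add]
  refine ⟨_, ⟨kos sh (pr μ fun s => ka D (χ s)) + w, Submodule.add_mem_sup
    ⟨_, pr_mem μ hχ', rfl⟩ (mem_chn.mpr w1), rfl⟩, ?_, fun y hy => ?_⟩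
  · show (kos sh (pr μ fun s => ka D (χ s)) + w) x.1 x.2 ≠ 0
    rw [h5, if_pos rfl]
    exact (map_ne_zero _).mpr g1
  · replace hy : (kos sh (pr μ fun s => ka D (χ s)) + w) y.1 y.2 ≠ 0 := hy
    rw [h5] at hy
    split_ifs at hy with h
    · exact g2 y fun e => hy (by rw [e, map_zero])
    · exact le_of_lt (Prod.Lex.toLex_lt_toLex.mpr (Or.inl
        (lt_of_le_of_ne ((w2 _ _).2 hy) fun e => h (toLex.injective e))))

open Classical in
theorem exists_initial' (e : Fin n → Fin n → D)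
    (h1 : ∀ i i', i ≠ i' → ∀ j j', e i j * e i' j' = e i' j' * e i j)
    (h2 : ∀ k, ∃ a : Fin n → D, ∀ j, ∑ i, a i * e i j = if k = j then 1 else 0)
    (b : (Fin n →₀ ℕ) → D ⊗[K] MvPolynomial (Fin n) K) (hb0 : b 0 = 1)
    (hb : ∀ α β, b (α + β) = b α * b β) (hb1 : ∀ i, b (Finsupp.single i 1) = fm K (e i))
    (I : Ideal (MvPolynomial (Fin n) K)) :
    ∃ Es : Set (Fin n →₀ ℕ), (∀ d, finrank K (part I d) = finrank K (part (Ideal.span
        ((fun α => (monomial α 1 : MvPolynomial (Fin n) K)) '' Es)) d)) ∧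
      (∀ p j, betti I p j ≤ betti (Ideal.span
        ((fun α => (monomial α 1 : MvPolynomial (Fin n) K)) '' Es)) p j) ∧
      (∀ (d : ℕ) (v : (Fin n →₀ ℕ) →₀ D) (α : Fin n →₀ ℕ), (∀ β, v β ≠ 0 → β.degree = d) →
        Finsupp.linearCombination D b v ∈ (part I d).baseChange D → v α ≠ 0 →
        (∀ β, v β ≠ 0 → (toLex β : Lex (Fin n →₀ ℕ)) ≤ toLex α) → α ∈ Es) := by
  have hspan := theta_span (fun i => fm K (e i)) b (fm_X e h2) hb0 hb hb1
  let U : ℕ → Submodule D ((Fin n →₀ ℕ) →₀ D) := fun d =>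
    VV D n d ⊓ ((part I d).baseChange D).comap (Finsupp.linearCombination D b)
  have hU : ∀ d, finrank D (U d) = finrank K (part I d) := fun d =>
    finrank_pull _ d (hspan d) _ inf_le_right
  have hup : ∀ α ∈ {α | α ∈ Lead (fun α => (toLex α : Lex (Fin n →₀ ℕ))) (U α.degree)}, ∀ β,
      α ≤ β → β ∈ {α | α ∈ Lead (fun α => (toLex α : Lex (Fin n →₀ ℕ))) (U α.degree)} := by
    refine up_closed _ ?_
    rintro α ⟨u, hu, g1, g2⟩ i
    rw [Set.mem_ofPred_eq, map_add, Finsupp.degree_single]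
    refine ⟨sh i u, ⟨sh_mem _ i u hu.1, ?_⟩, ?_, ?_⟩
    · have g3 := bc_mul (part I α.degree) (homogeneousSubmodule (Fin n) K 1)
        (part I (α.degree + 1))
        (fun x hx y hy => ⟨I.mul_mem_right _ hx.1, IsHomogeneous.mul hx.2 hy⟩) hu.2 (fm_mem (e i))
      rw [← theta_sh (fun i => fm K (e i)) b hb hb1] at g3
      exact g3
    · rwa [sh_apply]
    · intro β hβ
      obtain ⟨γ, rfl, hγ⟩ := sh_ne i u β hβ
      exact add_le_add_left (g2 γ hγ) (toLex (Finsupp.single i 1))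
  have hdim : ∀ d, finrank K (part I d) = finrank K (part (Ideal.span
      ((fun α => (monomial α 1 : MvPolynomial (Fin n) K)) ''
        {α | α ∈ Lead (fun α => (toLex α : Lex (Fin n →₀ ℕ))) (U α.degree)})) d) := by
    intro d
    rw [finrank_monomial_ideal _ hup, ← hU,
      ← card_lead (fun α => (toLex α : Lex (Fin n →₀ ℕ))) toLex.injective (expo n d) (U d)
        inf_le_left]
    congr 1
    refine Finset.filter_congr fun α hα => ?_
    rw [Set.mem_ofPred_eq, mem_expo.mp hα]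
  refine ⟨_, hdim, betti_le I _ hdim fun p j => ?_, ?_⟩
  · refine (bup_le_wd (D := D) _ _ ?_ U (fun d => inf_le_left) (fun α h => h) p j).trans
      (wd_le_bup e h1 h2 _ hspan (theta_sh _ b hb hb1) I U (fun d => inf_le_left)
        (fun d v hv => hv.2) p j)
    intro g hg α hα
    obtain ⟨β, hβ, hle⟩ := mem_ideal_span_monomial_image.mp hg α (mem_support_iff.mpr hα)
    exact hup β hβ α hle
  · intro d v α g1 g2 g3 g4
    rw [Set.mem_ofPred_eq, g1 α g3]
    exact ⟨v, ⟨(memV _ _).mpr g1, g2⟩, g3, g4⟩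

end Lift

theorem lpp_quadrics {K : Type u} [Field K] {c r : ℕ} (f : Fin c → MvPolynomial (Fin (c + r)) K)
    (hh : ∀ l, (f l).IsHomogeneous 2) (hreg : Reg f) (I : Ideal (MvPolynomial (Fin (c + r)) K))
    (hfI : ∀ l, f l ∈ I) :
    ∃ Es : Set (Fin (c + r) →₀ ℕ), (∀ l, Finsupp.single (Fin.castAdd r l) 2 ∈ Es) ∧
      (∀ d, finrank K (part I d) = finrank K (part (Ideal.span
        ((fun α => (monomial α 1 : MvPolynomial (Fin (c + r)) K)) '' Es)) d)) ∧
      ∀ p j, betti I p j ≤ betti (Ideal.span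
        ((fun α => (monomial α 1 : MvPolynomial (Fin (c + r)) K)) '' Es)) p j := by
  obtain ⟨D, _, _, e, h1, h2, h3⟩ := exists_forms f hh hreg
  obtain ⟨b, hb0, hb, hb1⟩ := exists_mono (K := K) (fun i => fm K (e i)) (fm_comm e h1)
  obtain ⟨Es, h4, h5, h6⟩ := exists_initial' e h1 h2 b hb0 hb hb1 I
  refine ⟨Es, fun l => ?_, h4, h5⟩
  obtain ⟨t, s, h⟩ := h3 l
  obtain ⟨v, g1, g2, g3, g4⟩ := sq_lead f hh I hfI _ b hb hb1 l t s h
  exact h6 2 v _ g1 g2 g3 g4

end Vale.Agent.P200
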