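import Vale.Agent.P200.CF
import Vale.Agent.P200.Forms

namespace Vale.Agent.P200

open Finset Module MvPolynomial TensorProduct

universe u

section Phi

variable {K D : Type*} [Field K] [DivisionRing D] [Algebra K D] {n : ℕ}

/-- right multiplication -/
noncomputable def rmul (y : D ⊗[K] MvPolynomial (Fin n) K) :
    D ⊗[K] MvPolynomial (Fin n) K →ₗ[D] D ⊗[K] MvPolynomial (Fin n) K where
  toFun x := x * y
  map_add' _ _ := add_mul _ _ _
  map_smul' d x := smul_mul' d x y

theorem rmul_apply (y x : D ⊗[K] MvPolynomial (Fin n) K) : rmul y x = x * y := rfl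

variable (K) in
/-- action of a matrix on chains -/
noncomputable def phi (c : Finset (Fin n) → Finset (Fin n) → D) :
    (Finset (Fin n) → D ⊗[K] MvPolynomial (Fin n) K) →ₗ[D]
      (Finset (Fin n) → D ⊗[K] MvPolynomial (Fin n) K) :=
  LinearMap.pi fun t => ∑ s, rmul (c s t ⊗ₜ[K] 1) ∘ₗ LinearMap.proj s

theorem phi_apply (c : Finset (Fin n) → Finset (Fin n) → D)
    (ψ : Finset (Fin n) → D ⊗[K] MvPolynomial (Fin n) K) (t : Finset (Fin n)) :
    phi K c ψ t = ∑ s, ψ s * (c s t ⊗ₜ[K] 1) := by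
  simp [phi, LinearMap.sum_apply, rmul_apply]

theorem phi_inj (c : Finset (Fin n) → Finset (Fin n) → D) (h : Function.Injective (rows c)) :
    Function.Injective (phi K c) := by
  obtain ⟨c', hc'⟩ := right_inv c h
  refine Function.LeftInverse.injective (g := phi K c') fun ψ => funext fun s' => ?_
  simp only [phi_apply, Finset.sum_mul, mul_assoc, Algebra.TensorProduct.tmul_mul_tmul, mul_one]
  rw [Finset.sum_comm]
  simp only [← Finset.mul_sum, ← sum_tmul, hc']
  rw [Finset.sum_eq_single s' (fun s _ hs => by rw [if_neg hs, zero_tmul, mul_zero]) (by simp),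
    if_pos rfl, ← Algebra.TensorProduct.one_def, mul_one]

theorem phi_kos (e : Fin n → Fin n → D)
    (he : ∀ i i', i ≠ i' → ∀ j j', e i j * e i' j' = e i' j' * e i j)
    (ψ : Finset (Fin n) → D ⊗[K] MvPolynomial (Fin n) K) :
    phi K (cf e) (kos (fun i => rmul (fm K (e i))) ψ) =
      kos (fun j => rmul ((1 : D) ⊗ₜ[K] (X j : MvPolynomial (Fin n) K))) (phi K (cf e) ψ) := by
  funext t
  have h1 : ∀ s, ∑ j ∈ tᶜ, sg j t • (cf e s (insert j t) ⊗ₜ[K] (X j : MvPolynomial (Fin n) K)) =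
      ∑ i ∈ s, sg i (s.erase i) • (fm K (e i) * (cf e (s.erase i) t ⊗ₜ[K] 1)) := by
    intro s
    have h2 : ∑ j ∈ tᶜ, sg j t • (cf e s (insert j t) ⊗ₜ[K] (X j : MvPolynomial (Fin n) K)) =
        ∑ j, con j (cf e s) t ⊗ₜ[K] X j := by
      rw [← Finset.sum_subset (Finset.subset_univ tᶜ) (fun j _ hj => by
        rw [con, if_pos (by simpa using hj), zero_tmul])]
      refine Finset.sum_congr rfl fun j hj => ?_
      rw [con, if_neg (Finset.mem_compl.mp hj), smul_tmul']
    rw [h2]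
    simp only [con_cf e he, sum_tmul]
    rw [Finset.sum_comm]
    refine Finset.sum_congr rfl fun i _ => ?_
    simp only [fm, Finset.sum_mul, Finset.smul_sum, Algebra.TensorProduct.tmul_mul_tmul, mul_one,
      smul_tmul', cf_comm e he i _ _ (Finset.notMem_erase i s)]
  rw [phi_apply, kos_apply]
  simp only [kos_apply, phi_apply, rmul_apply, Finset.sum_mul, Finset.smul_sum, smul_mul_assoc,
    mul_assoc, Algebra.TensorProduct.tmul_mul_tmul, mul_one, one_mul]
  rw [sum_reindex fun i u => sg i u • (ψ (insert i u) * (fm K (e i) * (cf e u t ⊗ₜ[K] 1))),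
    Finset.sum_comm (s := tᶜ)]
  refine Finset.sum_congr rfl fun s _ => ?_
  have h3 : ∑ j ∈ tᶜ, sg j t • (ψ s * (cf e s (insert j t) ⊗ₜ[K] (X j : MvPolynomial (Fin n) K))) =
      ψ s * ∑ j ∈ tᶜ, sg j t • (cf e s (insert j t) ⊗ₜ[K] (X j : MvPolynomial (Fin n) K)) := by
    rw [Finset.mul_sum]
    exact Finset.sum_congr rfl fun j _ => (mul_smul_comm _ _ _).symm
  rw [h3, h1, Finset.mul_sum]
  exact Finset.sum_congr rfl fun i hi => by rw [Finset.insert_erase hi, mul_smul_comm]

theorem bc_right (p : Submodule K (MvPolynomial (Fin n) K)) (c : D)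
    {x : D ⊗[K] MvPolynomial (Fin n) K} (hx : x ∈ p.baseChange D) :
    x * (c ⊗ₜ[K] 1) ∈ p.baseChange D :=
  bc_mul p (Submodule.span K {1}) p (fun x hx y hy => by
    obtain ⟨a, rfl⟩ := Submodule.mem_span_singleton.mp hy
    rw [mul_smul_comm, mul_one]
    exact p.smul_mem a hx) hx
    (Submodule.tmul_mem_baseChange_of_mem _ (Submodule.mem_span_singleton_self _))

theorem phi_mem (e : Fin n → Fin n → D) (G : ℕ → Submodule K (MvPolynomial (Fin n) K)) {p j : ℕ}
    {ψ : Finset (Fin n) → D ⊗[K] MvPolynomial (Fin n) K}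
    (h : ψ ∈ chn (fun d => (G d).baseChange D) p j) :
    phi K (cf e) ψ ∈ chn (fun d => (G d).baseChange D) p j := by
  rw [mem_chn] at h ⊢
  intro t
  rw [phi_apply]
  constructor
  · intro ht
    refine Submodule.sum_mem _ fun s _ => bc_right _ _ ?_
    by_cases hs : s.card = p ∧ p ≤ j
    · exact (h s).1 hs
    · rw [(h s).2 hs]; exact zero_mem _
  · intro ht
    refine Finset.sum_eq_zero fun s _ => ?_
    by_cases hs : s.card = p ∧ p ≤ j
    · rw [cf_card e s t (fun h' => ht ⟨h' ▸ hs.1, hs.2⟩), zero_tmul, mul_zero]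
    · rw [(h s).2 hs, zero_mul]

variable (D) in
/-- extension of scalars on chains -/
noncomputable def iot : (Finset (Fin n) → MvPolynomial (Fin n) K) →ₗ[K]
    (Finset (Fin n) → D ⊗[K] MvPolynomial (Fin n) K) :=
  (TensorProduct.mk K D (MvPolynomial (Fin n) K) 1).compLeft _

theorem iot_kos (φ : Finset (Fin n) → MvPolynomial (Fin n) K) :
    kos (fun j => rmul ((1 : D) ⊗ₜ[K] (X j : MvPolynomial (Fin n) K))) (iot D φ) =
      iot D (skos K n φ) :=
  kos_nat _ _ (TensorProduct.mk K D (MvPolynomial (Fin n) K) 1).toAddMonoidHom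
    (fun i x => by simp [rmul_apply, mul_comm]) φ

variable (D) in
/-- the span over `D` of a space of chains -/
noncomputable def spn (W : Submodule K (Finset (Fin n) → MvPolynomial (Fin n) K)) :
    Submodule D (Finset (Fin n) → D ⊗[K] MvPolynomial (Fin n) K) :=
  Submodule.span D (iot D '' (W : Set (Finset (Fin n) → MvPolynomial (Fin n) K)))

theorem spn_mem {W : Submodule K (Finset (Fin n) → MvPolynomial (Fin n) K)}
    {w : Finset (Fin n) → MvPolynomial (Fin n) K} (h : w ∈ W) : iot D w ∈ spn D W :=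
  Submodule.subset_span ⟨w, h, rfl⟩

theorem spn_le {W : Submodule K (Finset (Fin n) → MvPolynomial (Fin n) K)}
    {V : Submodule D (Finset (Fin n) → D ⊗[K] MvPolynomial (Fin n) K)}
    (h : ∀ w ∈ W, iot D w ∈ V) : spn D W ≤ V := by
  rw [spn, Submodule.span_le]
  rintro _ ⟨w, hw, rfl⟩
  exact h w hw

theorem chn_bc_le (G : ℕ → Submodule K (MvPolynomial (Fin n) K)) (p j : ℕ) :
    chn (fun d => (G d).baseChange D) p j ≤ spn D (chn G p j) := by
  intro ψ hψ
  rw [mem_chn] at hψ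
  rw [← Finset.univ_sum_single ψ]
  refine Submodule.sum_mem _ fun s _ => ?_
  by_cases hs : s.card = p ∧ p ≤ j
  · have h1 := (hψ s).1 hs
    rw [Submodule.baseChange_eq_span] at h1
    have h2 : Submodule.span D (((G (j - p)).map (TensorProduct.mk K D _ 1) : Submodule K _) :
        Set (D ⊗[K] MvPolynomial (Fin n) K)) ≤ (spn D (chn G p j)).comap
          (LinearMap.single D (fun _ : Finset (Fin n) => D ⊗[K] MvPolynomial (Fin n) K) s) := by
      rw [Submodule.span_le]
      rintro _ ⟨g, hg, rfl⟩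
      have h3 : iot D (Pi.single s g) = Pi.single s ((1 : D) ⊗ₜ[K] g) := by
        funext t
        by_cases h : t = s
        · subst h; simp [iot]
        · simp [iot, Pi.single_eq_of_ne h]
      have h4 := spn_mem (D := D) (single_mem_chn s hs.1 hs.2 hg)
      rw [h3] at h4
      exact h4
    exact h2 h1
  · rw [(hψ s).2 hs, Pi.single_zero]; exact zero_mem _

theorem finrank_spn (W : Submodule K (Finset (Fin n) → MvPolynomial (Fin n) K))
    [Module.Finite K W] : Module.Finite D (spn D W) ∧ finrank D (spn D W) ≤ finrank K W := by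
  let b := Module.finBasis K W
  have h1 : spn D W ≤ Submodule.span D (Set.range fun i => iot D (b i).1) := by
    refine spn_le fun w hw => ?_
    have h2 := congrArg Subtype.val (b.sum_repr ⟨w, hw⟩)
    simp only [Submodule.coe_sum, Submodule.coe_smul] at h2
    rw [← h2, map_sum]
    refine Submodule.sum_mem _ fun i _ => ?_
    rw [map_smul]
    exact Submodule.smul_of_tower_mem _ _ (Submodule.subset_span ⟨i, rfl⟩)
  have : Module.Finite D (Submodule.span D (Set.range fun i => iot D (b i).1)) :=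
    Module.Finite.span_of_finite D (Set.finite_range _)
  refine ⟨Submodule.finiteDimensional_of_le h1, (Submodule.finrank_mono h1).trans ?_⟩
  have := finrank_range_le_card (R := D) (fun i => iot D (b i).1)
  simpa [Set.finrank] using this

/-- boundaries modulo a family of subspaces, in monomial coordinates -/
noncomputable def wd (U : ℕ → Submodule D ((Fin n →₀ ℕ) →₀ D)) (p j : ℕ) :
    Submodule D (Finset (Fin n) → (Fin n →₀ ℕ) →₀ D) :=
  (chn (VV D n) (p + 1) j).map (kos sh) ⊔ chn U p j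

theorem wd_le (U : ℕ → Submodule D ((Fin n →₀ ℕ) →₀ D)) (hU : ∀ d, U d ≤ VV D n d) (p j : ℕ) :
    wd U p j ≤ chn (VV D n) p j := by
  refine sup_le ?_ (chn_mono hU p j)
  rintro _ ⟨φ, hφ, rfl⟩
  exact kos_mem _ _ (fun i d x => sh_mem d i x) hφ

section Th

variable (Θ : ((Fin n →₀ ℕ) →₀ D) →ₗ[D] D ⊗[K] MvPolynomial (Fin n) K)

theorem th_inj (d : ℕ)
    (hspan : (homogeneousSubmodule (Fin n) K d).baseChange D ≤ (VV D n d).map Θ) :
    ∀ v ∈ VV D n d, Θ v = 0 → v = 0 := by
  intro v hv h0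
  have h1 := rank_null Θ (VV D n d)
  rw [finrank_VV] at h1
  have h2 := Submodule.finrank_mono hspan
  rw [finrank_bc, finrank_hom] at h2
  have : Module.Finite D (VV D n d ⊓ LinearMap.ker Θ : Submodule D _) :=
    Submodule.finiteDimensional_of_le inf_le_left
  have h3 : VV D n d ⊓ LinearMap.ker Θ = ⊥ := Submodule.finrank_eq_zero.mp (by omega)
  exact (Submodule.eq_bot_iff _).mp h3 v ⟨hv, h0⟩

theorem th_hom (d : ℕ)
    (hspan : (homogeneousSubmodule (Fin n) K d).baseChange D ≤ (VV D n d).map Θ) :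
    ∀ v ∈ VV D n d, Θ v ∈ (homogeneousSubmodule (Fin n) K d).baseChange D := by
  intro v hv
  have h1 : (homogeneousSubmodule (Fin n) K d).baseChange D = (VV D n d).map Θ := by
    refine Submodule.eq_of_le_of_finrank_le hspan ?_
    rw [finrank_bc, finrank_hom, ← finrank_VV (D := D)]
    exact Submodule.finrank_map_le _ _
  rw [h1]
  exact ⟨v, hv, rfl⟩

/-- transfer of chains -/
noncomputable def psi (e : Fin n → Fin n → D) : (Finset (Fin n) → (Fin n →₀ ℕ) →₀ D) →ₗ[D]
    (Finset (Fin n) → D ⊗[K] MvPolynomial (Fin n) K) :=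
  phi K (cf e) ∘ₗ Θ.compLeft (Finset (Fin n))

theorem psi_apply (e : Fin n → Fin n → D) (φ : Finset (Fin n) → (Fin n →₀ ℕ) →₀ D) :
    psi Θ e φ = phi K (cf e) (fun s => Θ (φ s)) := rfl

theorem psi_push (e : Fin n → Fin n → D) (V : ℕ → Submodule D ((Fin n →₀ ℕ) →₀ D))
    (G : ℕ → Submodule K (MvPolynomial (Fin n) K))
    (h : ∀ d, ∀ v ∈ V d, Θ v ∈ (G d).baseChange D) (q j : ℕ) :
    ∀ φ ∈ chn V q j, psi Θ e φ ∈ spn D (chn G q j) := by
  intro φ hφ
  rw [psi_apply]
  refine chn_bc_le G q j (phi_mem e G (mem_chn.mpr fun s => ⟨fun hs => ?_, fun hs => ?_⟩))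
  · exact h _ _ ((mem_chn.mp hφ s).1 hs)
  · rw [(mem_chn.mp hφ s).2 hs, map_zero]

theorem psi_inj (e : Fin n → Fin n → D) (he : Function.Injective (rows (cf e)))
    (hinj : ∀ d, ∀ v ∈ VV D n d, Θ v = 0 → v = 0) (p j : ℕ) :
    ∀ φ ∈ chn (VV D n) p j, psi Θ e φ = 0 → φ = 0 := by
  intro φ h3 h4
  rw [psi_apply] at h4
  have h5 := phi_inj _ he (h4.trans (map_zero _).symm)
  have h6 := mem_chn.mp h3
  funext s
  by_cases hs : s.card = p ∧ p ≤ j
  · exact hinj _ _ ((h6 s).1 hs) (congrFun h5 s)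
  · exact (h6 s).2 hs

theorem psi_kos (e : Fin n → Fin n → D)
    (he : ∀ i i', i ≠ i' → ∀ j j', e i j * e i' j' = e i' j' * e i j)
    (hsh : ∀ i x, Θ (sh i x) = Θ x * fm K (e i)) (φ : Finset (Fin n) → (Fin n →₀ ℕ) →₀ D) :
    psi Θ e (kos sh φ) =
      kos (fun j => rmul ((1 : D) ⊗ₜ[K] (X j : MvPolynomial (Fin n) K))) (psi Θ e φ) := by
  rw [psi_apply, psi_apply, ← phi_kos e he]
  exact congrArg _ (kos_nat _ _ Θ.toAddMonoidHom hsh φ).symm

end Th

theorem spn_kos (I : Ideal (MvPolynomial (Fin n) K)) (p j : ℕ) :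
    ∀ ψ ∈ spn D (chn (homogeneousSubmodule (Fin n) K) (p + 1) j),
      kos (fun j => rmul ((1 : D) ⊗ₜ[K] (X j : MvPolynomial (Fin n) K))) ψ ∈ spn D (bup I p j) := by
  intro ψ hψ
  have h5 : spn D (chn (homogeneousSubmodule (Fin n) K) (p + 1) j) ≤ (spn D (bup I p j)).comap
      (kos (fun j => rmul ((1 : D) ⊗ₜ[K] (X j : MvPolynomial (Fin n) K)))) := by
    refine spn_le fun g hg => ?_
    rw [Submodule.mem_comap, iot_kos]
    exact spn_mem (Submodule.mem_sup_left ⟨g, hg, rfl⟩)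
  exact h5 hψ

theorem wd_le_bup (e : Fin n → Fin n → D)
    (he : ∀ i i', i ≠ i' → ∀ j j', e i j * e i' j' = e i' j' * e i j)
    (hi : ∀ k, ∃ a : Fin n → D, ∀ j, ∑ i, a i * e i j = if k = j then 1 else 0)
    (Θ : ((Fin n →₀ ℕ) →₀ D) →ₗ[D] D ⊗[K] MvPolynomial (Fin n) K)
    (hspan : ∀ d, (homogeneousSubmodule (Fin n) K d).baseChange D ≤ (VV D n d).map Θ)
    (hsh : ∀ i x, Θ (sh i x) = Θ x * fm K (e i))
    (I : Ideal (MvPolynomial (Fin n) K)) (U : ℕ → Submodule D ((Fin n →₀ ℕ) →₀ D))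
    (hU1 : ∀ d, U d ≤ VV D n d) (hU2 : ∀ d, ∀ v ∈ U d, Θ v ∈ (part I d).baseChange D) (p j : ℕ) :
    finrank D (wd U p j) ≤ finrank K (bup I p j) := by
  have := chn_finite (n := n) (VV D n) p j
  have hle := wd_le U hU1 p j
  have : Module.Finite D (wd U p j) := Submodule.finiteDimensional_of_le hle
  have h1 := rank_null (psi Θ e) (wd U p j)
  have h2 : wd U p j ⊓ LinearMap.ker (psi Θ e) = ⊥ := by
    rw [eq_bot_iff]
    rintro φ ⟨h3, h4⟩
    exact psi_inj Θ e (cf_inj e he (rows_inj e hi)) (fun d => th_inj Θ d (hspan d)) p j φ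
      (hle h3) h4
  have h3 : (wd U p j).map (psi Θ e) ≤ spn D (bup I p j) := by
    rw [wd, Submodule.map_sup]
    refine sup_le ?_ ?_
    · rintro _ ⟨_, ⟨φ, hφ, rfl⟩, rfl⟩
      rw [psi_kos Θ e he hsh]
      exact spn_kos I p j _ (psi_push Θ e _ _ (fun d => th_hom Θ d (hspan d)) _ _ φ hφ)
    · rintro _ ⟨φ, hφ, rfl⟩
      exact spn_le (fun w hw => spn_mem (Submodule.mem_sup_right hw))
        (psi_push Θ e U (part I) hU2 _ _ φ hφ)
  obtain ⟨h4, h5⟩ := finrank_spn (D := D) (bup I p j)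
  have h6 := Submodule.finrank_mono h3
  rw [h2, finrank_bot] at h1
  omega

end Phi

end Vale.Agent.P200
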