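import Vale.Agent.P200.KDef
import Vale.Agent.P200.Key
import Vale.Agent.P200.Final

namespace Vale.Agent.P200

open MvPolynomial Finset Module

variable {n : ℕ}

theorem sg_sq (i : Fin n) (s : Finset (Fin n)) : sg i s * sg i s = 1 := by
  rw [sg, ← mul_pow]; simp

theorem sg_insert (i k : Fin n) (s : Finset (Fin n)) (hk : k ∉ s) :
    sg i (insert k s) = (if k < i then -1 else 1) * sg i s := by
  rw [sg, sg, Finset.filter_insert]
  split_ifs with h
  · rw [Finset.card_insert_of_notMem (fun h' => hk (Finset.mem_filter.mp h').1), pow_succ']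
  · rw [one_mul]

theorem sg_swap (i k : Fin n) (s : Finset (Fin n)) (hi : i ∉ s) (hk : k ∉ s) (h : i ≠ k) :
    sg i s * sg k (insert i s) = -(sg k s * sg i (insert k s)) := by
  rw [sg_insert _ _ _ hi, sg_insert _ _ _ hk]
  rcases lt_or_gt_of_ne h with h' | h'
  · rw [if_pos h', if_neg (not_lt.mpr h'.le)]; ring
  · rw [if_neg (not_lt.mpr h'.le), if_pos h']; ring

theorem sg_min (a : Fin n) (s : Finset (Fin n)) (h : ∀ x ∈ s, a < x) : sg a s = 1 := by
  rw [sg, Finset.filter_false_of_mem (fun x hx => not_lt.mpr (h x hx).le)]; rfl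

section Gen

variable {A M : Type*} [Ring A] [AddCommGroup M] [Module A M]

theorem kos_apply (T : Fin n → M →ₗ[A] M) (φ : Finset (Fin n) → M) (s : Finset (Fin n)) :
    kos T φ s = ∑ i ∈ sᶜ, sg i s • T i (φ (insert i s)) := by
  simp [kos, LinearMap.sum_apply]

theorem mem_chn {G : ℕ → Submodule A M} {p j : ℕ} {φ : Finset (Fin n) → M} :
    φ ∈ chn G p j ↔ ∀ s, (s.card = p ∧ p ≤ j → φ s ∈ G (j - p)) ∧
      (¬ (s.card = p ∧ p ≤ j) → φ s = 0) := by
  simp only [chn, Submodule.mem_pi, Set.mem_univ, true_implies]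
  refine forall_congr' fun s => ?_
  split_ifs with h
  · simp [h]
  · simp only [Submodule.mem_bot]; tauto

theorem kos_mem (T : Fin n → M →ₗ[A] M) (G : ℕ → Submodule A M)
    (h : ∀ i d x, x ∈ G d → T i x ∈ G (d + 1)) {p j : ℕ} {φ : Finset (Fin n) → M}
    (hφ : φ ∈ chn G (p + 1) j) : kos T φ ∈ chn G p j := by
  rw [mem_chn] at hφ ⊢
  intro s
  rw [kos_apply]
  constructor
  · rintro ⟨h1, h2⟩
    refine Submodule.sum_mem _ fun i hi => Submodule.smul_of_tower_mem _ _ ?_
    have hc : (insert i s).card = p + 1 := by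
      rw [Finset.card_insert_of_notMem (Finset.mem_compl.mp hi), h1]
    by_cases hj : p + 1 ≤ j
    · have := h i _ _ ((hφ _).1 ⟨hc, hj⟩)
      rwa [show j - (p + 1) + 1 = j - p by omega] at this
    · rw [(hφ _).2 (fun h => hj h.2), map_zero]; exact zero_mem _
  · intro h1
    refine Finset.sum_eq_zero fun i hi => ?_
    rw [(hφ _).2, map_zero, smul_zero]
    rw [Finset.card_insert_of_notMem (Finset.mem_compl.mp hi)]
    omega

theorem kos_zero (T : Fin n → M →ₗ[A] M) (G : ℕ → Submodule A M) {j : ℕ}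
    {φ : Finset (Fin n) → M} (hφ : φ ∈ chn G 0 j) : kos T φ = 0 := by
  rw [mem_chn] at hφ
  funext s
  rw [kos_apply]
  refine Finset.sum_eq_zero fun i hi => ?_
  rw [(hφ _).2, map_zero, smul_zero]
  rw [Finset.card_insert_of_notMem (Finset.mem_compl.mp hi)]
  omega

theorem kos_nat {A' M' : Type*} [Ring A'] [AddCommGroup M'] [Module A' M']
    (T : Fin n → M →ₗ[A] M) (T' : Fin n → M' →ₗ[A'] M') (π : M →+ M')
    (h : ∀ i x, π (T i x) = T' i (π x)) (φ : Finset (Fin n) → M) :
    kos T' (fun s => π (φ s)) = fun s => π (kos T φ s) := by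
  funext s
  simp only [kos_apply, map_sum, map_zsmul, h]

theorem kos_kos (T : Fin n → M →ₗ[A] M) (h : ∀ i k x, T i (T k x) = T k (T i x))
    (φ : Finset (Fin n) → M) : kos T (kos T φ) = 0 := by
  classical
  funext s
  let g : Fin n → Fin n → M := fun i k => if i ∉ s ∧ k ∉ insert i s then
    (sg i s * sg k (insert i s)) • T i (T k (φ (insert k (insert i s)))) else 0
  have h1 : kos T (kos T φ) s = ∑ i, ∑ k, g i k := by
    rw [kos_apply, ← Finset.sum_subset (Finset.subset_univ sᶜ) (fun i _ hi => by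
      simp only [g]
      exact Finset.sum_eq_zero fun k _ => if_neg (fun h => hi (Finset.mem_compl.mpr h.1)))]
    refine Finset.sum_congr rfl fun i hi => ?_
    rw [kos_apply, map_sum, Finset.smul_sum, ← Finset.sum_subset (Finset.subset_univ (insert i s)ᶜ)
      (fun k _ hk => if_neg (fun h => hk (Finset.mem_compl.mpr h.2)))]
    refine Finset.sum_congr rfl fun k hk => ?_
    rw [if_pos ⟨Finset.mem_compl.mp hi, Finset.mem_compl.mp hk⟩, map_zsmul, smul_smul]
  rw [h1]
  apply antisym_sum
  · intro j; exact if_neg (fun h => h.2 (Finset.mem_insert_self _ _))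
  · intro i k
    simp only [g]
    by_cases hc : i ∉ s ∧ k ∉ insert i s
    · have hk : k ∉ s := fun h => hc.2 (Finset.mem_insert_of_mem h)
      have hne : i ≠ k := fun e => hc.2 (e ▸ Finset.mem_insert_self _ _)
      rw [if_pos hc, if_pos ⟨hk, by simp [hne, hc.1]⟩, sg_swap i k s hc.1 hk hne, h i k,
        Finset.insert_comm k i, neg_smul, neg_add_cancel]
    · rw [if_neg hc, if_neg, add_zero]
      intro h'
      apply hc
      simp only [Finset.mem_insert, not_or] at h' ⊢
      exact ⟨h'.2.2, Ne.symm h'.2.1, h'.1⟩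

theorem chn_mono {G G' : ℕ → Submodule A M} (h : ∀ d, G d ≤ G' d) (p j : ℕ) :
    (chn G p j : Submodule A (Finset (Fin n) → M)) ≤ chn G' p j := by
  intro φ hφ
  rw [mem_chn] at hφ ⊢
  exact fun s => ⟨fun h' => h _ ((hφ s).1 h'), (hφ s).2⟩

theorem single_mem_chn {G : ℕ → Submodule A M} {p j : ℕ} (s : Finset (Fin n)) (hs : s.card = p)
    (hj : p ≤ j) {x : M} (hx : x ∈ G (j - p)) : (Pi.single s x : Finset (Fin n) → M) ∈ chn G p j := by
  rw [mem_chn]
  intro t
  by_cases h : t = s
  · subst h; simp [hs, hj, hx]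
  · simp [Pi.single_eq_of_ne h]

/-- a product of submodules as a product of modules -/
def piEq {ι : Type*} (H : ι → Submodule A M) :
    (Submodule.pi Set.univ H : Submodule A (ι → M)) ≃ₗ[A] (∀ s, H s) where
  toFun φ s := ⟨φ.1 s, φ.2 s trivial⟩
  map_add' _ _ := rfl
  map_smul' _ _ := rfl
  invFun ψ := ⟨fun s => ψ s, fun s _ => (ψ s).2⟩
  left_inv _ := rfl
  right_inv _ := rfl

end Gen

section Fin

variable {A M : Type*} [DivisionRing A] [AddCommGroup M] [Module A M]

theorem chn_finite (G : ℕ → Submodule A M) [∀ d, Module.Finite A (G d)] (p j : ℕ) :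
    Module.Finite A (chn G p j : Submodule A (Finset (Fin n) → M)) := by
  have : ∀ s : Finset (Fin n),
      Module.Finite A (if s.card = p ∧ p ≤ j then G (j - p) else ⊥ : Submodule A M) := by
    intro s
    by_cases h : s.card = p ∧ p ≤ j
    · rw [if_pos h]; infer_instance
    · rw [if_neg h]; infer_instance
  exact Module.Finite.equiv (piEq _).symm

theorem finrank_chn (G : ℕ → Submodule A M) [∀ d, Module.Finite A (G d)] (p j : ℕ) :
    finrank A (chn G p j : Submodule A (Finset (Fin n) → M)) =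
      ∑ s : Finset (Fin n), if s.card = p ∧ p ≤ j then finrank A (G (j - p)) else 0 := by
  have : ∀ s : Finset (Fin n),
      Module.Finite A (if s.card = p ∧ p ≤ j then G (j - p) else ⊥ : Submodule A M) := by
    intro s
    by_cases h : s.card = p ∧ p ≤ j
    · rw [if_pos h]; infer_instance
    · rw [if_neg h]; infer_instance
  rw [chn, (piEq _).finrank_eq, Module.finrank_pi_fintype]
  refine Finset.sum_congr rfl fun s _ => ?_
  by_cases h : s.card = p ∧ p ≤ j
  · rw [if_pos h, if_pos h]
  · rw [if_neg h, if_neg h, finrank_bot]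

end Fin

section Quo

variable {K : Type*} [Field K] (I : Ideal (MvPolynomial (Fin n) K))

/-- Koszul differential of the polynomial ring -/
noncomputable abbrev skos (K : Type*) [Field K] (n : ℕ) :
    (Finset (Fin n) → MvPolynomial (Fin n) K) →ₗ[K] (Finset (Fin n) → MvPolynomial (Fin n) K) :=
  kos fun i => LinearMap.mulLeft K (X i)

/-- boundaries modulo `I` -/
noncomputable def bup (p j : ℕ) : Submodule K (Finset (Fin n) → MvPolynomial (Fin n) K) :=
  (chn (homogeneousSubmodule (Fin n) K) (p + 1) j).map (skos K n) ⊔ chn (part I) p j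

theorem hom_X (i : Fin n) (d : ℕ) (x : MvPolynomial (Fin n) K)
    (hx : x ∈ homogeneousSubmodule (Fin n) K d) :
    LinearMap.mulLeft K (X i) x ∈ homogeneousSubmodule (Fin n) K (d + 1) := by
  rw [add_comm]; exact (isHomogeneous_X K i).mul hx

theorem bup_le (p j : ℕ) : bup I p j ≤ chn (homogeneousSubmodule (Fin n) K) p j := by
  refine sup_le ?_ (chn_mono (fun d => inf_le_right) p j)
  rintro _ ⟨φ, hφ, rfl⟩
  exact kos_mem _ _ hom_X hφ

instance bup_finite (p j : ℕ) : Module.Finite K (bup I p j) :=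
  have := chn_finite (n := n) (homogeneousSubmodule (Fin n) K) p j
  Submodule.finiteDimensional_of_le (bup_le I p j)

instance qdeg_finite (d : ℕ) : Module.Finite K (qdeg I d) := by unfold qdeg; infer_instance

/-- projection of chains -/
noncomputable def pq : (Finset (Fin n) → MvPolynomial (Fin n) K) →ₗ[K]
    (Finset (Fin n) → MvPolynomial (Fin n) K ⧸ I) :=
  (Ideal.Quotient.mkₐ K I).toLinearMap.compLeft _

theorem pq_apply (φ : Finset (Fin n) → MvPolynomial (Fin n) K) (s : Finset (Fin n)) :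
    pq I φ s = Ideal.Quotient.mk I (φ s) := rfl

theorem pq_kos (φ : Finset (Fin n) → MvPolynomial (Fin n) K) :
    qkos I (pq I φ) = pq I (skos K n φ) :=
  kos_nat _ _ (Ideal.Quotient.mk I).toAddMonoidHom (fun _ _ => map_mul (Ideal.Quotient.mk I) _ _) φ

theorem map_chn (p j : ℕ) :
    (chn (homogeneousSubmodule (Fin n) K) p j).map (pq I) = chn (qdeg I) p j := by
  apply le_antisymm
  · rintro _ ⟨φ, hφ, rfl⟩
    rw [SetLike.mem_coe, mem_chn] at hφ
    rw [mem_chn]
    exact fun s => ⟨fun h => ⟨_, (hφ s).1 h, rfl⟩, fun h => by rw [pq_apply, (hφ s).2 h, map_zero]⟩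
  · intro ψ hψ
    rw [mem_chn] at hψ
    have : ∀ s, ∃ g : MvPolynomial (Fin n) K, ((s.card = p ∧ p ≤ j →
        g ∈ homogeneousSubmodule (Fin n) K (j - p)) ∧ (¬ (s.card = p ∧ p ≤ j) → g = 0)) ∧
        Ideal.Quotient.mk I g = ψ s := by
      intro s
      by_cases h : s.card = p ∧ p ≤ j
      · obtain ⟨g, hg, hg'⟩ := (hψ s).1 h
        exact ⟨g, ⟨fun _ => hg, fun h' => absurd h h'⟩, hg'⟩
      · exact ⟨0, ⟨fun h' => absurd h' h, fun _ => rfl⟩, by rw [map_zero, (hψ s).2 h]⟩
    choose φ h1 h2 using this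
    exact ⟨φ, mem_chn.mpr h1, funext h2⟩

theorem inf_ker (p j : ℕ) (W : Submodule K (Finset (Fin n) → MvPolynomial (Fin n) K))
    (h1 : chn (part I) p j ≤ W) (h2 : W ≤ chn (homogeneousSubmodule (Fin n) K) p j) :
    W ⊓ LinearMap.ker (pq I) = chn (part I) p j := by
  apply le_antisymm
  · rintro φ ⟨h3, h4⟩
    have h5 := mem_chn.mp (h2 h3)
    exact mem_chn.mpr fun s => ⟨fun h => ⟨Ideal.Quotient.eq_zero_iff_mem.mp (congrFun h4 s),
      (h5 s).1 h⟩, (h5 s).2⟩
  · intro φ hφ
    refine ⟨h1 hφ, funext fun s => ?_⟩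
    rw [pq_apply, Pi.zero_apply, Ideal.Quotient.eq_zero_iff_mem]
    by_cases h : s.card = p ∧ p ≤ j
    · exact (((mem_chn.mp hφ) s).1 h).1
    · rw [((mem_chn.mp hφ) s).2 h]; exact zero_mem _

theorem finrank_bdr (p j : ℕ) : finrank K (bdr I p j) +
    finrank K (chn (part I) p j : Submodule K (Finset (Fin n) → _)) = finrank K (bup I p j) := by
  have h1 := rank_null (pq I) (bup I p j)
  rw [inf_ker I p j (bup I p j) le_sup_right (bup_le I p j)] at h1
  have h2 : (bup I p j).map (pq I) = bdr I p j := by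
    rw [bup, Submodule.map_sup, bdr, ← map_chn, ← Submodule.map_comp, ← Submodule.map_comp]
    have h3 : (chn (part I) p j).map (pq I) = ⊥ := by
      rw [← inf_ker I p j _ le_rfl (chn_mono (fun d => inf_le_right) p j), eq_bot_iff]
      rintro _ ⟨φ, hφ, rfl⟩
      exact hφ.2
    rw [h3, sup_bot_eq]
    congr 1
    exact LinearMap.ext fun φ => (pq_kos I φ).symm
  rwa [h2] at h1

theorem finrank_qchn (p j : ℕ) : finrank K (chn (qdeg I) p j : Submodule K (Finset (Fin n) → _)) +
    finrank K (chn (part I) p j : Submodule K (Finset (Fin n) → _)) =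
    finrank K (chn (homogeneousSubmodule (Fin n) K) p j : Submodule K (Finset (Fin n) → _)) := by
  have := chn_finite (n := n) (homogeneousSubmodule (Fin n) K) p j
  have h1 := rank_null (pq I) (chn (homogeneousSubmodule (Fin n) K) p j)
  rwa [inf_ker I p j _ (chn_mono (fun d => inf_le_right) p j) le_rfl, map_chn] at h1

theorem betti_eq (p j : ℕ) : betti I p j + finrank K (bdr I p j) +
    finrank K ((chn (qdeg I) p j).map (qkos I)) =
    finrank K (chn (qdeg I) p j : Submodule K (Finset (Fin n) → _)) := by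
  have := chn_finite (n := n) (qdeg I) p j
  have h1 := rank_null (qkos I) (chn (qdeg I) p j)
  have : Module.Finite K (cyc I p j) := Submodule.finiteDimensional_of_le inf_le_left
  have h2 := Submodule.finrank_quotient_add_finrank ((bdr I p j).submoduleOf (cyc I p j))
  have h3 : bdr I p j ≤ cyc I p j := by
    rintro _ ⟨φ, hφ, rfl⟩
    refine ⟨kos_mem _ _ ?_ hφ, kos_kos _ (fun i k x => mul_left_comm _ _ _) φ⟩
    rintro i d _ ⟨x, hx, rfl⟩
    exact ⟨_, hom_X i d x hx, map_mul (Ideal.Quotient.mk I) _ _⟩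
  rw [(Submodule.submoduleOfEquivOfLe h3).finrank_eq] at h2
  rw [betti, h2, add_comm]
  exact h1

theorem betti_le (J : Ideal (MvPolynomial (Fin n) K))
    (h1 : ∀ d, finrank K (part I d) = finrank K (part J d))
    (h2 : ∀ p j, finrank K (bup J p j) ≤ finrank K (bup I p j)) (p j : ℕ) :
    betti I p j ≤ betti J p j := by
  have h3 : ∀ p, finrank K (chn (part I) p j : Submodule K (Finset (Fin n) → _)) =
      finrank K (chn (part J) p j : Submodule K (Finset (Fin n) → _)) := by
    intro p; simp only [finrank_chn, h1]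
  have h4 : ∀ p, finrank K (bdr J p j) ≤ finrank K (bdr I p j) := by
    intro p
    have := finrank_bdr I p j
    have := finrank_bdr J p j
    have := h3 p
    have := h2 p j
    omega
  have h5 : finrank K ((chn (qdeg J) p j).map (qkos J)) ≤
      finrank K ((chn (qdeg I) p j).map (qkos I)) := by
    cases p with
    | zero =>
      have : (chn (qdeg J) 0 j).map (qkos J) = ⊥ := by
        rw [eq_bot_iff]
        rintro _ ⟨φ, hφ, rfl⟩
        exact kos_zero _ _ hφ
      rw [this, finrank_bot]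
      exact Nat.zero_le _
    | succ p => exact h4 p
  have := betti_eq I p j
  have := betti_eq J p j
  have := finrank_qchn I p j
  have := finrank_qchn J p j
  have := h3 p
  have := h4 p
  omega

end Quo

end Vale.Agent.P200
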