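import Vale.Agent.P200.Step
import Vale.Agent.P200.Final

namespace Vale.Agent.P200

open Finset Module MvPolynomial TensorProduct

universe u

theorem left_inv_of_surj {L D : Type*} [Field L] [DivisionRing D] [Algebra L D] [Module.Finite L D]
    {n : ℕ} (e : Fin n → Fin n → D)
    (h : ∀ y : Fin n → D, ∃ w : Fin n → D, ∀ i, ∑ j, e i j * w j = y i) (k : Fin n) :
    ∃ c : Fin n → D, ∀ j, ∑ i, c i * e i j = if k = j then 1 else 0 := by
  let g : (Fin n → D) →ₗ[L] (Fin n → D) :=
    { toFun := fun w i => ∑ j, e i j * w j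
      map_add' := fun v w => by ext i; simp [mul_add, sum_add_distrib]
      map_smul' := fun a w => by ext i; simp [Finset.smul_sum] }
  have hs : Function.Surjective g := fun y => by
    obtain ⟨w, hw⟩ := h y
    exact ⟨w, funext hw⟩
  have hi := LinearMap.injective_iff_surjective.mpr hs
  choose v hv using fun i : Fin n => h (Pi.single i 1)
  refine ⟨fun i => v i k, fun j => ?_⟩
  have h1 : g (fun a => ∑ i, v i a * e i j) = g (Pi.single j 1) := by
    ext i'
    show ∑ a, e i' a * ∑ i, v i a * e i j = ∑ a, e i' a * (Pi.single j 1 : Fin n → D) a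
    simp only [Finset.mul_sum, ← mul_assoc]
    rw [Finset.sum_comm]
    simp only [← Finset.sum_mul, hv]
    simp [Pi.single_apply]
  have h2 := congrFun (hi h1) k
  simpa [Pi.single_apply] using h2

theorem lin_sq {K D S : Type*} [Field K] [Ring D] [Algebra K D] [CommRing S] [Algebra K S]
    {n c : ℕ} (e : Fin n → D) (t : Fin c → D) (x : Fin n → S) (f : Fin c → S)
    (co : Fin c → Fin n → Fin n → K) (hf : ∀ l, f l = ∑ j, ∑ k, co l j k • (x j * x k))
    (h1 : ∀ j, e j * e j = ∑ l, co l j j • t l)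
    (h2 : ∀ j k, e j * e k + e k * e j = ∑ l, (co l j k + co l k j) • t l) :
    (∑ j, e j ⊗ₜ[K] x j) * (∑ j, e j ⊗ₜ[K] x j) = ∑ l, t l ⊗ₜ[K] f l := by
  have e2 : ∑ l, t l ⊗ₜ[K] f l = ∑ j, ∑ k, (∑ l, co l j k • t l) ⊗ₜ[K] (x j * x k) := by
    simp only [hf, tmul_sum, sum_tmul, tmul_smul, smul_tmul']
    rw [Finset.sum_comm]
    refine Finset.sum_congr rfl fun j _ => ?_
    rw [Finset.sum_comm]
  rw [e2, Finset.sum_mul_sum, ← sub_eq_zero]
  simp only [Algebra.TensorProduct.tmul_mul_tmul, ← Finset.sum_sub_distrib, ← sub_tmul]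
  apply antisym_sum
  · intro j; rw [h1, sub_self, zero_tmul]
  · intro j k
    rw [mul_comm (x k) (x j), ← add_tmul]
    have : e j * e k - ∑ l, co l j k • t l + (e k * e j - ∑ l, co l k j • t l) = 0 := by
      have h3 := h2 j k
      simp only [add_smul, sum_add_distrib] at h3
      rw [sub_add_sub_comm, h3, sub_self]
    rw [this, zero_tmul]

theorem egh_quadrics {K : Type u} [Field K] {n : ℕ} (f : Fin n → MvPolynomial (Fin n) K)
    (hh : ∀ l, (f l).IsHomogeneous 2) (hreg : Reg f) (I : Ideal (MvPolynomial (Fin n) K))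
    (hfI : ∀ l, f l ∈ I) :
    ∃ Es : Set (Fin n →₀ ℕ), (∀ i, Finsupp.single i 2 ∈ Es) ∧ ∀ d, finrank K (part I d) =
      finrank K (part (Ideal.span ((fun α => (monomial α 1 : MvPolynomial (Fin n) K)) '' Es)) d) := by
  classical
  choose co hco using fun l => exists_co (f l) (hh l)
  obtain ⟨τ⟩ := tower_exists f hh hreg co hco n le_rfl
  let _ : Algebra K τ.D := Algebra.compHom τ.D (algebraMap K τ.L)
  have hsm : ∀ (a : K) (d : τ.D), a • d = algebraMap K τ.L a • d := fun _ _ => rfl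
  let A : Fin n → τ.D ⊗[K] MvPolynomial (Fin n) K := fun i => ∑ j, τ.e i j ⊗ₜ[K] X j
  have hA1 : ∀ i, A i ∈ (homogeneousSubmodule (Fin n) K 1).baseChange τ.D := fun i =>
    Submodule.sum_mem _ fun j _ => Submodule.tmul_mem_baseChange_of_mem _ (isHomogeneous_X K j)
  have hcomm : ∀ i j, A i * A j = A j * A i := by
    intro i i'
    by_cases h : i = i'
    · rw [h]
    · simp only [A, Finset.sum_mul_sum, Algebra.TensorProduct.tmul_mul_tmul]
      rw [Finset.sum_comm]
      refine Finset.sum_congr rfl fun j _ => Finset.sum_congr rfl fun k _ => ?_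
      rw [τ.comm i i' h, mul_comm (X k)]
  have hX : ∀ k, ∃ c : Fin n → τ.D,
      (1 : τ.D) ⊗ₜ[K] (X k : MvPolynomial (Fin n) K) = ∑ i, c i • A i := by
    intro k
    obtain ⟨c, hc⟩ := left_inv_of_surj (L := τ.L) τ.e τ.surj k
    refine ⟨c, ?_⟩
    simp only [A, Finset.smul_sum, smul_tmul', smul_eq_mul]
    rw [Finset.sum_comm]
    simp only [← sum_tmul, hc]
    rw [Finset.sum_eq_single k (fun j _ hj => by rw [if_neg (Ne.symm hj), zero_tmul]) (by simp),
      if_pos rfl]
  obtain ⟨b, hb0, hb, hb1⟩ := exists_mono (K := K) A hcomm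
  obtain ⟨Es, h1, h2, h3⟩ := exists_initial A hA1 hX b hb0 hb hb1
    (fun α => (toLex α : Lex (Fin n →₀ ℕ))) toLex.injective
    (fun α β γ h => add_le_add_left h (toLex γ)) I
  refine ⟨Es, fun i => h3 2 (Finsupp.single (Finsupp.single i 2) 1) _ ?_ ?_ (by simp) ?_,
    fun d => by rw [h2, finrank_monomial_ideal Es h1]⟩
  · intro β hβ
    rw [(Finsupp.single_apply_ne_zero.mp hβ).1, Finsupp.degree_single]
  · rw [Finsupp.linearCombination_single, one_smul,
      show Finsupp.single i 2 = Finsupp.single i 1 + Finsupp.single i 1 by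
        rw [← Finsupp.single_add], hb, hb1,
      lin_sq (τ.e i) (τ.t i) X f co hco (τ.r1 i) (τ.r2 i)]
    exact Submodule.sum_mem _ fun l _ => Submodule.tmul_mem_baseChange_of_mem _ ⟨hfI l, hh l⟩
  · intro β hβ
    rw [(Finsupp.single_apply_ne_zero.mp hβ).1]

end Vale.Agent.P200
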