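import Vale.Agent.P200.Hilb

namespace Vale.Agent.P200

open Finset Module MvPolynomial

set_option linter.unusedSectionVars false

theorem filter_mem_sublist {α : Type*} [DecidableEq α] {J Λ : List α} (h : J.Sublist Λ)
    (hn : Λ.Nodup) : Λ.filter (fun j => decide (j ∈ J)) = J := by
  induction h with
  | slnil => simp
  | @cons J Λ a h ih =>
    rw [List.nodup_cons] at hn
    rw [List.filter_cons_of_neg (by simpa using fun ha => hn.1 (h.subset ha)), ih hn.2]
  | @cons_cons J Λ a h ih =>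
    rw [List.nodup_cons] at hn
    rw [List.filter_cons_of_pos (by simp)]
    congr 1
    rw [← ih hn.2]
    apply List.filter_congr
    intro x hx
    have : x ≠ a := fun e => hn.1 (e ▸ hx)
    simp [this, ih hn.2]

/-- abstract Clifford data inside a ring `E` -/
structure Dat (L D E : Type*) [Field L] [DivisionRing D] [Ring E] [Algebra L E] [Module D E]
    (n : ℕ) where
  θ : MvPolynomial (Fin n) L →ₐ[L] E
  e : Fin n → E
  co : Fin n → Fin n → Fin n → L
  cen : ∀ u x, θ u * x = x * θ u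
  eD : ∀ j (d : D) x, e j * (d • x) = d • (e j * x)
  r1 : ∀ j, e j * e j = ∑ l, co l j j • θ (X l)
  r2 : ∀ j k, e j * e k + e k * e j = ∑ l, (co l j k + co l k j) • θ (X l)
  tf : ∀ u, u ≠ 0 → ∀ x, θ u * x = 0 → x = 0

variable {L D E : Type*} [Field L] [DivisionRing D] [Algebra L D] [Ring E] [Algebra L E]
  [Module D E] [IsScalarTower L D E] [IsScalarTower D E E] {n : ℕ}

namespace Dat

variable (Δ : Dat L D E n)

/-- product of a word in the generators -/
def word (J : List (Fin n)) : E := (J.map Δ.e).prod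

@[simp] theorem word_nil : Δ.word [] = 1 := rfl
@[simp] theorem word_cons (j : Fin n) (J : List (Fin n)) : Δ.word (j :: J) = Δ.e j * Δ.word J := by
  simp [word]

theorem θD (u : MvPolynomial (Fin n) L) (d : D) (x : E) : Δ.θ u * (d • x) = d • (Δ.θ u * x) := by
  rw [Δ.cen, smul_mul_assoc, Δ.cen]

theorem wordD (J : List (Fin n)) (d : D) (x : E) : Δ.word J * (d • x) = d • (Δ.word J * x) := by
  induction J with
  | nil => simp
  | cons j J ih => rw [word_cons, mul_assoc, ih, Δ.eD, mul_assoc]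

/-- graded pieces -/
def O (Λ : List (Fin n)) (a : ℕ) : Submodule D E :=
  Submodule.span D {y | ∃ (β : Fin n →₀ ℕ) (J : List (Fin n)), J.Sublist Λ ∧
    2 * β.degree + J.length = a ∧ y = Δ.θ (monomial β 1) * Δ.word J}

theorem gen_mem {Λ : List (Fin n)} {a : ℕ} (β : Fin n →₀ ℕ) (J : List (Fin n)) (h : J.Sublist Λ)
    (ha : 2 * β.degree + J.length = a) : Δ.θ (monomial β 1) * Δ.word J ∈ Δ.O Λ a :=
  Submodule.subset_span ⟨β, J, h, ha, rfl⟩

theorem word_mem {Λ : List (Fin n)} (J : List (Fin n)) (h : J.Sublist Λ) :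
    Δ.word J ∈ Δ.O Λ J.length := by
  have := Δ.gen_mem 0 J h rfl
  simpa [← MvPolynomial.C_apply] using this

theorem mul_O {Λ : List (Fin n)} {a : ℕ} (y : E) (hy : ∀ (d : D) x, y * (d • x) = d • (y * x))
    (U : Submodule D E)
    (h : ∀ (β : Fin n →₀ ℕ) (J : List (Fin n)), J.Sublist Λ → 2 * β.degree + J.length = a →
      y * (Δ.θ (monomial β 1) * Δ.word J) ∈ U) {z : E} (hz : z ∈ Δ.O Λ a) : y * z ∈ U := by
  induction hz using Submodule.span_induction with
  | mem x hx => obtain ⟨β, J, h1, h2, rfl⟩ := hx; exact h β J h1 h2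
  | zero => simp
  | add x y _ _ hx hy => rw [mul_add]; exact add_mem hx hy
  | smul d x _ hx => rw [hy]; exact U.smul_mem d hx

theorem O_mono {Λ Λ' : List (Fin n)} (h : Λ.Sublist Λ') (a : ℕ) : Δ.O Λ a ≤ Δ.O Λ' a :=
  Submodule.span_mono fun _ ⟨β, J, h1, h2, h3⟩ => ⟨β, J, h1.trans h, h2, h3⟩

theorem θmon_mul {Λ : List (Fin n)} {a : ℕ} (γ : Fin n →₀ ℕ) {z : E} (hz : z ∈ Δ.O Λ a) :
    Δ.θ (monomial γ 1) * z ∈ Δ.O Λ (a + 2 * γ.degree) := by
  refine Δ.mul_O _ (Δ.θD _) _ (fun β J h1 h2 => ?_) hz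
  rw [← mul_assoc, ← map_mul, monomial_mul, one_mul]
  exact Δ.gen_mem _ J h1 (by rw [map_add]; omega)

theorem θX_mul {Λ : List (Fin n)} {a : ℕ} (l : Fin n) {z : E} (hz : z ∈ Δ.O Λ a) :
    Δ.θ (X l) * z ∈ Δ.O Λ (a + 2) := by
  have := Δ.θmon_mul (Finsupp.single l 1) hz
  rwa [Finsupp.degree_single] at this

theorem sumθ_mul {Λ : List (Fin n)} {a : ℕ} (c : Fin n → L) {z : E} (hz : z ∈ Δ.O Λ a) :
    (∑ l, c l • Δ.θ (X l)) * z ∈ Δ.O Λ (a + 2) := by
  rw [Finset.sum_mul]
  refine Submodule.sum_mem _ fun l _ => ?_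
  rw [smul_mul_assoc]
  exact Submodule.smul_of_tower_mem _ _ (Δ.θX_mul l hz)

theorem e_cons {Λ : List (Fin n)} {a : ℕ} (k : Fin n) {z : E} (hz : z ∈ Δ.O Λ a) :
    Δ.e k * z ∈ Δ.O (k :: Λ) (a + 1) := by
  refine Δ.mul_O _ (Δ.eD _) _ (fun β J h1 h2 => ?_) hz
  rw [← mul_assoc, ← Δ.cen, mul_assoc, ← word_cons]
  exact Δ.gen_mem _ _ (h1.cons_cons k) (by simp; omega)

theorem e_word (Λ : List (Fin n)) : ∀ (j : Fin n) (J : List (Fin n)), j ∈ Λ → J.Sublist Λ →
    Δ.e j * Δ.word J ∈ Δ.O Λ (J.length + 1) := by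
  induction Λ with
  | nil => intro j J hj; simp at hj
  | cons k Λ ih =>
    intro j J hj hJ
    rcases List.sublist_cons_iff.mp hJ with h | ⟨J', rfl, h⟩
    · rcases List.mem_cons.mp hj with rfl | hj'
      · exact Δ.e_cons _ (Δ.word_mem J h)
      · exact Δ.O_mono (List.sublist_cons_self k Λ) _ (ih j J hj' h)
    · rcases List.mem_cons.mp hj with rfl | hj'
      · rw [word_cons, ← mul_assoc, Δ.r1]
        exact Δ.O_mono (List.sublist_cons_self _ Λ) _ (Δ.sumθ_mul _ (Δ.word_mem J' h))
      · have h1 : Δ.e j * Δ.word (k :: J') =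
            (Δ.e j * Δ.e k + Δ.e k * Δ.e j) * Δ.word J' - Δ.e k * (Δ.e j * Δ.word J') := by
          rw [word_cons]; noncomm_ring
        rw [h1, Δ.r2]
        exact sub_mem (Δ.O_mono (List.sublist_cons_self _ Λ) _ (Δ.sumθ_mul _ (Δ.word_mem J' h)))
          (Δ.e_cons _ (ih j J' hj' h))

/-- graded pieces for the full list -/
def G (a : ℕ) : Submodule D E := Δ.O (List.finRange n) a

theorem e_mul {a : ℕ} (j : Fin n) {z : E} (hz : z ∈ Δ.G a) : Δ.e j * z ∈ Δ.G (a + 1) := by
  refine Δ.mul_O _ (Δ.eD _) _ (fun β J h1 h2 => ?_) hz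
  rw [← mul_assoc, ← Δ.cen, mul_assoc]
  have := Δ.θmon_mul β (Δ.e_word _ j J (List.mem_finRange j) h1)
  rwa [show J.length + 1 + 2 * β.degree = a + 1 by omega] at this

theorem word_mul (J : List (Fin n)) {a : ℕ} {z : E} (hz : z ∈ Δ.G a) :
    Δ.word J * z ∈ Δ.G (a + J.length) := by
  induction J with
  | nil => simpa using hz
  | cons j J ih => rw [word_cons, mul_assoc]; exact Δ.e_mul j ih

theorem G_mul {a b : ℕ} {x z : E} (hx : x ∈ Δ.G a) (hz : z ∈ Δ.G b) : x * z ∈ Δ.G (a + b) := by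
  induction hx using Submodule.span_induction with
  | mem x hx =>
    obtain ⟨β, J, h1, h2, rfl⟩ := hx
    rw [mul_assoc]
    have := Δ.θmon_mul β (Δ.word_mul J hz)
    rwa [show b + J.length + 2 * β.degree = a + b by omega] at this
  | zero => simp
  | add x y _ _ hx hy => rw [add_mul]; exact add_mem hx hy
  | smul d x _ hx => rw [smul_mul_assoc]; exact Submodule.smul_mem _ d hx

theorem one_mem : (1 : E) ∈ Δ.G 0 := Δ.word_mem [] (List.nil_sublist _)

theorem e_mem (j : Fin n) : Δ.e j ∈ Δ.G 1 := by simpa using Δ.e_mul j Δ.one_mem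

/-- the spanning monomial attached to an exponent -/
noncomputable def mon (α : Fin n →₀ ℕ) : E :=
  Δ.θ (monomial (α.mapRange (· / 2) (by simp)) 1) *
    Δ.word ((List.finRange n).filter fun j => decide (α j % 2 = 1))

theorem G_le (a : ℕ) : Δ.G a ≤ Submodule.span D (Set.range fun α : expo n a => Δ.mon α) := by
  refine Submodule.span_mono ?_
  rintro _ ⟨β, J, h1, h2, rfl⟩
  have hJ : J.Nodup := (List.nodup_finRange n).sublist h1
  let α : Fin n →₀ ℕ := β + β + Multiset.toFinsupp (J : Multiset (Fin n))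
  have hα : ∀ j, α j = 2 * β j + if j ∈ J then 1 else 0 := by
    intro j
    simp only [α, Finsupp.add_apply, Multiset.toFinsupp_apply, Multiset.coe_count]
    split_ifs with h
    · rw [List.count_eq_one_of_mem hJ h]; omega
    · rw [List.count_eq_zero_of_not_mem h]; omega
  have hdeg : α.degree = a := by
    simp only [α, map_add]
    have : (Multiset.toFinsupp (J : Multiset (Fin n))).degree = J.length := by
      have h3 := Finsupp.card_toMultiset (Multiset.toFinsupp (J : Multiset (Fin n)))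
      rw [Multiset.toFinsupp_toMultiset, Multiset.coe_card] at h3
      rw [h3]; rfl
    omega
  refine ⟨⟨α, mem_expo.mpr hdeg⟩, ?_⟩
  have hβ : α.mapRange (· / 2) (by simp) = β := by
    ext j
    rw [Finsupp.mapRange_apply, hα]
    split_ifs <;> omega
  simp only [mon]
  rw [hβ]
  congr 2
  · conv_rhs => rw [← filter_mem_sublist h1 (List.nodup_finRange n)]
    apply List.filter_congr
    intro j _
    rw [hα]
    split_ifs with h
    · simp [h]
    · simp [h]

theorem G_finite (a : ℕ) : Module.Finite D (Δ.G a) := by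
  have : Module.Finite D (Submodule.span D (Set.range fun α : expo n a => Δ.mon α)) :=
    Module.Finite.span_of_finite D (Set.finite_range _)
  exact Submodule.finiteDimensional_of_le (Δ.G_le a)

theorem G_finrank (a : ℕ) : finrank D (Δ.G a) ≤ (expo n a).card := by
  have : Module.Finite D (Submodule.span D (Set.range fun α : expo n a => Δ.mon α)) :=
    Module.Finite.span_of_finite D (Set.finite_range _)
  refine (Submodule.finrank_mono (Δ.G_le a)).trans ?_
  have := finrank_range_le_card (R := D) (fun α : expo n a => Δ.mon α)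
  simpa [Set.finrank] using this

theorem θhom_mul {a k : ℕ} {u : MvPolynomial (Fin n) L} (hu : u.IsHomogeneous k)
    (U : ℕ → Submodule D E) (hU : ∀ b l z, z ∈ U b → Δ.θ (X l) * z ∈ U (b + 2))
    {z : E} (hz : z ∈ U a) : Δ.θ u * z ∈ U (a + 2 * k) := by
  have hm : ∀ (k : ℕ) (γ : Fin n →₀ ℕ), γ.degree = k → Δ.θ (monomial γ 1) * z ∈ U (a + 2 * k) := by
    intro k
    induction k with
    | zero =>
      intro γ hγ
      rw [(Finsupp.degree_eq_zero_iff γ).mp hγ]
      simpa [← MvPolynomial.C_apply] using hz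
    | succ k ih =>
      intro γ hγ
      have hne : γ ≠ 0 := by rintro rfl; simp at hγ
      obtain ⟨l, hl⟩ := Finsupp.ne_iff.mp hne
      have hle : Finsupp.single l 1 ≤ γ := by
        rw [Finsupp.single_le_iff]; simp at hl; omega
      obtain ⟨γ', rfl⟩ := exists_add_of_le hle
      have : (monomial (Finsupp.single l 1 + γ') 1 : MvPolynomial (Fin n) L) =
          X l * monomial γ' 1 := by rw [X, monomial_mul, one_mul]
      rw [this, map_mul, mul_assoc]
      refine hU _ l _ (ih γ' ?_)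
      rw [map_add, Finsupp.degree_single] at hγ; omega
  rw [u.as_sum, map_sum, Finset.sum_mul]
  refine Submodule.sum_mem _ fun γ hγ => ?_
  have : (monomial γ (coeff γ u) : MvPolynomial (Fin n) L) = coeff γ u • monomial γ 1 := by
    rw [smul_monomial, smul_eq_mul, mul_one]
  rw [this, map_smul, smul_mul_assoc]
  refine Submodule.smul_of_tower_mem _ _ (hm k γ ?_)
  by_contra hne
  exact (mem_support_iff.mp hγ) (hu.coeff_eq_zero hne)

theorem lower_bound [Module.Finite L D] {k : ℕ} (U : Submodule D E) [Module.Finite D U] {z : E}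
    (hz : z ≠ 0) (h : ∀ u : MvPolynomial (Fin n) L, u.IsHomogeneous k → Δ.θ u * z ∈ U) :
    (expo n k).card ≤ finrank L D * finrank D U := by
  have : Module.Finite L U := Module.Finite.trans D U
  rw [Module.finrank_mul_finrank, ← finrank_hom (K := L)]
  let g : homogeneousSubmodule (Fin n) L k →ₗ[L] U :=
    { toFun := fun u => ⟨Δ.θ u * z, h u u.2⟩
      map_add' := fun u v => by ext; simp [add_mul]
      map_smul' := fun c u => by ext; simp }
  refine LinearMap.finrank_le_finrank_of_injective (f := g) ?_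
  rw [← LinearMap.ker_eq_bot, eq_bot_iff]
  intro u hu
  by_contra hne
  exact hz (Δ.tf u (fun h0 => hne (Subtype.ext h0)) z (congrArg Subtype.val hu))

end Dat

end Vale.Agent.P200
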