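import Vale.Agent.P200.Dom

namespace Vale.Agent.P200

open Finset Module MvPolynomial TensorProduct

set_option linter.unusedSectionVars false

universe u

section Cl

variable {F : Type*} [Field F] {n : ℕ} (β : Matrix (Fin n) (Fin n) F)

/-- quadratic form of a matrix -/
noncomputable def qf : QuadraticForm F (Fin n → F) := (Matrix.toBilin' β).toQuadraticMap

theorem qf_neg : (-(Matrix.toBilin' β)).toQuadraticMap = (0 : QuadraticForm F (Fin n → F)) - qf β :=
  CliffordAlgebra.changeForm.neg_proof (Q := 0) (Q' := qf β) (by simp [qf])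

instance cl_nontrivial : Nontrivial (CliffordAlgebra (qf β)) :=
  have : Nontrivial (CliffordAlgebra (0 : QuadraticForm F (Fin n → F))) :=
    inferInstanceAs (Nontrivial (ExteriorAlgebra F (Fin n → F)))
  (CliffordAlgebra.changeFormEquiv (qf_neg β)).symm.injective.nontrivial

theorem cl_iota (v : Fin n → F) (h : CliffordAlgebra.ι (qf β) v = 0) : v = 0 := by
  have h1 := CliffordAlgebra.changeForm_ι (qf_neg β) v
  rw [h, map_zero] at h1
  exact (ExteriorAlgebra.ι_eq_zero_iff (R := F) v).mp h1.symm

theorem cl_r1 (j : Fin n) : CliffordAlgebra.ι (qf β) (Pi.single j 1) *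
    CliffordAlgebra.ι (qf β) (Pi.single j 1) = algebraMap F _ (β j j) := by
  rw [CliffordAlgebra.ι_sq_scalar, qf, LinearMap.BilinMap.toQuadraticMap_apply,
    Matrix.toBilin'_single]

theorem cl_r2 (j k : Fin n) : CliffordAlgebra.ι (qf β) (Pi.single j 1) *
    CliffordAlgebra.ι (qf β) (Pi.single k 1) + CliffordAlgebra.ι (qf β) (Pi.single k 1) *
    CliffordAlgebra.ι (qf β) (Pi.single j 1) = algebraMap F _ (β j k + β k j) := by
  rw [CliffordAlgebra.ι_mul_ι_add_swap, qf, LinearMap.BilinMap.polar_toQuadraticMap,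
    Matrix.toBilin'_single, Matrix.toBilin'_single]

end Cl

section Concrete

variable (L D : Type u) [Field L] [DivisionRing D] [Algebra L D] {n : ℕ}
  (co : Fin n → Fin n → Fin n → L)

/-- function field of the parameters -/
abbrev FF (L : Type u) [Field L] (n : ℕ) : Type u := FractionRing (MvPolynomial (Fin n) L)

/-- Gram matrix of the generic member -/
noncomputable def gram : Matrix (Fin n) (Fin n) (FF L n) :=
  fun j k => algebraMap (MvPolynomial (Fin n) L) _ (∑ l, co l j k • X l)

/-- Clifford algebra tensored with `D` -/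
def EE : Type u := CliffordAlgebra (qf (gram L co)) ⊗[L] D

noncomputable instance : Ring (EE L D co) :=
  inferInstanceAs (Ring (CliffordAlgebra (qf (gram L co)) ⊗[L] D))
noncomputable instance : Algebra L (EE L D co) :=
  inferInstanceAs (Algebra L (CliffordAlgebra (qf (gram L co)) ⊗[L] D))
noncomputable instance : Algebra (FF L n) (EE L D co) :=
  inferInstanceAs (Algebra (FF L n) (CliffordAlgebra (qf (gram L co)) ⊗[L] D))
instance : IsScalarTower L (FF L n) (EE L D co) :=
  inferInstanceAs (IsScalarTower L (FF L n) (CliffordAlgebra (qf (gram L co)) ⊗[L] D))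
instance : Nontrivial (EE L D co) :=
  inferInstanceAs (Nontrivial (CliffordAlgebra (qf (gram L co)) ⊗[L] D))

/-- inclusion of `D` -/
noncomputable def iR : D →ₐ[L] EE L D co :=
  (Algebra.TensorProduct.includeRight : D →ₐ[L] CliffordAlgebra (qf (gram L co)) ⊗[L] D)

/-- inclusion of the Clifford algebra -/
noncomputable def iL : CliffordAlgebra (qf (gram L co)) →ₐ[FF L n] EE L D co :=
  (Algebra.TensorProduct.includeLeft :
    _ →ₐ[FF L n] CliffordAlgebra (qf (gram L co)) ⊗[L] D)

theorem iL_iR (c : CliffordAlgebra (qf (gram L co))) (d : D) :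
    iL L D co c * iR L D co d = iR L D co d * iL L D co c := by
  show (c ⊗ₜ[L] (1 : D)) * ((1 : CliffordAlgebra (qf (gram L co))) ⊗ₜ[L] d) =
    ((1 : CliffordAlgebra (qf (gram L co))) ⊗ₜ[L] d) * (c ⊗ₜ[L] (1 : D))
  simp

noncomputable instance : Module D (EE L D co) := Module.compHom _ (iR L D co).toRingHom

theorem EE_smul (d : D) (x : EE L D co) : d • x = iR L D co d * x := rfl

instance : IsScalarTower L D (EE L D co) :=
  ⟨fun a d x => by rw [EE_smul, EE_smul, map_smul, smul_mul_assoc]⟩
instance : IsScalarTower D (EE L D co) (EE L D co) :=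
  ⟨fun a d x => by rw [EE_smul, EE_smul, smul_eq_mul, smul_eq_mul, mul_assoc]⟩

/-- the concrete Clifford data -/
noncomputable def dat : Dat L D (EE L D co) n where
  θ := (IsScalarTower.toAlgHom L (FF L n) (EE L D co)).comp
    (IsScalarTower.toAlgHom L (MvPolynomial (Fin n) L) (FF L n))
  e j := iL L D co (CliffordAlgebra.ι _ (Pi.single j 1))
  co := co
  cen u x := Algebra.commutes (algebraMap (MvPolynomial (Fin n) L) (FF L n) u) x
  eD j d x := by rw [EE_smul, EE_smul, ← mul_assoc, iL_iR, mul_assoc]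
  r1 j := by
    rw [← map_mul, cl_r1, AlgHom.commutes]
    simp only [← map_smul, ← map_sum]; rfl
  r2 j k := by
    rw [← map_mul (iL L D co), ← map_mul (iL L D co), ← map_add (iL L D co), cl_r2,
      AlgHom.commutes]
    simp only [← map_smul, ← map_sum, add_smul, sum_add_distrib, map_add]; rfl
  tf u hu x hx := by
    have h1 : algebraMap (MvPolynomial (Fin n) L) (FF L n) u • x = 0 := by
      rw [Algebra.smul_def]; exact hx
    exact (smul_eq_zero.mp h1).resolve_left
      (fun h => hu ((IsFractionRing.to_map_eq_zero_iff).mp h))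

theorem dat_ind (w : Fin n → D) (h : ∑ j, w j • (dat L D co).e j = 0) : w = 0 := by
  have h1 : ∑ j, (CliffordAlgebra.ι (qf (gram L co)) (Pi.single j 1)) ⊗ₜ[L] w j = 0 := by
    refine Eq.trans (Finset.sum_congr rfl fun j _ => ?_) h
    show _ = ((1 : CliffordAlgebra (qf (gram L co))) ⊗ₜ[L] w j) *
      ((CliffordAlgebra.ι (qf (gram L co)) (Pi.single j 1)) ⊗ₜ[L] (1 : D))
    simp
  funext j
  rw [Pi.zero_apply, ← Module.forall_dual_apply_eq_zero_iff L]
  intro φ
  have h2 := congrArg (fun z => TensorProduct.rid L _ (LinearMap.lTensor _ φ z)) h1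
  simp only [map_sum, LinearMap.lTensor_tmul, TensorProduct.rid_tmul, map_zero] at h2
  have h3 : CliffordAlgebra.ι (qf (gram L co))
      (fun j => algebraMap L (FF L n) (φ (w j))) = 0 := by
    rw [← h2]
    simp only [← algebraMap_smul (FF L n) (φ (w _)), ← map_smul, ← map_sum]
    congr 1
    ext k
    simp [Finset.sum_apply, Pi.single_apply, Algebra.algebraMap_eq_smul_one]
  have h4 := congrFun (cl_iota _ _ h3) j
  exact (map_eq_zero _).mp h4

end Concrete

/-- a tower of commuting Clifford blocks inside a division algebra -/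
structure Tower (K : Type u) [Field K] {n : ℕ} (co : Fin n → Fin n → Fin n → K) (k : ℕ) :
    Type (u + 1) where
  L : Type u
  D : Type u
  [fL : Field L]
  [aL : Algebra K L]
  [dD : DivisionRing D]
  [aD : Algebra L D]
  [fin : Module.Finite L D]
  e : Fin k → Fin n → D
  t : Fin k → Fin n → D
  r1 : ∀ i j, e i j * e i j = ∑ l, algebraMap K L (co l j j) • t i l
  r2 : ∀ i j j', e i j * e i j' + e i j' * e i j =
    ∑ l, algebraMap K L (co l j j' + co l j' j) • t i l
  comm : ∀ i i', i ≠ i' → ∀ j j', e i j * e i' j' = e i' j' * e i j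
  surj : ∀ y : Fin k → D, ∃ w : Fin n → D, ∀ i, ∑ j, e i j * w j = y i

attribute [instance] Tower.fL Tower.aL Tower.dD Tower.aD Tower.fin

theorem exists_ker {L D : Type*} [Field L] [DivisionRing D] [Algebra L D] [Module.Finite L D]
    {k n : ℕ} (hk : k < n) (e : Fin k → Fin n → D) :
    ∃ w : Fin n → D, w ≠ 0 ∧ ∀ i, ∑ j, e i j * w j = 0 := by
  let g : (Fin n → D) →ₗ[L] (Fin k → D) :=
    { toFun := fun w i => ∑ j, e i j * w j
      map_add' := fun v w => by ext i; simp [mul_add, sum_add_distrib]
      map_smul' := fun a w => by ext i; simp [Finset.smul_sum] }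
  have hlt : finrank L (Fin k → D) < finrank L (Fin n → D) := by
    simp only [Module.finrank_pi_fintype, sum_const, card_univ, Fintype.card_fin, smul_eq_mul]
    exact Nat.mul_lt_mul_of_pos_right hk Module.finrank_pos
  obtain ⟨w, hw, hw0⟩ := Submodule.exists_mem_ne_zero_of_ne_bot
    (LinearMap.ker_ne_bot_of_finrank_lt (f := g) hlt)
  exact ⟨w, hw0, fun i => congrFun hw i⟩

/-- one step of the construction -/
structure Ext (K : Type u) [Field K] {n : ℕ} (co : Fin n → Fin n → Fin n → K) (L D : Type u)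
    [Field L] [Algebra K L] [DivisionRing D] [Algebra L D] : Type (u + 1) where
  F : Type u
  D1 : Type u
  [fL : Field F]
  [aL : Algebra K F]
  [dD : DivisionRing D1]
  [aD : Algebra F D1]
  [fin : Module.Finite F D1]
  j : D →+* D1
  e : Fin n → D1
  t : Fin n → D1
  hj : ∀ (a : K) (d : D), j (algebraMap K L a • d) = algebraMap K F a • j d
  r1 : ∀ a, e a * e a = ∑ l, algebraMap K F (co l a a) • t l
  r2 : ∀ a b, e a * e b + e b * e a = ∑ l, algebraMap K F (co l a b + co l b a) • t l
  hc : ∀ i d, e i * j d = j d * e i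
  hind : ∀ w : Fin n → D, ∑ i, e i * j (w i) = 0 → w = 0

attribute [instance] Ext.fL Ext.aL Ext.dD Ext.aD Ext.fin

theorem ext_of_dat {K : Type u} [Field K] {n : ℕ} (co : Fin n → Fin n → Fin n → K)
    {L D E : Type u} [Field L] [Algebra K L] [DivisionRing D] [Algebra L D] [Module.Finite L D]
    [Ring E] [Algebra L E] [Module D E] [IsScalarTower L D E] [IsScalarTower D E E] [Nontrivial E]
    (Δ : Dat L D E n) (hΔ : ∀ l j j', Δ.co l j j' = algebraMap K L (co l j j'))
    (hdom : IsDomain Δ.Cs) (hind : ∀ w : Fin n → D, ∑ j, w j • Δ.e j = 0 → w = 0) :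
    Nonempty (Ext K co L D) := by
  let T := MvPolynomial (Fin n) L
  let D1 := FF L n ⊗[T] Δ.Cs
  have hdom1 : IsDomain D1 := loc_domain Δ.Cs_inj
  let _ : DivisionRing D1 := divisionRingOfFiniteDimensional (FF L n) D1
  let ι : Δ.Cs →ₐ[T] D1 := Algebra.TensorProduct.includeRight
  have hsm : ∀ (a : K) (x : Δ.Cs), ι ((C (algebraMap K L a) : T) • x) =
      algebraMap K (FF L n) a • ι x := by
    intro a x
    rw [map_smul, ← algebraMap_smul (FF L n) (C (algebraMap K L a) : T)]
    rfl
  refine ⟨{ F := FF L n, D1 := D1, j := ι.toRingHom.comp Δ.jC, e := fun i => ι (Δ.eC i),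
            t := fun l => ι (algebraMap T _ (X l)), hj := ?_, r1 := ?_, r2 := ?_, hc := ?_,
            hind := ?_ }⟩
  · intro a d
    show ι (Δ.jC _) = _
    rw [Δ.jC_smul, hsm]; rfl
  · intro a
    rw [← map_mul ι, Δ.eC_r1, map_sum]
    refine Finset.sum_congr rfl fun l _ => ?_
    rw [hΔ]
    exact hsm _ _
  · intro a b
    rw [← map_mul ι, ← map_mul ι, ← map_add ι, Δ.eC_r2, map_sum]
    refine Finset.sum_congr rfl fun l _ => ?_
    rw [hΔ, hΔ, ← map_add (algebraMap K L)]
    exact hsm _ _
  · intro i d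
    show ι _ * ι _ = ι _ * ι _
    rw [← map_mul ι, ← map_mul ι, Δ.eC_comm]
  · intro w hw
    apply Δ.eC_ind hind
    apply loc_inj Δ.Cs_inj
    show ι _ = 0
    rw [← hw, map_sum]
    exact Finset.sum_congr rfl fun i _ => map_mul ι _ _

theorem ext_exists {K : Type u} [Field K] {m : ℕ}
    (f : Fin (m + 1) → MvPolynomial (Fin (m + 1)) K)
    (hh : ∀ l, (f l).IsHomogeneous 2) (hreg : Reg f)
    (co : Fin (m + 1) → Fin (m + 1) → Fin (m + 1) → K)
    (hco : ∀ l, f l = ∑ j, ∑ k, co l j k • (X j * X k))
    (L D : Type u) [Field L] [Algebra K L] [DivisionRing D] [Algebra L D] [Module.Finite L D] :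
    Nonempty (Ext K co L D) :=
  ext_of_dat co (dat L D (fun l j j' => algebraMap K L (co l j j'))) (fun _ _ _ => rfl)
    (Dat.Cs_domain _ fun _ _ _ _ hx hy hxy =>
      Dat.G_domain _ f hh hreg co hco (fun _ _ _ => rfl) hx hy hxy) (dat_ind _ _ _)

theorem tower_step {K : Type u} [Field K] {n : ℕ} (co : Fin n → Fin n → Fin n → K) {k : ℕ}
    (hk : k < n) (τ : Tower K co k) (ε : Ext K co τ.L τ.D) : Nonempty (Tower K co (k + 1)) := by
  refine ⟨{ L := ε.F, D := ε.D1
            e := Fin.snoc (α := fun _ => Fin n → ε.D1) (fun i a => ε.j (τ.e i a)) ε.e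
            t := Fin.snoc (α := fun _ => Fin n → ε.D1) (fun i a => ε.j (τ.t i a)) ε.t
            r1 := ?_, r2 := ?_, comm := ?_, surj := ?_ }⟩
  · intro i a
    induction i using Fin.lastCases with
    | last => simp only [Fin.snoc_last]; exact ε.r1 a
    | cast i =>
      simp only [Fin.snoc_castSucc]
      rw [← map_mul, τ.r1, map_sum]
      exact Finset.sum_congr rfl fun l _ => ε.hj _ _
  · intro i a b
    induction i using Fin.lastCases with
    | last => simp only [Fin.snoc_last]; exact ε.r2 a b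
    | cast i =>
      simp only [Fin.snoc_castSucc]
      rw [← map_mul, ← map_mul, ← map_add, τ.r2, map_sum]
      exact Finset.sum_congr rfl fun l _ => ε.hj _ _
  · intro i i' hne a b
    induction i using Fin.lastCases with
    | last =>
      induction i' using Fin.lastCases with
      | last => exact absurd rfl hne
      | cast i' => simp only [Fin.snoc_last, Fin.snoc_castSucc]; exact ε.hc _ _
    | cast i =>
      induction i' using Fin.lastCases with
      | last => simp only [Fin.snoc_last, Fin.snoc_castSucc]; exact (ε.hc _ _).symm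
      | cast i' =>
        simp only [Fin.snoc_castSucc]
        rw [← map_mul, ← map_mul, τ.comm i i' (fun h => hne (by rw [h]))]
  · intro y
    obtain ⟨w0, hw0, hw0'⟩ := exists_ker (L := τ.L) hk τ.e
    choose v hv using fun i : Fin k => τ.surj (Pi.single i 1)
    have hlam : ∑ a, ε.e a * ε.j (w0 a) ≠ 0 := fun h => hw0 (ε.hind _ h)
    set lam := ∑ a, ε.e a * ε.j (w0 a) with hlamdef
    set r := lam⁻¹ * (y (Fin.last k) - ∑ a, ε.e a * ∑ i, ε.j (v i a) * y i.castSucc) with hr
    refine ⟨fun a => ∑ i, ε.j (v i a) * y i.castSucc + ε.j (w0 a) * r, fun i => ?_⟩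
    induction i using Fin.lastCases with
    | last =>
      simp only [Fin.snoc_last, mul_add, sum_add_distrib, ← mul_assoc]
      rw [← Finset.sum_mul, ← hlamdef, hr, mul_inv_cancel_left₀ hlam, add_sub_cancel]
    | cast i =>
      simp only [Fin.snoc_castSucc, mul_add, sum_add_distrib, ← mul_assoc, Finset.mul_sum]
      rw [← Finset.sum_mul, Finset.sum_comm]
      simp only [← map_mul, ← Finset.sum_mul, ← map_sum, hw0', hv]
      simp [Pi.single_apply]

theorem tower_exists {K : Type u} [Field K] {n : ℕ}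
    (f : Fin n → MvPolynomial (Fin n) K)
    (hh : ∀ l, (f l).IsHomogeneous 2) (hreg : Reg f)
    (co : Fin n → Fin n → Fin n → K)
    (hco : ∀ l, f l = ∑ j, ∑ k, co l j k • (X j * X k)) (k : ℕ) (hk : k ≤ n) :
    Nonempty (Tower K co k) := by
  induction k with
  | zero =>
    exact ⟨{ L := K, D := K, e := Fin.elim0, t := Fin.elim0, r1 := fun i => i.elim0,
             r2 := fun i => i.elim0, comm := fun i => i.elim0,
             surj := fun _ => ⟨0, fun i => i.elim0⟩ }⟩
  | succ k ih =>
    obtain ⟨m, rfl⟩ : ∃ m, n = m + 1 := ⟨n - 1, by omega⟩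
    obtain ⟨τ⟩ := ih (by omega)
    obtain ⟨ε⟩ := ext_exists f hh hreg co hco τ.L τ.D
    exact tower_step co hk τ ε

end Vale.Agent.P200
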